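import Vale.Agent.P150.Defs

/-! Basic facts on single-spin updates (helper2) -/

open Function

namespace P150

noncomputable section

set_option linter.unusedSectionVars false

variable {ι : Type} [Fintype ι] [DecidableEq ι]

lemma sp_true : sp true = 1 := by simp [sp]
lemma sp_false : sp false = -1 := by simp [sp]
lemma sp_sq (b : Bool) : sp b ^ 2 = 1 := by cases b <;> simp [sp]
lemma sp_mul_self (b : Bool) : sp b * sp b = 1 := by cases b <;> simp [sp]
lemma abs_sp (b : Bool) : |sp b| = 1 := by cases b <;> simp [sp]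

lemma wt_pos (J : ι → ι → ℝ) (h : ι → ℝ) (x : ι → Bool) : 0 < wt J h x := Real.exp_pos _

lemma Zf_pos (J : ι → ι → ℝ) (h : ι → ℝ) : 0 < Zf J h :=
  Finset.sum_pos (fun x _ => wt_pos J h x) Finset.univ_nonempty

/-- flipping one spin -/
def flipE (i : ι) : (ι → Bool) ≃ (ι → Bool) where
  toFun x := update x i (!x i)
  invFun x := update x i (!x i)
  left_inv x := by
    funext k
    by_cases hk : k = i
    · subst hk; simp
    · simp [hk]
  right_inv x := by
    funext k
    by_cases hk : k = i
    · subst hk; simp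
    · simp [hk]

/-- averaging over one spin -/
lemma sum_update (i : ι) (F : (ι → Bool) → ℝ) :
    ∑ x, ∑ s : Bool, F (update x i s) = 2 * ∑ x, F x := by
  have h1 : ∀ x : ι → Bool, ∑ s : Bool, F (update x i s) = F x + F (flipE i x) := by
    intro x
    rw [Fintype.sum_bool]
    have e : update x i (x i) = x := update_eq_self i x
    rcases hx : x i with _ | _
    · have : flipE i x = update x i true := by simp [flipE, hx]
      rw [this]
      rw [hx] at e
      rw [e]; ring
    · have : flipE i x = update x i false := by simp [flipE, hx]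
      rw [this]
      rw [hx] at e
      rw [e]
  calc ∑ x, ∑ s : Bool, F (update x i s) = ∑ x, (F x + F (flipE i x)) :=
        Finset.sum_congr rfl (fun x _ => h1 x)
    _ = ∑ x, F x + ∑ x, F (flipE i x) := Finset.sum_add_distrib
    _ = 2 * ∑ x, F x := by
        rw [Equiv.sum_comp (flipE i) F]; ring

/-- averaging over one spin, in the `true`/`false` form -/
lemma sum_update' (i : ι) (F : (ι → Bool) → ℝ) :
    ∑ x, (F (update x i true) + F (update x i false)) = 2 * ∑ x, F x := by
  rw [← sum_update i F]
  exact Finset.sum_congr rfl (fun x _ => (Fintype.sum_bool (fun s => F (update x i s))).symm)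

/-- averaging over two spins -/
lemma sum_update_two (i j : ι) (F : (ι → Bool) → ℝ) :
    ∑ x, ∑ s : Bool, ∑ t : Bool, F (update (update x i s) j t) = 4 * ∑ x, F x := by
  have := sum_update i (fun x => ∑ t : Bool, F (update x j t))
  rw [this, sum_update j F]; ring

lemma fld_update (J : ι → ι → ℝ) (h : ι → ℝ) (k i : ι) (x : ι → Bool) (s : Bool) :
    fld J h k (update x i s) = fld J h k x + J k i * (sp s - sp (x i)) := by
  unfold fld
  have : ∀ j, J k j * sp (update x i s j) =
      J k j * sp (x j) + (if j = i then J k i * (sp s - sp (x i)) else 0) := by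
    intro j
    by_cases hj : j = i
    · subst hj; simp; ring
    · simp [hj]
  simp_rw [this]
  rw [Finset.sum_add_distrib]
  simp
  ring

lemma fld_update_self (J : ι → ι → ℝ) (hd : ∀ i, J i i = 0) (h : ι → ℝ) (i : ι) (x : ι → Bool)
    (s : Bool) : fld J h i (update x i s) = fld J h i x := by
  rw [fld_update, hd]; ring

lemma mg_update_self (J : ι → ι → ℝ) (hd : ∀ i, J i i = 0) (h : ι → ℝ) (i : ι) (x : ι → Bool)
    (s : Bool) : mg J h i (update x i s) = mg J h i x := by
  unfold mg; rw [fld_update_self J hd]

lemma Vg_update_self (J : ι → ι → ℝ) (hd : ∀ i, J i i = 0) (h : ι → ℝ) (i : ι) (x : ι → Bool)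
    (s : Bool) : Vg J h i (update x i s) = Vg J h i x := by
  unfold Vg; rw [mg_update_self J hd]

lemma dB_update_self (f : (ι → Bool) → ℝ) (i : ι) (x : ι → Bool)
    (s : Bool) : dB i f (update x i s) = dB i f x := by
  unfold dB; simp

lemma ham_update (J : ι → ι → ℝ) (hs : ∀ i j, J i j = J j i) (hd : ∀ i, J i i = 0)
    (h : ι → ℝ) (i : ι) (x : ι → Bool) (s : Bool) :
    ham J h (update x i s) = ham J h x + (sp s - sp (x i)) * fld J h i x := by
  unfold ham fld
  set c := sp s - sp (x i) with hc
  have e : ∀ j, sp (update x i s j) = sp (x j) + (if j = i then c else 0) := by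
    intro j
    by_cases hj : j = i
    · subst hj; simp [hc]
    · simp [hj]
  simp_rw [e]
  have e1 : ∀ k l, J k l * (sp (x k) + if k = i then c else 0) *
      (sp (x l) + if l = i then c else 0) =
      J k l * sp (x k) * sp (x l) + (if l = i then c * (J i k * sp (x k)) else 0)
        + (if k = i then c * (J i l * sp (x l)) else 0) := by
    intro k l
    by_cases hk : k = i
    · by_cases hl : l = i
      · subst hk; subst hl; simp [hd]
      · subst hk; simp [hl]; ring
    · by_cases hl : l = i
      · subst hl; simp [hk, hs k l]; ring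
      · simp [hk, hl]
  simp_rw [e1]
  have e2 : ∀ k, ∑ l, (J k l * sp (x k) * sp (x l) + (if l = i then c * (J i k * sp (x k)) else 0)
        + (if k = i then c * (J i l * sp (x l)) else 0)) =
      ∑ l, J k l * sp (x k) * sp (x l) + c * (J i k * sp (x k)) +
        (if k = i then c * ∑ l, J i l * sp (x l) else 0) := by
    intro k
    rw [Finset.sum_add_distrib, Finset.sum_add_distrib]
    by_cases hk : k = i
    · subst hk; simp [Finset.mul_sum]
    · simp [hk]
  simp_rw [e2]
  rw [Finset.sum_add_distrib, Finset.sum_add_distrib]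
  have e3 : ∀ k, h k * (sp (x k) + if k = i then c else 0) =
      h k * sp (x k) + (if k = i then c * h i else 0) := by
    intro k
    by_cases hk : k = i
    · subst hk; simp; ring
    · simp [hk]
  simp_rw [e3]
  rw [Finset.sum_add_distrib]
  simp only [Finset.sum_ite_eq', Finset.mem_univ, if_true, ← Finset.mul_sum]
  ring

lemma wt_update (J : ι → ι → ℝ) (hs : ∀ i j, J i j = J j i) (hd : ∀ i, J i i = 0)
    (h : ι → ℝ) (i : ι) (x : ι → Bool) (s : Bool) :
    wt J h (update x i s) =
      wt J h x * Real.exp (-(sp (x i) * fld J h i x)) * Real.exp (sp s * fld J h i x) := by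
  unfold wt
  rw [ham_update J hs hd, ← Real.exp_add, ← Real.exp_add]
  congr 1; ring

/-- conditional expectation of a spin -/
lemma cond_mean (L : ℝ) (c : ℝ) :
    Real.exp (sp true * L) * ((sp true - Real.tanh L) * c) +
      Real.exp (sp false * L) * ((sp false - Real.tanh L) * c) = 0 := by
  rw [sp_true, sp_false, Real.tanh_eq_sinh_div_cosh, Real.sinh_eq, Real.cosh_eq]
  have : Real.exp L + Real.exp (-L) ≠ 0 := (by positivity)
  field_simp
  ring_nf

/-- `E[(x_i - m_i) G | x_{-i}] = 0` -/
lemma sum_wt_a_mul (J : ι → ι → ℝ) (hs : ∀ i j, J i j = J j i) (hd : ∀ i, J i i = 0)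
    (h : ι → ℝ) (i : ι) (G : (ι → Bool) → ℝ) (hG : ∀ x s, G (update x i s) = G x) :
    ∑ x, wt J h x * ((sp (x i) - mg J h i x) * G x) = 0 := by
  have h2 := sum_update' i (fun x => wt J h x * ((sp (x i) - mg J h i x) * G x))
  have h3 : ∀ x : ι → Bool,
      (fun x => wt J h x * ((sp (x i) - mg J h i x) * G x)) (update x i true) +
      (fun x => wt J h x * ((sp (x i) - mg J h i x) * G x)) (update x i false) = 0 := by
    intro x
    simp only [wt_update J hs hd, mg_update_self J hd, hG, update_self]
    have := cond_mean (fld J h i x) (G x)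
    unfold mg
    calc _ = wt J h x * Real.exp (-(sp (x i) * fld J h i x)) *
        (Real.exp (sp true * fld J h i x) * ((sp true - Real.tanh (fld J h i x)) * G x) +
      Real.exp (sp false * fld J h i x) * ((sp false - Real.tanh (fld J h i x)) * G x)) := by ring
      _ = 0 := by rw [this, mul_zero]
  rw [Finset.sum_congr rfl (fun x _ => h3 x)] at h2
  simp only [Finset.sum_const_zero] at h2
  linarith

lemma sum_wt_a_sq_mul (J : ι → ι → ℝ) (hs : ∀ i j, J i j = J j i) (hd : ∀ i, J i i = 0)
    (h : ι → ℝ) (i : ι) (G : (ι → Bool) → ℝ) (hG : ∀ x s, G (update x i s) = G x) :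
    ∑ x, wt J h x * ((sp (x i) - mg J h i x) ^ 2 * G x) =
      ∑ x, wt J h x * (Vg J h i x * G x) := by
  have h1 := sum_wt_a_mul J hs hd h i (fun x => (-2) * mg J h i x * G x)
    (fun x s => by simp only [mg_update_self J hd, hG])
  have h2 : ∀ x, wt J h x * ((sp (x i) - mg J h i x) ^ 2 * G x) =
      wt J h x * (Vg J h i x * G x) +
      wt J h x * ((sp (x i) - mg J h i x) * ((-2) * mg J h i x * G x)) := by
    intro x
    have := sp_sq (x i)
    unfold Vg
    linear_combination (wt J h x * G x) * this
  rw [Finset.sum_congr rfl (fun x _ => h2 x), Finset.sum_add_distrib, h1, add_zero]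

lemma sum_wt_sp_a_mul (J : ι → ι → ℝ) (hs : ∀ i j, J i j = J j i) (hd : ∀ i, J i i = 0)
    (h : ι → ℝ) (i : ι) (G : (ι → Bool) → ℝ) (hG : ∀ x s, G (update x i s) = G x) :
    ∑ x, wt J h x * (sp (x i) * (sp (x i) - mg J h i x) * G x) =
      ∑ x, wt J h x * (Vg J h i x * G x) := by
  have h1 := sum_wt_a_mul J hs hd h i (fun x => (-1) * mg J h i x * G x)
    (fun x s => by simp only [mg_update_self J hd, hG])
  have h2 : ∀ x, wt J h x * (sp (x i) * (sp (x i) - mg J h i x) * G x) =
      wt J h x * (Vg J h i x * G x) +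
      wt J h x * ((sp (x i) - mg J h i x) * ((-1) * mg J h i x * G x)) := by
    intro x
    have := sp_sq (x i)
    unfold Vg
    linear_combination (wt J h x * G x) * this
  rw [Finset.sum_congr rfl (fun x _ => h2 x), Finset.sum_add_distrib, h1, add_zero]

lemma Vg_pos (J : ι → ι → ℝ) (h : ι → ℝ) (i : ι) (x : ι → Bool) : 0 < Vg J h i x := by
  unfold Vg mg
  have h1 := Real.tanh_lt_one (fld J h i x)
  have h2 := Real.neg_one_lt_tanh (fld J h i x)
  nlinarith

lemma Vg_le_one (J : ι → ι → ℝ) (h : ι → ℝ) (i : ι) (x : ι → Bool) : Vg J h i x ≤ 1 := by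
  unfold Vg; nlinarith [sq_nonneg (mg J h i x)]

/-- splitting `f = (average over the spin) + x_i B_i f` -/
lemma f_split (f : (ι → Bool) → ℝ) (i : ι) (x : ι → Bool) :
    f x = (f (update x i true) + f (update x i false)) / 2 + sp (x i) * dB i f x := by
  unfold dB
  have e : update x i (x i) = x := update_eq_self i x
  rcases hx : x i with _ | _
  · rw [hx] at e; rw [sp_false, e]; ring
  · rw [hx] at e; rw [sp_true, e]; ring

end

end P150
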