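import Vale.Agent.P150.Defs
import Vale.Agent.P150.Flip

/-! [C] reversibility, spectral gap from the Bochner inequality, covariance bound (helper2) -/

open Function

namespace P150

noncomputable section

set_option linter.unusedSectionVars false

section ising
variable {ι : Type} [Fintype ι] [DecidableEq ι]

lemma ev_mul_gen_aux (J : ι → ι → ℝ) (hs : ∀ i j, J i j = J j i) (hd : ∀ i, J i i = 0)
    (h : ι → ℝ) (f g : (ι → Bool) → ℝ) :
    ∑ x, wt J h x * (f x * gen J h g x) =
      - ∑ x, wt J h x * (∑ i, Vg J h i x * dB i f x * dB i g x) := by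
  have e1 : ∀ x, wt J h x * (f x * gen J h g x) =
      - ∑ i, wt J h x * (f x * ((sp (x i) - mg J h i x) * dB i g x)) := by
    intro x
    unfold gen
    rw [← Finset.mul_sum, ← Finset.mul_sum]; ring
  rw [Finset.sum_congr rfl (fun x _ => e1 x), Finset.sum_neg_distrib, Finset.sum_comm]
  congr 1
  have e2 : ∀ x, wt J h x * (∑ i, Vg J h i x * dB i f x * dB i g x) =
      ∑ i, wt J h x * (Vg J h i x * (dB i f x * dB i g x)) := by
    intro x
    rw [Finset.mul_sum]
    exact Finset.sum_congr rfl (fun i _ => by ring)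
  rw [Finset.sum_congr rfl (fun x _ => e2 x)]
  rw [Finset.sum_comm (s := (Finset.univ : Finset (ι → Bool)))]
  refine Finset.sum_congr rfl (fun i _ => ?_)
  rw [← sum_wt_sp_a_mul J hs hd h i (fun x => dB i f x * dB i g x)
    (fun x s => by simp only [dB_update_self])]
  have h1 := sum_wt_a_mul J hs hd h i
    (fun x => (f (update x i true) + f (update x i false)) / 2 * dB i g x)
    (fun x s => by simp only [dB_update_self, update_idem])
  have e3 : ∀ x, wt J h x * (f x * ((sp (x i) - mg J h i x) * dB i g x)) =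
      wt J h x * (sp (x i) * (sp (x i) - mg J h i x) * (dB i f x * dB i g x)) +
      wt J h x * ((sp (x i) - mg J h i x) *
        ((f (update x i true) + f (update x i false)) / 2 * dB i g x)) := by
    intro x
    have := f_split f i x
    linear_combination (wt J h x * ((sp (x i) - mg J h i x) * dB i g x)) * this
  rw [Finset.sum_congr rfl (fun x _ => e3 x), Finset.sum_add_distrib, h1, add_zero]

/-- reversibility -/
theorem ev_mul_gen (J : ι → ι → ℝ) (hs : ∀ i j, J i j = J j i) (hd : ∀ i, J i i = 0)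
    (h : ι → ℝ) (f g : (ι → Bool) → ℝ) :
    ev J h (fun x => f x * gen J h g x) =
      - ev J h (fun x => ∑ i, Vg J h i x * dB i f x * dB i g x) := by
  unfold ev
  rw [ev_mul_gen_aux J hs hd h f g, neg_div]

lemma dB_add (i : ι) (f g : (ι → Bool) → ℝ) (x : ι → Bool) :
    dB i (f + g) x = dB i f x + dB i g x := by
  unfold dB; simp only [Pi.add_apply]; ring

lemma dB_smul (i : ι) (c : ℝ) (f : (ι → Bool) → ℝ) (x : ι → Bool) :
    dB i (c • f) x = c * dB i f x := by
  unfold dB; simp only [Pi.smul_apply, smul_eq_mul]; ring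

lemma gen_add (J : ι → ι → ℝ) (h : ι → ℝ) (f g : (ι → Bool) → ℝ) :
    gen J h (f + g) = gen J h f + gen J h g := by
  funext x
  simp only [gen, Pi.add_apply, dB_add]
  rw [← neg_add, ← Finset.sum_add_distrib]
  congr 1
  exact Finset.sum_congr rfl (fun i _ => by ring)

lemma gen_smul (J : ι → ι → ℝ) (h : ι → ℝ) (c : ℝ) (f : (ι → Bool) → ℝ) :
    gen J h (c • f) = c • gen J h f := by
  funext x
  simp only [gen, Pi.smul_apply, dB_smul, smul_eq_mul]
  rw [mul_neg, Finset.mul_sum]
  congr 1
  exact Finset.sum_congr rfl (fun i _ => by ring)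

/-- the generator as a linear map -/
def genL (J : ι → ι → ℝ) (h : ι → ℝ) : ((ι → Bool) → ℝ) →ₗ[ℝ] ((ι → Bool) → ℝ) where
  toFun := gen J h
  map_add' := gen_add J h
  map_smul' := gen_smul J h

/-- the unnormalised mean as a linear functional -/
def meanL (J : ι → ι → ℝ) (h : ι → ℝ) : ((ι → Bool) → ℝ) →ₗ[ℝ] ℝ where
  toFun f := ∑ x, wt J h x * f x
  map_add' f g := by
    simp only [Pi.add_apply, mul_add, Finset.sum_add_distrib]
  map_smul' c f := by
    simp only [Pi.smul_apply, smul_eq_mul, RingHom.id_apply, Finset.mul_sum]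
    exact Finset.sum_congr rfl (fun i _ => by ring)

lemma dB_const (i : ι) (c : ℝ) (x : ι → Bool) : dB i (fun _ => c) x = 0 := by
  simp [dB]

lemma mean_gen (J : ι → ι → ℝ) (hs : ∀ i j, J i j = J j i) (hd : ∀ i, J i i = 0)
    (h : ι → ℝ) (f : (ι → Bool) → ℝ) : ∑ x, wt J h x * gen J h f x = 0 := by
  have := ev_mul_gen_aux J hs hd h (fun _ => 1) f
  simpa [dB_const] using this

/-- a function all of whose discrete derivatives vanish is constant -/
lemma const_of_dB (f : (ι → Bool) → ℝ) (hf : ∀ i x, dB i f x = 0) (x y : ι → Bool) :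
    f x = f y := by
  have key : ∀ s : Finset ι, f (fun i => if i ∈ s then y i else x i) = f x := by
    intro s
    induction s using Finset.induction_on with
    | empty => simp
    | insert a s ha ih =>
      rw [← ih]
      have e : (fun i => if i ∈ insert a s then y i else x i) =
          update (fun i => if i ∈ s then y i else x i) a (y a) := by
        funext i
        by_cases hi : i = a
        · subst hi; simp
        · simp [hi]
      rw [e]
      set z : ι → Bool := fun i => if i ∈ s then y i else x i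
      have h1 := hf a z
      unfold dB at h1
      have h2 : f (update z a true) = f (update z a false) := by linarith
      have h3 : ∀ b c : Bool, f (update z a b) = f (update z a c) := by
        intro b c
        cases b <;> cases c <;> simp [h2]
      have h4 := h3 (y a) (z a)
      rw [update_eq_self] at h4
      exact h4
  have := key Finset.univ
  simp at this
  exact this.symm

lemma gen_eq_zero (J : ι → ι → ℝ) (hs : ∀ i j, J i j = J j i) (hd : ∀ i, J i i = 0)
    (h : ι → ℝ) (f : (ι → Bool) → ℝ) (hf : gen J h f = 0) : ∀ i x, dB i f x = 0 := by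
  have h1 := ev_mul_gen_aux J hs hd h f f
  rw [hf] at h1
  simp only [Pi.zero_apply, mul_zero, Finset.sum_const_zero] at h1
  have h2 : ∑ x, wt J h x * (∑ i, Vg J h i x * dB i f x * dB i f x) = 0 := by linarith
  have h3 : ∀ x, 0 ≤ wt J h x * (∑ i, Vg J h i x * dB i f x * dB i f x) := by
    intro x
    refine mul_nonneg (wt_pos J h x).le (Finset.sum_nonneg fun i _ => ?_)
    have := Vg_pos J h i x
    rw [mul_assoc]
    exact mul_nonneg this.le (mul_self_nonneg _)
  rw [Finset.sum_eq_zero_iff_of_nonneg (fun x _ => h3 x)] at h2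
  intro i x
  have h4 := h2 x (Finset.mem_univ x)
  have h5 : ∑ i, Vg J h i x * dB i f x * dB i f x = 0 := by
    rcases mul_eq_zero.mp h4 with h' | h'
    · exact absurd h' (wt_pos J h x).ne'
    · exact h'
  have h6 : ∀ i ∈ Finset.univ, 0 ≤ Vg J h i x * dB i f x * dB i f x := by
    intro i _
    rw [mul_assoc]
    exact mul_nonneg (Vg_pos J h i x).le (mul_self_nonneg _)
  rw [Finset.sum_eq_zero_iff_of_nonneg h6] at h5
  have h7 := h5 i (Finset.mem_univ i)
  rw [mul_assoc] at h7
  rcases mul_eq_zero.mp h7 with h' | h'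
  · exact absurd h' (Vg_pos J h i x).ne'
  · exact mul_self_eq_zero.mp h'

/-- every mean-zero function is in the range of the generator -/
lemma exists_gen_eq (J : ι → ι → ℝ) (hs : ∀ i j, J i j = J j i) (hd : ∀ i, J i i = 0)
    (h : ι → ℝ) (f : (ι → Bool) → ℝ) (hf : ∑ x, wt J h x * f x = 0) :
    ∃ g, gen J h g = f := by
  let W := LinearMap.ker (meanL J h)
  have hmap : ∀ g ∈ W, genL J h g ∈ W := by
    intro g _
    exact mean_gen J hs hd h g
  let T : W →ₗ[ℝ] W := (genL J h).restrict hmap
  have hinj : Function.Injective T := by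
    rw [← LinearMap.ker_eq_bot, LinearMap.ker_eq_bot']
    intro g hg
    have hg' : gen J h (g : (ι → Bool) → ℝ) = 0 := by
      have := congrArg Subtype.val hg
      exact this
    have h1 := gen_eq_zero J hs hd h _ hg'
    have h2 := const_of_dB _ h1
    apply Subtype.ext
    funext x
    have h3 : ∑ y, wt J h y * (g : (ι → Bool) → ℝ) y = 0 := g.2
    have h4 : ∀ y, wt J h y * (g : (ι → Bool) → ℝ) y = wt J h y * (g : (ι → Bool) → ℝ) x :=
      fun y => by rw [h2 y x]
    rw [Finset.sum_congr rfl (fun y _ => h4 y), ← Finset.sum_mul] at h3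
    rcases mul_eq_zero.mp h3 with h' | h'
    · exact absurd h' (Zf_pos J h).ne'
    · exact h'
  have hsurj : Function.Surjective T := LinearMap.injective_iff_surjective.mp hinj
  obtain ⟨g, hg⟩ := hsurj ⟨f, hf⟩
  exact ⟨g, congrArg Subtype.val hg⟩

lemma ev_sub_const (J : ι → ι → ℝ) (h : ι → ℝ) (f : (ι → Bool) → ℝ) :
    ∑ x, wt J h x * (f x - ev J h f) = 0 := by
  have hZ := (Zf_pos J h).ne'
  simp only [mul_sub, Finset.sum_sub_distrib, ← Finset.sum_mul]
  unfold ev
  have : (∑ x, wt J h x) = Zf J h := rfl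
  rw [this, mul_div_cancel₀ _ hZ]
  ring

lemma ev_nonneg (J : ι → ι → ℝ) (h : ι → ℝ) (f : (ι → Bool) → ℝ) (hf : ∀ x, 0 ≤ f x) :
    0 ≤ ev J h f :=
  div_nonneg (Finset.sum_nonneg fun x _ => mul_nonneg (wt_pos J h x).le (hf x)) (Zf_pos J h).le

lemma ev_mono (J : ι → ι → ℝ) (h : ι → ℝ) (f g : (ι → Bool) → ℝ) (hf : ∀ x, f x ≤ g x) :
    ev J h f ≤ ev J h g := by
  unfold ev
  exact div_le_div_of_nonneg_right
    (Finset.sum_le_sum fun x _ => mul_le_mul_of_nonneg_left (hf x) (wt_pos J h x).le)
    (Zf_pos J h).le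

lemma ev_const (J : ι → ι → ℝ) (h : ι → ℝ) (c : ℝ) : ev J h (fun _ => c) = c := by
  unfold ev
  rw [← Finset.sum_mul]
  exact mul_div_cancel_left₀ _ (Zf_pos J h).ne'

lemma dirf_nonneg (J : ι → ι → ℝ) (h : ι → ℝ) (f : (ι → Bool) → ℝ) : 0 ≤ dirf J h f :=
  ev_nonneg J h _ fun x => Finset.sum_nonneg fun i _ =>
    mul_nonneg (Vg_pos J h i x).le (sq_nonneg _)

theorem gap_of_bochner (J : ι → ι → ℝ) (hs : ∀ i j, J i j = J j i) (hd : ∀ i, J i i = 0)
    (h : ι → ℝ) (γ : ℝ) (hγ : 0 < γ)
    (H : ∀ f, γ * dirf J h f ≤ ev J h (fun x => gen J h f x ^ 2)) :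
    ∀ f, γ * vr J h f ≤ dirf J h f := by
  intro f
  obtain ⟨g, hg⟩ := exists_gen_eq J hs hd h (fun x => f x - ev J h f) (ev_sub_const J h f)
  have h1 := H g
  rw [hg] at h1
  have h1' : γ * dirf J h g ≤ vr J h f := h1
  -- D(f, g) = - Var f
  have h2 : vr J h f = - ev J h (fun x => ∑ i, Vg J h i x * dB i f x * dB i g x) := by
    have h3 := ev_mul_gen J hs hd h (fun x => f x - ev J h f) g
    rw [hg] at h3
    have h4 : ∀ i x, dB i (fun x => f x - ev J h f) x = dB i f x := by
      intro i x; unfold dB; ring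
    simp only [h4] at h3
    rw [← h3]
    unfold vr
    congr 1
    funext x
    ring
  -- D(f + γ g) ≥ 0
  have h5 := dirf_nonneg J h (f + γ • g)
  have h6 : dirf J h (f + γ • g) = dirf J h f +
      2 * γ * ev J h (fun x => ∑ i, Vg J h i x * dB i f x * dB i g x) + γ ^ 2 * dirf J h g := by
    unfold dirf ev
    rw [← mul_div_assoc, ← mul_div_assoc, ← add_div, ← add_div]
    congr 1
    rw [Finset.mul_sum, Finset.mul_sum, ← Finset.sum_add_distrib, ← Finset.sum_add_distrib]
    refine Finset.sum_congr rfl fun x _ => ?_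
    have : ∑ i, Vg J h i x * dB i (f + γ • g) x ^ 2 =
        ∑ i, Vg J h i x * dB i f x ^ 2 + 2 * γ * ∑ i, Vg J h i x * dB i f x * dB i g x +
        γ ^ 2 * ∑ i, Vg J h i x * dB i g x ^ 2 := by
      rw [Finset.mul_sum, Finset.mul_sum, ← Finset.sum_add_distrib, ← Finset.sum_add_distrib]
      refine Finset.sum_congr rfl fun i _ => ?_
      rw [dB_add, dB_smul]; ring
    beta_reduce
    rw [this]; ring
  have h7 : ev J h (fun x => ∑ i, Vg J h i x * dB i f x * dB i g x) = - vr J h f := by
    rw [h2]; ring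
  rw [h6, h7] at h5
  nlinarith

theorem cov_of_gap (J : ι → ι → ℝ) (h : ι → ℝ) (γ : ℝ) (hγ : 0 < γ)
    (H : ∀ f, γ * vr J h f ≤ dirf J h f) (a : ι → ℝ) :
    vr J h (fun x => ∑ i, a i * sp (x i)) ≤ (∑ i, a i ^ 2) / γ := by
  rw [le_div_iff₀ hγ, mul_comm]
  refine (H _).trans ?_
  have h1 : ∀ i x, dB i (fun x : ι → Bool => ∑ i, a i * sp (x i)) x = a i := by
    intro i x
    unfold dB
    rw [← Finset.sum_sub_distrib]
    have : ∀ k, a k * sp (update x i true k) - a k * sp (update x i false k) =
        if k = i then 2 * a i else 0 := by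
      intro k
      by_cases hk : k = i
      · subst hk; simp [sp]; ring
      · simp [hk]
    rw [Finset.sum_congr rfl (fun k _ => this k)]
    simp
  unfold dirf
  simp only [h1]
  calc ev J h (fun x => ∑ i, Vg J h i x * a i ^ 2) ≤ ev J h (fun _ => ∑ i, a i ^ 2) := by
        apply ev_mono
        intro x
        refine Finset.sum_le_sum fun i _ => ?_
        have := Vg_le_one J h i x
        nlinarith [sq_nonneg (a i)]
    _ = ∑ i, a i ^ 2 := ev_const J h _

end ising

end

end P150
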