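import Vale.Agent.P150.Defs
import Vale.Agent.P150.Flip
import Vale.Agent.P150.GapAbs

/-! [E] second order bound on the log-Laplace transform (helper2) -/

open Function

namespace P150

noncomputable section

set_option linter.unusedSectionVars false

section ising
variable {ι : Type} [Fintype ι] [DecidableEq ι]

lemma wt_add (J : ι → ι → ℝ) (y v : ι → ℝ) (x : ι → Bool) :
    wt J (y + v) x = wt J y x * Real.exp (∑ i, v i * sp (x i)) := by
  unfold wt ham
  rw [← Real.exp_add]
  congr 1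
  simp only [Pi.add_apply, add_mul, Finset.sum_add_distrib]
  ring

lemma wt_add_smul (J : ι → ι → ℝ) (y v : ι → ℝ) (r : ℝ) (x : ι → Bool) :
    wt J (y + r • v) x = wt J y x * Real.exp (r * ∑ i, v i * sp (x i)) := by
  rw [wt_add]
  congr 2
  rw [Finset.mul_sum]
  exact Finset.sum_congr rfl fun i _ => by simp [mul_assoc]

lemma vr_eq (J : ι → ι → ℝ) (h : ι → ℝ) (a : (ι → Bool) → ℝ) :
    vr J h a = (∑ x, wt J h x * a x ^ 2) / Zf J h - ((∑ x, wt J h x * a x) / Zf J h) ^ 2 := by
  have hZ := (Zf_pos J h).ne'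
  have h0 : (∑ x, wt J h x) = Zf J h := rfl
  unfold vr
  set m := ev J h a with hm
  have hm' : m = (∑ x, wt J h x * a x) / Zf J h := rfl
  rw [← hm']
  unfold ev
  have h1 : ∑ x, wt J h x * (a x - m) ^ 2 =
      ∑ x, wt J h x * a x ^ 2 - 2 * m * ∑ x, wt J h x * a x + m ^ 2 * Zf J h := by
    rw [← h0, Finset.mul_sum, Finset.mul_sum, ← Finset.sum_sub_distrib, ← Finset.sum_add_distrib]
    exact Finset.sum_congr rfl fun x _ => by ring
  rw [h1]
  have h2 : ∑ x, wt J h x * a x = m * Zf J h := by rw [hm']; field_simp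
  rw [h2]
  field_simp
  ring

theorem log_lap (J : ι → ι → ℝ) (y v : ι → ℝ) (q : ℝ)
    (H : ∀ y' : ι → ℝ, vr J y' (fun x => ∑ i, v i * sp (x i)) ≤ q) :
    Real.log (Zf J (y + v)) ≤
      Real.log (Zf J y) + ev J y (fun x => ∑ i, v i * sp (x i)) + q / 2 := by
  set a : (ι → Bool) → ℝ := fun x => ∑ i, v i * sp (x i) with ha
  set Z0 : ℝ → ℝ := fun r => Zf J (y + r • v) with hZ0
  set Z1 : ℝ → ℝ := fun r => ∑ x, wt J (y + r • v) x * a x with hZ1
  set Z2 : ℝ → ℝ := fun r => ∑ x, wt J (y + r • v) x * a x ^ 2 with hZ2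
  have hw : ∀ (x : ι → Bool) (r : ℝ),
      HasDerivAt (fun r : ℝ => wt J (y + r • v) x) (wt J (y + r • v) x * a x) r := by
    intro x r
    have e : (fun r : ℝ => wt J (y + r • v) x) = fun r : ℝ => wt J y x * Real.exp (r * a x) := by
      funext r; exact wt_add_smul J y v r x
    have e2 : wt J (y + r • v) x * a x = wt J y x * (Real.exp (r * a x) * (1 * a x)) := by
      rw [wt_add_smul]; ring
    rw [e, e2]
    exact (((hasDerivAt_id r).mul_const (a x)).exp).const_mul _
  have hd0 : ∀ r, HasDerivAt Z0 (Z1 r) r := by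
    intro r
    have := HasDerivAt.fun_sum fun x (_ : x ∈ (Finset.univ : Finset (ι → Bool))) => hw x r
    exact this
  have hd1 : ∀ r, HasDerivAt Z1 (Z2 r) r := by
    intro r
    have := HasDerivAt.fun_sum fun x (_ : x ∈ (Finset.univ : Finset (ι → Bool))) =>
      (hw x r).mul_const (a x)
    have e : Z2 r = ∑ x, wt J (y + r • v) x * a x * a x :=
      Finset.sum_congr rfl fun x _ => by ring
    rw [e]
    exact this
  have hZpos : ∀ r, 0 < Z0 r := fun r => Zf_pos _ _
  -- `φ' = Z1/Z0`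
  have hφ1 : ∀ r, HasDerivAt (fun r => Real.log (Z0 r)) (Z1 r / Z0 r) r := fun r =>
    (hd0 r).log (hZpos r).ne'
  have hφ2 : ∀ r, HasDerivAt (fun r => Z1 r / Z0 r) (Z2 r / Z0 r - (Z1 r / Z0 r) ^ 2) r := by
    intro r
    have h1 := (hd1 r).div (hd0 r) (hZpos r).ne'
    have e : (Z2 r * Z0 r - Z1 r * Z1 r) / Z0 r ^ 2 = Z2 r / Z0 r - (Z1 r / Z0 r) ^ 2 := by
      have := (hZpos r).ne'
      field_simp
    rw [e] at h1
    exact h1
  have hle : ∀ r, Z2 r / Z0 r - (Z1 r / Z0 r) ^ 2 ≤ q := by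
    intro r
    have := H (y + r • v)
    rw [vr_eq] at this
    exact this
  -- first monotonicity
  have hA : ∀ r, 0 ≤ r → Z1 r / Z0 r ≤ Z1 0 / Z0 0 + q * r := by
    intro r hr
    have hanti : AntitoneOn (fun r => Z1 r / Z0 r - q * r) (Set.Ici 0) := by
      apply antitoneOn_of_deriv_nonpos (convex_Ici 0)
      · exact fun s _ => (((hφ2 s).sub ((hasDerivAt_id s).const_mul q)).continuousAt).continuousWithinAt
      · exact fun s _ => (((hφ2 s).sub
          ((hasDerivAt_id s).const_mul q)).differentiableAt).differentiableWithinAt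
      · intro s _
        have := ((hφ2 s).sub ((hasDerivAt_id s).const_mul q)).deriv
        have e : deriv (fun r => Z1 r / Z0 r - q * r) s =
            Z2 s / Z0 s - (Z1 s / Z0 s) ^ 2 - q * 1 := this
        rw [e]
        linarith [hle s]
    have := hanti (Set.mem_Ici.mpr le_rfl) (Set.mem_Ici.mpr hr) hr
    simp only [mul_zero, sub_zero] at this
    linarith
  have hB : ∀ r, 0 ≤ r → HasDerivAt (fun r => Real.log (Z0 r) - (Z1 0 / Z0 0) * r -
      q / 2 * r ^ 2) (Z1 r / Z0 r - (Z1 0 / Z0 0) * 1 - q / 2 * (2 * r)) r := by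
    intro r _
    have h1 := ((hφ1 r).sub ((hasDerivAt_id r).const_mul (Z1 0 / Z0 0))).sub
      ((hasDerivAt_pow 2 r).const_mul (q / 2))
    exact h1.congr_deriv (by norm_num)
  have hanti : AntitoneOn (fun r => Real.log (Z0 r) - (Z1 0 / Z0 0) * r - q / 2 * r ^ 2)
      (Set.Ici 0) := by
    apply antitoneOn_of_deriv_nonpos (convex_Ici 0)
    · exact fun s hs => (hB s hs).continuousAt.continuousWithinAt
    · intro s hs
      rw [interior_Ici] at hs
      exact (hB s (le_of_lt hs)).differentiableAt.differentiableWithinAt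
    · intro s hs
      rw [interior_Ici] at hs
      rw [(hB s (le_of_lt hs)).deriv]
      linarith [hA s (le_of_lt hs)]
  have h1 := hanti (Set.mem_Ici.mpr le_rfl) (Set.mem_Ici.mpr zero_le_one) zero_le_one
  have e0 : Z0 0 = Zf J y := by simp [hZ0]
  have e1 : Z0 1 = Zf J (y + v) := by simp [hZ0]
  have e2 : Z1 0 / Z0 0 = ev J y a := by
    rw [e0]; simp [hZ1, ev]
  rw [← e0, ← e1, ← e2]
  simp only [mul_zero, mul_one, sub_zero, one_pow, ne_eq, OfNat.ofNat_ne_zero,
    not_false_eq_true, zero_pow] at h1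
  linarith

end ising

end

end P150
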