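import Vale.Agent.P150.Defs
import Vale.Agent.P150.Flip
import Vale.Agent.P150.GapAbs
import Vale.Agent.P150.LogLap

/-! [F] entropic stability (helper2) -/

open Function

namespace P150

noncomputable section

set_option linter.unusedSectionVars false

lemma gibbs_aux (w f N Z a : ℝ) (hw : 0 < w) (hf : 0 < f) (hN : 0 < N) (hZ : 0 < Z) :
    w * f * (a + Real.log N - Real.log f - Real.log Z) ≤ w * Real.exp a * (N / Z) - w * f := by
  have h2 : a + Real.log N - Real.log f - Real.log Z =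
      Real.log (Real.exp a * N / (f * Z)) := by
    rw [Real.log_div (by positivity) (by positivity), Real.log_mul (by positivity) hN.ne',
      Real.log_mul hf.ne' hZ.ne', Real.log_exp]
    ring
  have h3 : Real.log (Real.exp a * N / (f * Z)) ≤ Real.exp a * N / (f * Z) - 1 :=
    Real.log_le_sub_one_of_pos (by positivity)
  rw [h2]
  have h4 := mul_le_mul_of_nonneg_left h3 (mul_pos hw hf).le
  refine h4.trans (le_of_eq ?_)
  field_simp

section ising
variable {ι : Type} [Fintype ι] [DecidableEq ι]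

/-- Gibbs variational principle -/
lemma gibbs_var (J : ι → ι → ℝ) (y v : ι → ℝ) (f : (ι → Bool) → ℝ) (hf : ∀ x, 0 < f x) :
    ∑ x, wt J y x * f x * (∑ i, v i * sp (x i)) -
      (∑ x, wt J y x * f x) * (Real.log (Zf J (y + v)) - Real.log (Zf J y)) ≤
      entW Finset.univ (wt J y) f := by
  set N := ∑ x, wt J y x * f x with hN
  have hNpos : 0 < N := Finset.sum_pos (fun x _ => mul_pos (wt_pos J y x) (hf x))
    Finset.univ_nonempty
  have hZ := Zf_pos J y
  have hZv := Zf_pos J (y + v)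
  set a : (ι → Bool) → ℝ := fun x => ∑ i, v i * sp (x i) with ha
  have h0 : (∑ x, wt J y x) = Zf J y := rfl
  have h1 : ∀ x, wt J y x * f x * (a x + Real.log N - Real.log (f x) - Real.log (Zf J (y + v))) ≤
      wt J (y + v) x * (N / Zf J (y + v)) - wt J y x * f x := by
    intro x
    rw [wt_add]
    exact gibbs_aux _ _ _ _ _ (wt_pos J y x) (hf x) hNpos hZv
  have h2 : ∑ x, wt J y x * f x *
      (a x + Real.log N - Real.log (f x) - Real.log (Zf J (y + v))) ≤ 0 := by
    refine (Finset.sum_le_sum fun x _ => h1 x).trans (le_of_eq ?_)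
    rw [Finset.sum_sub_distrib, ← Finset.sum_mul, ← hN]
    have : (∑ x, wt J (y + v) x) = Zf J (y + v) := rfl
    rw [this]
    field_simp
    ring
  have h3 : ∑ x, wt J y x * f x *
      (a x + Real.log N - Real.log (f x) - Real.log (Zf J (y + v))) =
      ∑ x, wt J y x * f x * a x + N * Real.log N - ∑ x, wt J y x * f x * Real.log (f x)
        - N * Real.log (Zf J (y + v)) := by
    have e : ∀ x, wt J y x * f x *
      (a x + Real.log N - Real.log (f x) - Real.log (Zf J (y + v))) =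
      wt J y x * f x * a x + wt J y x * f x * Real.log N - wt J y x * f x * Real.log (f x)
        - wt J y x * f x * Real.log (Zf J (y + v)) := fun x => by ring
    rw [Finset.sum_congr rfl (fun x _ => e x), Finset.sum_sub_distrib, Finset.sum_sub_distrib,
      Finset.sum_add_distrib, ← Finset.sum_mul, ← Finset.sum_mul]
  rw [h3] at h2
  unfold entW
  rw [← hN, h0, Real.log_div hNpos.ne' hZ.ne']
  linarith

/-- entropic stability. `B` symmetric PSD with `B ≤ Λ`; `ν = f μ / ∫ f dμ`,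
`Δ_i = ν(x_i) - μ(x_i)`: `½ N ⟨Δ, B Δ⟩ ≤ Λ K Ent`. -/
theorem ent_stab (J : ι → ι → ℝ) (y : ι → ℝ) (f : (ι → Bool) → ℝ) (hf : ∀ x, 0 < f x)
    (B : ι → ι → ℝ) (hB : ∀ i j, B i j = B j i) (Λ K : ℝ) (hΛ : 0 < Λ) (hK : 0 < K)
    (hB0 : ∀ v : ι → ℝ, 0 ≤ ∑ i, ∑ j, B i j * v i * v j)
    (hB1 : ∀ v : ι → ℝ, ∑ i, ∑ j, B i j * v i * v j ≤ Λ * ∑ i, v i ^ 2)
    (hcov : ∀ y' a : ι → ℝ, vr J y' (fun x => ∑ i, a i * sp (x i)) ≤ K * ∑ i, a i ^ 2)
    (Δ : ι → ℝ)
    (hΔ : ∀ i, Δ i = (∑ x, wt J y x * f x * sp (x i)) / (∑ x, wt J y x * f x)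
      - (∑ x, wt J y x * sp (x i)) / (∑ x, wt J y x)) :
    (∑ x, wt J y x * f x) * (∑ i, ∑ j, B i j * Δ i * Δ j) / 2 ≤
      Λ * K * entW Finset.univ (wt J y) f := by
  set N := ∑ x, wt J y x * f x with hN
  have hNpos : 0 < N := Finset.sum_pos (fun x _ => mul_pos (wt_pos J y x) (hf x))
    Finset.univ_nonempty
  have hZ := Zf_pos J y
  have h0 : (∑ x, wt J y x) = Zf J y := rfl
  set q := ∑ i, ∑ j, B i j * Δ i * Δ j with hq
  -- `c = B Δ`
  set c : ι → ℝ := fun i => ∑ j, B i j * Δ j with hc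
  have hqc : q = ∑ i, Δ i * c i := by
    rw [hq]
    refine Finset.sum_congr rfl fun i _ => ?_
    simp only [hc]
    rw [Finset.mul_sum]
    exact Finset.sum_congr rfl fun j _ => by ring
  -- `|c|² ≤ Λ q`
  have hcq : ∑ i, c i ^ 2 ≤ Λ * q := by
    have h1 := hB0 (fun i => Δ i - (1 / Λ) * c i)
    have h2 := hB1 c
    have e1 : ∑ i, ∑ j, B i j * (Δ i - (1 / Λ) * c i) * (Δ j - (1 / Λ) * c j) =
        q - 2 * (1 / Λ) * ∑ i, c i ^ 2 + (1 / Λ) ^ 2 * ∑ i, ∑ j, B i j * c i * c j := by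
      have e2 : ∑ i, ∑ j, B i j * c i * Δ j = ∑ i, c i ^ 2 := by
        refine Finset.sum_congr rfl fun i _ => ?_
        rw [sq]
        nth_rewrite 3 [hc]
        rw [Finset.mul_sum]
        exact Finset.sum_congr rfl fun j _ => by ring
      have e3 : ∑ i, ∑ j, B i j * Δ i * c j = ∑ i, c i ^ 2 := by
        rw [Finset.sum_comm, ← e2]
        refine Finset.sum_congr rfl fun i _ => Finset.sum_congr rfl fun j _ => ?_
        rw [hB j i]; ring
      have e4 : ∑ i, ∑ j, B i j * (Δ i - (1 / Λ) * c i) * (Δ j - (1 / Λ) * c j) =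
          ∑ i, ∑ j, B i j * Δ i * Δ j - (1 / Λ) * ∑ i, ∑ j, B i j * c i * Δ j -
          (1 / Λ) * ∑ i, ∑ j, B i j * Δ i * c j +
          (1 / Λ) ^ 2 * ∑ i, ∑ j, B i j * c i * c j := by
        simp only [Finset.mul_sum, ← Finset.sum_sub_distrib, ← Finset.sum_add_distrib]
        exact Finset.sum_congr rfl fun i _ => Finset.sum_congr rfl fun j _ => by ring
      rw [e4, e2, e3, ← hq]; ring
    rw [e1] at h1
    have h3 : (1 / Λ) ^ 2 * ∑ i, ∑ j, B i j * c i * c j ≤ (1 / Λ) * ∑ i, c i ^ 2 := by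
      have h4 := mul_le_mul_of_nonneg_left h2 (sq_nonneg (1 / Λ))
      refine h4.trans (le_of_eq ?_)
      field_simp
    have h5 : (1 / Λ) * ∑ i, c i ^ 2 ≤ q := by linarith
    have h6 := mul_le_mul_of_nonneg_left h5 hΛ.le
    have h7 : Λ * ((1 / Λ) * ∑ i, c i ^ 2) = ∑ i, c i ^ 2 := by field_simp
    linarith
  -- the variational inequality with `v = ρ c`
  set ρ := 1 / (K * Λ) with hρ
  have hρpos : 0 < ρ := by positivity
  set v : ι → ℝ := fun i => ρ * c i with hv
  have h1 := gibbs_var J y v f hf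
  have h2 := log_lap J y v (K * ∑ i, v i ^ 2) (fun y' => hcov y' v)
  rw [← hN] at h1
  have h3 : ∑ x, wt J y x * f x * (∑ i, v i * sp (x i)) - N * ev J y
      (fun x => ∑ i, v i * sp (x i)) = N * (ρ * q) := by
    have e1 : ∀ g : (ι → Bool) → ℝ, ∑ x, g x * (∑ i, v i * sp (x i)) =
        ∑ i, v i * ∑ x, g x * sp (x i) := by
      intro g
      simp only [Finset.mul_sum]
      rw [Finset.sum_comm]
      exact Finset.sum_congr rfl fun i _ => Finset.sum_congr rfl fun x _ => by ring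
    unfold ev
    rw [e1 (fun x => wt J y x * f x), e1 (wt J y), hqc, ← h0]
    rw [Finset.sum_div, Finset.mul_sum, Finset.mul_sum, Finset.mul_sum,
      ← Finset.sum_sub_distrib]
    refine Finset.sum_congr rfl fun i _ => ?_
    have hNN := hNpos.ne'
    have hZZ : (∑ x, wt J y x) ≠ 0 := by rw [h0]; exact hZ.ne'
    have e2 : ∑ x, wt J y x * f x * sp (x i) = N * (Δ i + (∑ x, wt J y x * sp (x i)) /
        (∑ x, wt J y x)) := by
      rw [hΔ i]; field_simp; ring
    rw [e2]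
    simp only [hv]
    field_simp
    ring
  have h4 : ∑ i, v i ^ 2 = ρ ^ 2 * ∑ i, c i ^ 2 := by
    rw [Finset.mul_sum]
    exact Finset.sum_congr rfl fun i _ => by simp only [hv]; ring
  have h5 : N * (ρ * q) - N * (K * (ρ ^ 2 * ∑ i, c i ^ 2) / 2) ≤
      entW Finset.univ (wt J y) f := by
    have h6 := mul_le_mul_of_nonneg_left h2 hNpos.le
    rw [h4] at h6
    linarith
  have h6 : K * (ρ ^ 2 * ∑ i, c i ^ 2) / 2 ≤ ρ * q / 2 := by
    have h7 := mul_le_mul_of_nonneg_left hcq (mul_nonneg hK.le (sq_nonneg ρ))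
    have h8 : K * ρ ^ 2 * (Λ * q) = ρ * q := by
      rw [hρ]; field_simp
    rw [h8] at h7
    linarith
  have h9 : N * (ρ * q / 2) ≤ entW Finset.univ (wt J y) f := by
    have h10 := mul_le_mul_of_nonneg_left h6 hNpos.le
    linarith
  have h11 := mul_le_mul_of_nonneg_left h9 (mul_pos hΛ hK).le
  refine le_trans (le_of_eq ?_) h11
  rw [hρ]
  field_simp

end ising

end

end P150
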