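import Vale.Agent.P150.Defs

/-!
# Heat-equation identities for the unnormalised entropy
-/

open MeasureTheory ProbabilityTheory Filter Topology

namespace P150

noncomputable section

section ising
variable {ι : Type} [Fintype ι] [DecidableEq ι]

/-- `e^{t(xᵀJx + M n)/2 + y·x}` -/
def wB (J : ι → ι → ℝ) (M t : ℝ) (y : ι → ℝ) (x : ι → Bool) : ℝ :=
  Real.exp (t * ((∑ i, ∑ j, J i j * sp (x i) * sp (x j)) + M * Fintype.card ι) / 2
    + ∑ i, y i * sp (x i))

/-- tilted mean of the linear function `b · x` over the finite set `s` -/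
def tmean (s : Finset (ι → Bool)) (w : (ι → Bool) → ℝ) (b : ι → ℝ) : ℝ :=
  (∑ x ∈ s, w x * ∑ i, b i * sp (x i)) / ∑ x ∈ s, w x

namespace HeatAux

/-- weighted sums -/
def SS (J : ι → ι → ℝ) (M : ℝ) (s : Finset (ι → Bool)) (c : (ι → Bool) → ℝ) (t : ℝ)
    (y : ι → ℝ) : ℝ := ∑ x ∈ s, wB J M t y x * c x

/-- linear function -/
def lin (b : ι → ℝ) (x : ι → Bool) : ℝ := ∑ i, b i * sp (x i)

/-- the time coefficient -/
def qq (J : ι → ι → ℝ) (M : ℝ) (x : ι → Bool) : ℝ :=
  ((∑ i, ∑ j, J i j * sp (x i) * sp (x j)) + M * Fintype.card ι) / 2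

lemma sp_sq (b : Bool) : sp b ^ 2 = 1 := by cases b <;> simp [sp]

lemma wB_add (J : ι → ι → ℝ) (M t r : ℝ) (y b : ι → ℝ) (x : ι → Bool) :
    wB J M t (y + r • b) x = wB J M t y x * Real.exp (r * lin b x) := by
  unfold wB lin
  rw [← Real.exp_add]
  congr 1
  simp only [Pi.add_apply, Pi.smul_apply, smul_eq_mul, add_mul, Finset.sum_add_distrib,
    Finset.mul_sum]
  rw [add_assoc]
  congr 2
  apply Finset.sum_congr rfl; intro i _; ring

lemma wB_time (J : ι → ι → ℝ) (M t : ℝ) (y : ι → ℝ) (x : ι → Bool) :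
    wB J M t y x = Real.exp (t * qq J M x + ∑ i, y i * sp (x i)) := by
  unfold wB qq
  congr 2
  ring

lemma SS_dir (J : ι → ι → ℝ) (M : ℝ) (s : Finset (ι → Bool)) (c : (ι → Bool) → ℝ)
    (t : ℝ) (y b : ι → ℝ) :
    HasDerivAt (fun r : ℝ => SS J M s c t (y + r • b)) (SS J M s (fun x => c x * lin b x) t y) 0 := by
  unfold SS
  have h : ∀ x ∈ s, HasDerivAt (fun r : ℝ => wB J M t (y + r • b) x * c x)
      (wB J M t y x * (c x * lin b x)) 0 := by
    intro x _
    have h1 : HasDerivAt (fun r : ℝ => r * lin b x) (lin b x) 0 := by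
      simpa using (hasDerivAt_id (0:ℝ)).mul_const (lin b x)
    have h2 := (h1.exp.const_mul (wB J M t y x)).mul_const (c x)
    simp only [zero_mul, Real.exp_zero, one_mul] at h2
    have e : (fun r : ℝ => wB J M t (y + r • b) x * c x) =
        fun r : ℝ => wB J M t y x * Real.exp (r * lin b x) * c x := by
      funext r; rw [wB_add]
    rw [e]
    refine h2.congr_deriv ?_
    ring
  exact HasDerivAt.fun_sum h

lemma SS_time (J : ι → ι → ℝ) (M : ℝ) (s : Finset (ι → Bool)) (c : (ι → Bool) → ℝ)
    (t : ℝ) (y : ι → ℝ) :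
    HasDerivAt (fun r : ℝ => SS J M s c r y) (SS J M s (fun x => c x * qq J M x) t y) t := by
  unfold SS
  have h : ∀ x ∈ s, HasDerivAt (fun r : ℝ => wB J M r y x * c x)
      (wB J M t y x * (c x * qq J M x)) t := by
    intro x _
    have h1 : HasDerivAt (fun r : ℝ => r * qq J M x + ∑ i, y i * sp (x i)) (qq J M x) t := by
      simpa using ((hasDerivAt_id t).mul_const (qq J M x)).add_const (∑ i, y i * sp (x i))
    have h2 := h1.exp.mul_const (c x)
    have e : (fun r : ℝ => wB J M r y x * c x) =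
        fun r : ℝ => Real.exp (r * qq J M x + ∑ i, y i * sp (x i)) * c x := by
      funext r; rw [wB_time]
    rw [e, wB_time]
    refine h2.congr_deriv ?_
    ring
  exact HasDerivAt.fun_sum h

lemma SS_pos (J : ι → ι → ℝ) (M : ℝ) (s : Finset (ι → Bool)) (hs : s.Nonempty)
    (c : (ι → Bool) → ℝ) (hc : ∀ x, 0 < c x) (t : ℝ) (y : ι → ℝ) : 0 < SS J M s c t y := by
  unfold SS
  apply Finset.sum_pos _ hs
  intro x _
  exact mul_pos (Real.exp_pos _) (hc x)

lemma SS_cont (J : ι → ι → ℝ) (M : ℝ) (s : Finset (ι → Bool)) (c : (ι → Bool) → ℝ) :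
    Continuous (fun p : ℝ × (ι → ℝ) => SS J M s c p.1 p.2) := by
  unfold SS wB
  fun_prop

/-- derivative of `N log (N/Z)` -/
lemma deriv_phi {N Z : ℝ → ℝ} {N' Z' r : ℝ} (hN : HasDerivAt N N' r) (hZ : HasDerivAt Z Z' r)
    (hNp : 0 < N r) (hZp : 0 < Z r) :
    HasDerivAt (fun x => N x * Real.log (N x / Z x))
      (N' * Real.log (N r / Z r) + N' - N r * Z' / Z r) r := by
  have h1 := hN.div hZ hZp.ne'
  have hq : N r / Z r ≠ 0 := (div_pos hNp hZp).ne'
  have h2 := h1.log hq
  have h3 := hN.mul h2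
  refine h3.congr_deriv ?_
  have hn := hNp.ne'
  have hz := hZp.ne'
  simp only [Pi.div_apply]
  field_simp
  ring

lemma entW_eq (J : ι → ι → ℝ) (M : ℝ) (s : Finset (ι → Bool)) (f : (ι → Bool) → ℝ)
    (t : ℝ) (y : ι → ℝ) :
    entW s (wB J M t y) f = SS J M s (fun x => f x * Real.log (f x)) t y -
      SS J M s f t y * Real.log (SS J M s f t y / SS J M s (fun _ => 1) t y) := by
  unfold entW SS
  simp only [mul_one]
  congr 1
  apply Finset.sum_congr rfl; intro x _; ring

lemma SS_sum {κ : Type} [Fintype κ] (J : ι → ι → ℝ) (M : ℝ) (s : Finset (ι → Bool))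
    (c : (ι → Bool) → ℝ) (g : κ → (ι → Bool) → ℝ) (t : ℝ) (y : ι → ℝ) :
    SS J M s (fun x => c x * ((∑ k, g k x) / 2)) t y =
      (∑ k, SS J M s (fun x => c x * g k x) t y) / 2 := by
  unfold SS
  rw [Finset.sum_comm, Finset.sum_div]
  apply Finset.sum_congr rfl; intro x _
  rw [← Finset.mul_sum, ← Finset.mul_sum]
  ring

lemma qq_eq {κ : Type} [Fintype κ] (J : ι → ι → ℝ) (M : ℝ) (b : κ → ι → ℝ)
    (hb : ∀ i j, ∑ k, b k i * b k j = J i j + if i = j then M else 0) (x : ι → Bool) :
    qq J M x = (∑ k, lin (b k) x ^ 2) / 2 := by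
  unfold qq lin
  congr 1
  have h1 : ∀ k, (∑ i, b k i * sp (x i)) ^ 2 =
      ∑ i, ∑ j, (b k i * b k j) * (sp (x i) * sp (x j)) := by
    intro k
    rw [sq, Finset.sum_mul_sum]
    apply Finset.sum_congr rfl; intro i _
    apply Finset.sum_congr rfl; intro j _
    ring
  rw [Finset.sum_congr rfl (fun k _ => h1 k)]
  symm
  rw [Finset.sum_comm]
  have h2 : ∀ i, ∑ k, ∑ j, (b k i * b k j) * (sp (x i) * sp (x j)) =
      ∑ j, J i j * sp (x i) * sp (x j) + M := by
    intro i
    rw [Finset.sum_comm]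
    have h3 : ∀ j, ∑ k, (b k i * b k j) * (sp (x i) * sp (x j)) =
        J i j * sp (x i) * sp (x j) + (if i = j then M * sp (x i) * sp (x j) else 0) := by
      intro j
      rw [← Finset.sum_mul, hb]
      split_ifs <;> ring
    simp only [h3, Finset.sum_add_distrib, Finset.sum_ite_eq, Finset.mem_univ, if_true]
    have := sp_sq (x i)
    congr 1
    linear_combination M * this
  rw [Finset.sum_congr rfl (fun i _ => h2 i)]
  simp only [Finset.sum_add_distrib, Finset.sum_const, Finset.card_univ, nsmul_eq_mul]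
  ring

end HeatAux

open HeatAux in
/-- first and second derivatives of the unnormalised entropy and the heat identity -/
theorem entW_heat (J : ι → ι → ℝ) (M : ℝ) {κ : Type} [Fintype κ] (b : κ → ι → ℝ)
    (hb : ∀ i j, ∑ k, b k i * b k j = J i j + if i = j then M else 0)
    (s : Finset (ι → Bool)) (hs : s.Nonempty) (f : (ι → Bool) → ℝ) (hf : ∀ x, 0 < f x) :
    ∃ (Dt : ℝ → (ι → ℝ) → ℝ) (D1 D2 : κ → ℝ → (ι → ℝ) → ℝ),
      (∀ t y, HasDerivAt (fun r => entW s (wB J M r y) f) (Dt t y) t) ∧
      (∀ k t y, HasDerivAt (fun r : ℝ => entW s (wB J M t (y + r • b k)) f) (D1 k t y) 0) ∧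
      (∀ k t y, HasDerivAt (fun r : ℝ => D1 k t (y + r • b k)) (D2 k t y) 0) ∧
      (∀ t y, Dt t y - (∑ k, D2 k t y) / 2 =
        (∑ x ∈ s, wB J M t y x * f x) *
          (∑ k, (tmean s (fun x => wB J M t y x * f x) (b k) - tmean s (wB J M t y) (b k)) ^ 2)
          / 2) ∧
      Continuous (fun p : ℝ × (ι → ℝ) => entW s (wB J M p.1 p.2) f) := by
  have hN : ∀ t y, 0 < SS J M s f t y := fun t y => SS_pos J M s hs f hf t y
  have hZ : ∀ t y, 0 < SS J M s (fun _ => 1) t y :=
    fun t y => SS_pos J M s hs _ (fun _ => one_pos) t y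
  let S := SS J M s
  refine ⟨fun t y => S (fun x => f x * Real.log (f x) * qq J M x) t y -
      (S (fun x => f x * qq J M x) t y * Real.log (S f t y / S (fun _ => 1) t y)
        + S (fun x => f x * qq J M x) t y
        - S f t y * S (fun x => 1 * qq J M x) t y / S (fun _ => 1) t y),
    fun k t y => S (fun x => f x * Real.log (f x) * lin (b k) x) t y -
      (S (fun x => f x * lin (b k) x) t y * Real.log (S f t y / S (fun _ => 1) t y)
        + S (fun x => f x * lin (b k) x) t y
        - S f t y * S (fun x => 1 * lin (b k) x) t y / S (fun _ => 1) t y),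
    fun k t y => S (fun x => f x * Real.log (f x) * lin (b k) x * lin (b k) x) t y -
      ((S (fun x => f x * lin (b k) x * lin (b k) x) t y * Real.log (S f t y / S (fun _ => 1) t y)
        + S (fun x => f x * lin (b k) x) t y *
          (S (fun x => f x * lin (b k) x) t y / S f t y
            - S (fun x => 1 * lin (b k) x) t y / S (fun _ => 1) t y))
        + S (fun x => f x * lin (b k) x * lin (b k) x) t y
        - ((S (fun x => f x * lin (b k) x) t y * S (fun x => 1 * lin (b k) x) t y
            + S f t y * S (fun x => 1 * lin (b k) x * lin (b k) x) t y) * S (fun _ => 1) t y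
          - S f t y * S (fun x => 1 * lin (b k) x) t y * S (fun x => 1 * lin (b k) x) t y)
          / S (fun _ => 1) t y ^ 2), ?_, ?_, ?_, ?_, ?_⟩
  · intro t y
    simp only [entW_eq]
    exact (SS_time J M s _ t y).sub
      (deriv_phi (SS_time J M s f t y) (SS_time J M s (fun _ => 1) t y) (hN t y) (hZ t y))
  · intro k t y
    simp only [entW_eq]
    have h := (SS_dir J M s (fun x => f x * Real.log (f x)) t y (b k)).sub
      (deriv_phi (SS_dir J M s f t y (b k)) (SS_dir J M s (fun _ => 1) t y (b k))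
        (hN t _) (hZ t _))
    simp only [zero_smul, add_zero] at h
    exact h
  · intro k t y
    have hA := SS_dir J M s (fun x => f x * Real.log (f x) * lin (b k) x) t y (b k)
    have hB := SS_dir J M s (fun x => f x * lin (b k) x) t y (b k)
    have hF := SS_dir J M s f t y (b k)
    have h1 := SS_dir J M s (fun _ => 1) t y (b k)
    have hL := SS_dir J M s (fun x => 1 * lin (b k) x) t y (b k)
    have hq : S f t (y + (0:ℝ) • b k) / S (fun _ => 1) t (y + (0:ℝ) • b k) ≠ 0 :=
      (div_pos (hN t _) (hZ t _)).ne'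
    have hlog := (hF.div h1 (hZ t _).ne').log hq
    have hmul := hB.mul hlog
    have hlast := (hF.mul hL).div h1 (hZ t _).ne'
    have h := hA.sub ((hmul.add hB).sub hlast)
    refine HasDerivAt.congr_deriv h ?_
    simp only [zero_smul, add_zero, Pi.div_apply, Pi.mul_apply]
    have hn : SS J M s f t y ≠ 0 := (hN t y).ne'
    have hz : SS J M s (fun _ => 1) t y ≠ 0 := (hZ t y).ne'
    simp only [S]
    field_simp
  · intro t y
    have hq : ∀ x, qq J M x = (∑ k, lin (b k) x ^ 2) / 2 := fun x => qq_eq J M b hb x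
    have e1 : S (fun x => f x * Real.log (f x) * qq J M x) t y =
        (∑ k, S (fun x => f x * Real.log (f x) * lin (b k) x * lin (b k) x) t y) / 2 := by
      simp only [hq]
      have := SS_sum J M s (fun x => f x * Real.log (f x)) (fun k x => lin (b k) x ^ 2) t y
      simp only [S]
      rw [this]
      simp only [pow_two, mul_assoc]
    have e2 : S (fun x => f x * qq J M x) t y =
        (∑ k, S (fun x => f x * lin (b k) x * lin (b k) x) t y) / 2 := by
      simp only [hq]
      have := SS_sum J M s f (fun k x => lin (b k) x ^ 2) t y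
      simp only [S]
      rw [this]
      simp only [pow_two, mul_assoc]
    have e3 : S (fun x => 1 * qq J M x) t y =
        (∑ k, S (fun x => 1 * lin (b k) x * lin (b k) x) t y) / 2 := by
      simp only [hq]
      have := SS_sum J M s (fun _ => 1) (fun k x => lin (b k) x ^ 2) t y
      simp only [S]
      rw [this]
      simp only [pow_two, mul_assoc]
    have hn : S f t y ≠ 0 := (hN t y).ne'
    have hz : S (fun _ => 1) t y ≠ 0 := (hZ t y).ne'
    have t1 : ∀ k, tmean s (fun x => wB J M t y x * f x) (b k) =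
        S (fun x => f x * lin (b k) x) t y / S f t y := by
      intro k
      simp only [tmean, S, SS, lin, mul_assoc]
    have t2 : ∀ k, tmean s (wB J M t y) (b k) =
        S (fun x => 1 * lin (b k) x) t y / S (fun _ => 1) t y := by
      intro k
      simp only [tmean, S, SS, lin, mul_one, one_mul]
    have hNs : (∑ x ∈ s, wB J M t y x * f x) = S f t y := rfl
    simp only []
    rw [e1, e2, e3, hNs]
    simp only [t1, t2]
    rw [Finset.mul_sum]
    set Lg := Real.log (S f t y / S (fun _ => 1) t y) with hLg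
    rw [← sub_eq_zero]
    have : ∀ (A B C D : κ → ℝ),
        (∑ k, A k) / 2 - ((∑ k, B k) / 2 * Lg + (∑ k, B k) / 2 -
          S f t y * ((∑ k, C k) / 2) / S (fun _ => 1) t y) - (∑ k, D k) / 2
        = (∑ k, (A k - (B k * Lg + B k - S f t y * C k / S (fun _ => 1) t y) - D k)) / 2 := by
      intro A B C D
      simp only [Finset.sum_sub_distrib, Finset.sum_add_distrib, ← Finset.sum_mul,
        ← Finset.mul_sum, ← Finset.sum_div]
      ring
    rw [this, ← sub_div, ← Finset.sum_sub_distrib]
    rw [div_eq_zero_iff]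
    left
    apply Finset.sum_eq_zero
    intro k _
    field_simp
    ring
  · simp only [entW_eq]
    apply Continuous.sub (SS_cont J M s _)
    apply Continuous.mul (SS_cont J M s f)
    apply Continuous.log
    · exact (SS_cont J M s f).div (SS_cont J M s (fun _ => 1)) (fun p => (hZ p.1 p.2).ne')
    · intro p; exact (div_pos (hN p.1 p.2) (hZ p.1 p.2)).ne'

end ising

end

end P150
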