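import Vale.Agent.P150.Defs

/-!
# A maximum principle on `[0,1] × ℝⁿ` (helper file for P150)
-/

open MeasureTheory ProbabilityTheory Filter Topology

namespace P150

noncomputable section

namespace MaxAux

theorem second_nonneg (φ φ1 : ℝ → ℝ) (φ2 : ℝ) (h1 : ∀ s, HasDerivAt φ (φ1 s) s)
    (h2 : HasDerivAt φ1 φ2 0) (hmin : ∀ s, φ 0 ≤ φ s) : 0 ≤ φ2 := by
  by_contra hneg
  push Not at hneg
  have h10 : φ1 0 = 0 := by
    have hlm : IsLocalMin φ 0 := Eventually.of_forall hmin
    exact hlm.hasDerivAt_eq_zero (h1 0)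
  have hev : ∀ᶠ s in 𝓝[>] (0 : ℝ), φ1 s < 0 := by
    have hs := hasDerivAt_iff_tendsto_slope.1 h2
    have hs2 : Tendsto (slope φ1 0) (𝓝[>] 0) (𝓝 φ2) :=
      hs.mono_left (nhdsWithin_mono _ (fun x hx => ne_of_gt hx))
    filter_upwards [hs2.eventually_lt_const hneg, self_mem_nhdsWithin] with s hs hs'
    have hs0 : (0 : ℝ) < s := hs'
    rw [slope_def_field, h10, sub_zero, sub_zero] at hs
    exact (div_neg_iff.1 hs).elim (fun h => absurd h.2 hs0.not_gt) (fun h => h.1)
  obtain ⟨r, hr0, hr⟩ := mem_nhdsGT_iff_exists_Ioc_subset.1 hev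
  have hr0' : (0 : ℝ) < r := hr0
  obtain ⟨c, hc, hc2⟩ := exists_hasDerivAt_eq_slope φ φ1 hr0'
    (fun x _ => (h1 x).continuousAt.continuousWithinAt) (fun x _ => h1 x)
  have hcneg : φ1 c < 0 := hr ⟨hc.1, hc.2.le⟩
  rw [hc2, sub_zero] at hcneg
  have := hmin r
  rw [div_neg_iff] at hcneg
  rcases hcneg with h | h
  · linarith [h.2]
  · linarith [h.1]

variable {ι : Type} [Fintype ι] [DecidableEq ι]

/-- the barrier `∑_x e^{2 ⟨x, y⟩}` -/
def bar (y : ι → ℝ) : ℝ := ∑ x : ι → Bool, Real.exp (2 * ∑ i, sp (x i) * y i)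

theorem sp_abs (b : Bool) : |sp b| = 1 := by
  unfold sp
  cases b <;> simp

theorem bar_pos (y : ι → ℝ) : 0 < bar y :=
  Finset.sum_pos (fun _ _ => Real.exp_pos _) ⟨fun _ => true, Finset.mem_univ _⟩

theorem bar_ge (y : ι → ℝ) : Real.exp (2 * ∑ i, |y i|) ≤ bar y := by
  unfold bar
  have h : 2 * ∑ i, |y i| = 2 * ∑ i, sp ((fun i => decide (0 ≤ y i)) i) * y i := by
    congr 1
    refine Finset.sum_congr rfl (fun i _ => ?_)
    unfold sp
    by_cases hi : 0 ≤ y i
    · simp [hi, abs_of_nonneg hi]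
    · push Not at hi
      simp [hi.not_ge, abs_of_neg hi]
  rw [h]
  exact Finset.single_le_sum (f := fun x : ι → Bool => Real.exp (2 * ∑ i, sp (x i) * y i))
    (fun x _ => (Real.exp_pos _).le) (Finset.mem_univ (fun i => decide (0 ≤ y i)))

theorem bar_cont : Continuous (bar : (ι → ℝ) → ℝ) := by
  unfold bar
  refine continuous_finsetSum _ (fun x _ => Real.continuous_exp.comp ?_)
  exact continuous_const.mul (continuous_finsetSum _ (fun i _ => continuous_const.mul (continuous_apply i)))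

/-- first derivative of the barrier in the direction `b` -/
def bar1 (b y : ι → ℝ) : ℝ :=
  ∑ x : ι → Bool, (2 * ∑ i, sp (x i) * b i) * Real.exp (2 * ∑ i, sp (x i) * y i)

/-- second derivative of the barrier in the direction `b` -/
def bar2 (b y : ι → ℝ) : ℝ :=
  ∑ x : ι → Bool, (2 * ∑ i, sp (x i) * b i) ^ 2 * Real.exp (2 * ∑ i, sp (x i) * y i)

omit [DecidableEq ι] in
theorem lin_deriv (c y b : ι → ℝ) (s : ℝ) :
    HasDerivAt (fun r : ℝ => 2 * ∑ i, c i * (y + r • b) i) (2 * ∑ i, c i * b i) s := by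
  refine HasDerivAt.const_mul 2 ?_
  refine HasDerivAt.fun_sum (fun i _ => ?_)
  refine HasDerivAt.const_mul (c i) ?_
  have h : HasDerivAt (fun r : ℝ => y i + r * b i) (1 * b i) s :=
    ((hasDerivAt_id s).mul_const (b i)).const_add (y i)
  rw [one_mul] at h
  simpa using h

theorem bar_deriv (b y : ι → ℝ) (s : ℝ) :
    HasDerivAt (fun r : ℝ => bar (y + r • b)) (bar1 b (y + s • b)) s := by
  unfold bar bar1
  refine HasDerivAt.fun_sum (fun x _ => ?_)
  have h := (lin_deriv (fun i => sp (x i)) y b s).exp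
  rw [mul_comm] at h
  exact h

theorem bar1_deriv (b y : ι → ℝ) (s : ℝ) :
    HasDerivAt (fun r : ℝ => bar1 b (y + r • b)) (bar2 b (y + s • b)) s := by
  unfold bar1 bar2
  refine HasDerivAt.fun_sum (fun x _ => ?_)
  have h := ((lin_deriv (fun i => sp (x i)) y b s).exp).const_mul (2 * ∑ i, sp (x i) * b i)
  refine h.congr_deriv ?_
  ring

theorem bar2_le (b y : ι → ℝ) : bar2 b y ≤ (2 * ∑ i, |b i|) ^ 2 * bar y := by
  unfold bar2 bar
  rw [Finset.mul_sum]
  refine Finset.sum_le_sum (fun x _ => ?_)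
  refine mul_le_mul_of_nonneg_right ?_ (Real.exp_pos _).le
  rw [← sq_abs (2 * ∑ i, sp (x i) * b i)]
  refine pow_le_pow_left₀ (abs_nonneg _) ?_ 2
  rw [abs_mul, abs_two]
  refine mul_le_mul_of_nonneg_left ?_ (by norm_num)
  refine (Finset.abs_sum_le_sum_abs _ _).trans (Finset.sum_le_sum (fun i _ => ?_))
  rw [abs_mul, sp_abs, one_mul]

end MaxAux

section ising
variable {ι : Type} [Fintype ι] [DecidableEq ι]

open MaxAux in
theorem max_prin {κ : Type} [Fintype κ] (b : κ → ι → ℝ) (α : ℝ)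
    (D Dt : ℝ → (ι → ℝ) → ℝ) (D1 D2 : κ → ℝ → (ι → ℝ) → ℝ)
    (hcont : Continuous (fun p : ℝ × (ι → ℝ) => D p.1 p.2))
    (ht : ∀ t ∈ Set.Icc (0:ℝ) 1, ∀ y, HasDerivAt (fun s => D s y) (Dt t y) t)
    (h1 : ∀ k, ∀ t ∈ Set.Icc (0:ℝ) 1, ∀ y,
      HasDerivAt (fun s : ℝ => D t (y + s • b k)) (D1 k t y) 0)
    (h2 : ∀ k, ∀ t ∈ Set.Icc (0:ℝ) 1, ∀ y,
      HasDerivAt (fun s : ℝ => D1 k t (y + s • b k)) (D2 k t y) 0)
    (hineq : ∀ t ∈ Set.Icc (0:ℝ) 1, ∀ y, α * D t y ≤ Dt t y - (∑ k, D2 k t y) / 2)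
    (h0 : ∀ y, 0 ≤ D 0 y)
    (hgrow : ∃ C : ℝ, ∀ t ∈ Set.Icc (0:ℝ) 1, ∀ y : ι → ℝ,
      -(C * Real.exp (∑ i, |y i|)) ≤ D t y) :
    ∀ t ∈ Set.Icc (0:ℝ) 1, ∀ y, 0 ≤ D t y := by
  intro t0 ht0 y0
  by_contra hneg
  push Not at hneg
  obtain ⟨C0, hC0⟩ := hgrow
  set C : ℝ := max C0 0 with hC
  have hCn : 0 ≤ C := le_max_right _ _
  have hCg : ∀ t ∈ Set.Icc (0:ℝ) 1, ∀ y : ι → ℝ, -(C * Real.exp (∑ i, |y i|)) ≤ D t y := by
    intro t ht y
    refine le_trans ?_ (hC0 t ht y)
    have : C0 * Real.exp (∑ i, |y i|) ≤ C * Real.exp (∑ i, |y i|) :=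
      mul_le_mul_of_nonneg_right (le_max_left _ _) (Real.exp_pos _).le
    linarith
  set M : ℝ := ∑ k, (2 * ∑ i, |b k i|) ^ 2 with hM
  have hM0 : 0 ≤ M := Finset.sum_nonneg (fun k _ => sq_nonneg _)
  set K : ℝ := |α| + M + 1 with hK
  have hK0 : 0 ≤ K := add_nonneg (add_nonneg (abs_nonneg _) hM0) zero_le_one
  have hKα : M + 1 ≤ K - α := by
    have := le_abs_self α
    linarith
  -- choose epsilon
  set ε : ℝ := -(Real.exp (-(K * t0)) * D t0 y0) / (2 * bar y0) with hε
  have hb0 := bar_pos y0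
  have hnum : 0 < -(Real.exp (-(K * t0)) * D t0 y0) := by
    have := mul_neg_of_pos_of_neg (Real.exp_pos (-(K * t0))) hneg
    linarith
  have hε0 : 0 < ε := by positivity
  set G : ℝ × (ι → ℝ) → ℝ := fun p => Real.exp (-(K * p.1)) * D p.1 p.2 + ε * bar p.2 with hG
  have hGc : Continuous G := by
    refine Continuous.add (Continuous.mul ?_ hcont) (continuous_const.mul (bar_cont.comp continuous_snd))
    exact Real.continuous_exp.comp (continuous_const.mul continuous_fst).neg
  have hG0 : G (t0, y0) < 0 := by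
    simp only [hG]
    have : ε * bar y0 = -(Real.exp (-(K * t0)) * D t0 y0) / 2 := by
      rw [hε]
      field_simp
    rw [this]
    linarith
  set R : ℝ := max ‖y0‖ (C / ε) with hR
  set S : Set (ℝ × (ι → ℝ)) := Set.Icc (0:ℝ) 1 ×ˢ Metric.closedBall (0 : ι → ℝ) R with hS
  have hSc : IsCompact S := isCompact_Icc.prod (isCompact_closedBall _ _)
  have hmem0 : (t0, y0) ∈ S := by
    refine ⟨ht0, ?_⟩
    rw [mem_closedBall_zero_iff]
    exact le_max_left _ _
  obtain ⟨p, hpS, hpmin⟩ := hSc.exists_isMinOn ⟨_, hmem0⟩ hGc.continuousOn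
  obtain ⟨t, y⟩ := p
  have htI : t ∈ Set.Icc (0:ℝ) 1 := hpS.1
  have hGneg : G (t, y) < 0 := lt_of_le_of_lt (hpmin hmem0) hG0
  -- global minimality
  have hglob : ∀ s ∈ Set.Icc (0:ℝ) 1, ∀ z : ι → ℝ, G (t, y) ≤ G (s, z) := by
    intro s hs z
    by_cases hz : ‖z‖ ≤ R
    · exact hpmin (⟨hs, by rw [mem_closedBall_zero_iff]; exact hz⟩ : (s, z) ∈ S)
    · push Not at hz
      refine hGneg.le.trans ?_
      simp only [hG]
      have hnz : ‖z‖ ≤ ∑ i, |z i| := by
        rw [pi_norm_le_iff_of_nonneg (Finset.sum_nonneg (fun i _ => abs_nonneg _))]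
        intro i
        rw [Real.norm_eq_abs]
        exact Finset.single_le_sum (f := fun i => |z i|) (fun i _ => abs_nonneg _) (Finset.mem_univ i)
      have hlarge : C ≤ ε * Real.exp (∑ i, |z i|) := by
        have h3 : C / ε ≤ ∑ i, |z i| := (le_max_right _ _).trans (hz.le.trans hnz)
        have h4 : ∑ i, |z i| ≤ Real.exp (∑ i, |z i|) := by
          have := Real.add_one_le_exp (∑ i, |z i|)
          linarith
        have h5 := h3.trans h4
        rw [div_le_iff₀ hε0] at h5
        linarith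
      have hb := bar_ge z
      have he : Real.exp (2 * ∑ i, |z i|) = Real.exp (∑ i, |z i|) * Real.exp (∑ i, |z i|) := by
        rw [← Real.exp_add]
        congr 1
        ring
      have hexp1 : Real.exp (-(K * s)) ≤ 1 := by
        rw [Real.exp_le_one_iff]
        have := mul_nonneg hK0 hs.1
        linarith
      have hexp0 := Real.exp_pos (-(K * s))
      have hD : -(C * Real.exp (∑ i, |z i|)) ≤ Real.exp (-(K * s)) * D s z := by
        have hd := hCg s hs z
        have hp : 0 ≤ C * Real.exp (∑ i, |z i|) := mul_nonneg hCn (Real.exp_pos _).le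
        by_cases hDs : 0 ≤ D s z
        · have := mul_nonneg hexp0.le hDs
          linarith
        · push Not at hDs
          nlinarith
      have hE := Real.exp_pos (∑ i, |z i|)
      have h6 : C * Real.exp (∑ i, |z i|) ≤ ε * bar z := by
        calc C * Real.exp (∑ i, |z i|) ≤ (ε * Real.exp (∑ i, |z i|)) * Real.exp (∑ i, |z i|) :=
              mul_le_mul_of_nonneg_right hlarge hE.le
          _ = ε * Real.exp (2 * ∑ i, |z i|) := by rw [he]; ring
          _ ≤ ε * bar z := mul_le_mul_of_nonneg_left hb hε0.le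
      linarith
  have hbp := bar_pos y
  -- t > 0
  have htpos : 0 < t := by
    rcases htI.1.eq_or_lt with h | h
    · exfalso
      simp only [hG] at hGneg
      rw [← h] at hGneg
      have := mul_nonneg (Real.exp_pos (-(K * 0))).le (h0 y)
      have := mul_pos hε0 hbp
      linarith
    · exact h
  -- time derivative
  have htd : Dt t y - K * D t y ≤ 0 := by
    have hd : HasDerivAt (fun s => G (s, y))
        (Real.exp (-(K * t)) * (Dt t y - K * D t y)) t := by
      simp only [hG]
      have he : HasDerivAt (fun s : ℝ => Real.exp (-(K * s))) (Real.exp (-(K * t)) * (-K)) t := by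
        have hl : HasDerivAt (fun s : ℝ => -(K * s)) (-(K * 1)) t :=
          ((hasDerivAt_id t).const_mul K).neg
        rw [mul_one] at hl
        exact hl.exp
      refine ((he.mul (ht t htI y)).add_const _).congr_deriv ?_
      ring
    have hle : Real.exp (-(K * t)) * (Dt t y - K * D t y) ≤ 0 := by
      have hs := hasDerivAt_iff_tendsto_slope.1 hd
      have hs2 : Tendsto (slope (fun s => G (s, y)) t) (𝓝[<] t)
          (𝓝 (Real.exp (-(K * t)) * (Dt t y - K * D t y))) :=
        hs.mono_left (nhdsWithin_mono _ (fun x hx => ne_of_lt hx))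
      refine le_of_tendsto hs2 ?_
      filter_upwards [Ioo_mem_nhdsLT htpos] with s hs
      rw [slope_def_field]
      refine div_nonpos_of_nonneg_of_nonpos ?_ (by linarith [hs.2])
      have := hglob s ⟨hs.1.le, hs.2.le.trans htI.2⟩ y
      linarith
    by_contra hcon
    push Not at hcon
    have := mul_pos (Real.exp_pos (-(K * t))) hcon
    linarith
  -- second space derivatives
  have hsd : ∀ k, -(ε * bar2 (b k) y) ≤ Real.exp (-(K * t)) * D2 k t y := by
    intro k
    have hnn := second_nonneg (fun s => G (t, y + s • b k))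
      (fun s => Real.exp (-(K * t)) * D1 k t (y + s • b k) + ε * bar1 (b k) (y + s • b k))
      (Real.exp (-(K * t)) * D2 k t y + ε * bar2 (b k) y)
      (by
        intro s
        simp only [hG]
        refine HasDerivAt.add (HasDerivAt.const_mul _ ?_) ((bar_deriv (b k) y s).const_mul ε)
        have h := h1 k t htI (y + s • b k)
        have h' : HasDerivAt (fun r : ℝ => D t (y + s • b k + (r - s) • b k))
            (D1 k t (y + s • b k)) s := by
          have hsub : HasDerivAt (fun r : ℝ => r - s) 1 s := (hasDerivAt_id s).sub_const s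
          have hc := HasDerivAt.comp (h₂ := fun r : ℝ => D t (y + s • b k + r • b k)) s
            (by rw [sub_self]; exact h) hsub
          rw [mul_one] at hc
          exact hc
        refine h'.congr_of_eventuallyEq (Eventually.of_forall (fun r => ?_))
        simp only
        congr 1
        rw [sub_smul]
        abel)
      (by
        refine HasDerivAt.add (HasDerivAt.const_mul _ (h2 k t htI y)) ?_
        have h := (bar1_deriv (b k) y 0).const_mul ε
        rw [zero_smul, add_zero] at h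
        exact h)
      (by
        intro s
        have := hglob t htI (y + s • b k)
        simpa using this)
    linarith
  have hsum : -(ε * (M * bar y)) ≤ Real.exp (-(K * t)) * ∑ k, D2 k t y := by
    have hb2 : ∑ k, bar2 (b k) y ≤ M * bar y := by
      rw [hM, Finset.sum_mul]
      exact Finset.sum_le_sum (fun k _ => bar2_le (b k) y)
    calc -(ε * (M * bar y)) ≤ -(ε * ∑ k, bar2 (b k) y) := by
          have := mul_le_mul_of_nonneg_left hb2 hε0.le
          linarith
      _ = ∑ k, -(ε * bar2 (b k) y) := by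
          rw [Finset.mul_sum, Finset.sum_neg_distrib]
      _ ≤ ∑ k, Real.exp (-(K * t)) * D2 k t y := Finset.sum_le_sum (fun k _ => hsd k)
      _ = Real.exp (-(K * t)) * ∑ k, D2 k t y := by rw [Finset.mul_sum]
  have hin := hineq t htI y
  simp only [hG] at hGneg
  have hE := Real.exp_pos (-(K * t))
  set E := Real.exp (-(K * t)) with hEdef
  -- combine
  have h7 : E * (α * D t y) + E * (∑ k, D2 k t y) / 2 ≤ E * (K * D t y) := by
    have h8 : α * D t y + (∑ k, D2 k t y) / 2 ≤ K * D t y := by linarith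
    have := mul_le_mul_of_nonneg_left h8 hE.le
    linarith
  have h9 : (K - α) * (-(E * D t y)) ≤ ε * (M * bar y) / 2 := by linarith
  have h10 : ε * bar y < -(E * D t y) := by linarith
  have h11 : 0 < ε * bar y := mul_pos hε0 hbp
  have h12 : (M + 1) * (ε * bar y) < (K - α) * (-(E * D t y)) := by
    calc (M + 1) * (ε * bar y) < (M + 1) * (-(E * D t y)) :=
          mul_lt_mul_of_pos_left h10 (by linarith)
      _ ≤ (K - α) * (-(E * D t y)) := mul_le_mul_of_nonneg_right hKα (by linarith)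
  have h13 : 0 ≤ M * (ε * bar y) := mul_nonneg hM0 h11.le
  nlinarith

end ising

end

end P150
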