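import Vale.Agent.P150.Defs
import Vale.Agent.P150.Flip
import Vale.Agent.P150.GapAbs

/-! [D] tensorization of entropy for product weights (helper2) -/

open Function

namespace P150

noncomputable section

set_option linter.unusedSectionVars false

/-- log-sum inequality -/
lemma le_e2 (p q a b α β : ℝ) (hp : 0 < p) (hq : 0 < q) (ha : 0 < a) (hb : 0 < b)
    (hα : 0 < α) (hβ : 0 < β) (H : p * α + q * β = p + q) :
    p * a * Real.log α + q * b * Real.log β ≤ e2 p q a b := by
  have hpq : 0 < p + q := add_pos hp hq
  set m := (p * a + q * b) / (p + q) with hm
  have hm0 : 0 < m := by positivity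
  have hm1 : m * (p + q) = p * a + q * b := by rw [hm]; field_simp
  have h1 : Real.log α + Real.log m - Real.log a ≤ α * m / a - 1 := by
    rw [← Real.log_mul hα.ne' hm0.ne', ← Real.log_div (by positivity) ha.ne']
    exact Real.log_le_sub_one_of_pos (by positivity)
  have h2 : Real.log β + Real.log m - Real.log b ≤ β * m / b - 1 := by
    rw [← Real.log_mul hβ.ne' hm0.ne', ← Real.log_div (by positivity) hb.ne']
    exact Real.log_le_sub_one_of_pos (by positivity)
  have h3 := mul_le_mul_of_nonneg_left h1 (mul_pos hp ha).le
  have h4 := mul_le_mul_of_nonneg_left h2 (mul_pos hq hb).le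
  have h5 : p * a * (α * m / a - 1) = p * α * m - p * a := by field_simp
  have h6 : q * b * (β * m / b - 1) = q * β * m - q * b := by field_simp
  have h7 : p * α * m + q * β * m = p * a + q * b := by
    rw [← hm1, ← H]; ring
  rw [h5] at h3
  rw [h6] at h4
  unfold e2
  rw [← hm]
  nlinarith

section ising
variable {ι : Type} [Fintype ι] [DecidableEq ι]

lemma prod_update (u : ι → Bool → ℝ) (k : ι) (x : ι → Bool) (s : Bool) :
    ∏ i, u i (update x k s i) = u k s * ∏ i ∈ Finset.univ.erase k, u i (x i) := by
  rw [← Finset.mul_prod_erase Finset.univ _ (Finset.mem_univ k), update_self]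
  congr 1
  refine Finset.prod_congr rfl fun i hi => ?_
  rw [update_of_ne (Finset.ne_of_mem_erase hi)]

lemma rest_update (u : ι → Bool → ℝ) (k : ι) (x : ι → Bool) (s : Bool) :
    ∏ i ∈ Finset.univ.erase k, u i (update x k s i) =
      ∏ i ∈ Finset.univ.erase k, u i (x i) := by
  refine Finset.prod_congr rfl fun i hi => ?_
  rw [update_of_ne (Finset.ne_of_mem_erase hi)]

theorem tensor (u : ι → Bool → ℝ) (hu : ∀ i b, 0 < u i b) (f : (ι → Bool) → ℝ)
    (hf : ∀ x, 0 < f x) :
    entW Finset.univ (fun x => ∏ i, u i (x i)) f ≤ entSum (fun x => ∏ i, u i (x i)) f := by
  set w : (ι → Bool) → ℝ := fun x => ∏ i, u i (x i) with hw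
  have hwpos : ∀ x, 0 < w x := fun x => Finset.prod_pos fun i _ => hu i _
  have key : ∀ S : Finset ι, ∃ g : (ι → Bool) → ℝ, (∀ x, 0 < g x) ∧
      (∀ i ∈ S, ∀ x s, g (update x i s) = g x) ∧ (∑ x, w x * g x = ∑ x, w x * f x) ∧
      ∑ x, w x * (f x * (Real.log (f x) - Real.log (g x))) ≤
        ∑ i ∈ S, (∑ x, entE w f i x) / 2 := by
    intro S
    induction S using Finset.induction_on with
    | empty =>
      refine ⟨f, hf, by simp, rfl, ?_⟩
      simp
    | insert k S hk ih =>
      obtain ⟨g, hg, hgS, hgm, hgle⟩ := ih
      set U := u k true + u k false with hU
      have hUpos : 0 < U := add_pos (hu k true) (hu k false)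
      set g' : (ι → Bool) → ℝ := fun x =>
        (u k true * g (update x k true) + u k false * g (update x k false)) / U with hg'
      have hg'pos : ∀ x, 0 < g' x := fun x => div_pos
        (add_pos (mul_pos (hu k true) (hg _)) (mul_pos (hu k false) (hg _))) hUpos
      have hg'k : ∀ x s, g' (update x k s) = g' x := by
        intro x s
        simp only [hg', update_idem]
      refine ⟨g', hg'pos, ?_, ?_, ?_⟩
      · intro i hi x s
        rcases Finset.mem_insert.mp hi with rfl | hi
        · exact hg'k x s
        · have hik : i ≠ k := fun e => hk (e ▸ hi)
          simp only [hg']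
          rw [update_comm hik, update_comm hik, hgS i hi, hgS i hi]
      · rw [← hgm]
        have h1 := sum_update' k (fun x => w x * g' x)
        have h2 := sum_update' k (fun x => w x * g x)
        have h3 : ∀ x : ι → Bool, (fun x => w x * g' x) (update x k true) +
            (fun x => w x * g' x) (update x k false) =
            (fun x => w x * g x) (update x k true) + (fun x => w x * g x) (update x k false) := by
          intro x
          simp only [hg'k]
          simp only [hw, prod_update]
          simp only [hg']
          field_simp
          try rw [hU]
          try ring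
        rw [Finset.sum_congr rfl (fun x _ => h3 x)] at h1
        linarith
      · rw [Finset.sum_insert hk]
        have h1 : ∑ x, w x * (f x * (Real.log (f x) - Real.log (g' x))) =
            ∑ x, w x * (f x * (Real.log (g x) - Real.log (g' x))) +
            ∑ x, w x * (f x * (Real.log (f x) - Real.log (g x))) := by
          rw [← Finset.sum_add_distrib]
          exact Finset.sum_congr rfl fun x _ => by ring
        rw [h1]
        refine add_le_add ?_ hgle
        have h2 := sum_update' k (fun x => w x * (f x * (Real.log (g x) - Real.log (g' x))))
        have h3 : ∀ x : ι → Bool,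
            (fun x => w x * (f x * (Real.log (g x) - Real.log (g' x)))) (update x k true) +
            (fun x => w x * (f x * (Real.log (g x) - Real.log (g' x)))) (update x k false) ≤
            entE w f k x := by
          intro x
          simp only [hg'k]
          have hp := hwpos (update x k true)
          have hq := hwpos (update x k false)
          have hα : 0 < g (update x k true) / g' x := div_pos (hg _) (hg'pos x)
          have hβ : 0 < g (update x k false) / g' x := div_pos (hg _) (hg'pos x)
          have H : w (update x k true) * (g (update x k true) / g' x) +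
              w (update x k false) * (g (update x k false) / g' x) =
              w (update x k true) + w (update x k false) := by
            have hne := (hg'pos x).ne'
            have e1 : g' x * U = u k true * g (update x k true) +
                u k false * g (update x k false) := by
              simp only [hg']; field_simp
            simp only [hw, prod_update]
            set R := ∏ i ∈ Finset.univ.erase k, u i (x i)
            field_simp
            rw [hU] at e1
            linear_combination (-R) * e1
          have := le_e2 _ _ (f (update x k true)) (f (update x k false)) _ _ hp hq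
            (hf _) (hf _) hα hβ H
          rw [Real.log_div (hg _).ne' (hg'pos x).ne',
            Real.log_div (hg _).ne' (hg'pos x).ne'] at this
          unfold entE
          linarith
        have h4 : ∑ x, ((fun x => w x * (f x * (Real.log (g x) - Real.log (g' x))))
            (update x k true) +
            (fun x => w x * (f x * (Real.log (g x) - Real.log (g' x)))) (update x k false)) ≤
            ∑ x, entE w f k x := Finset.sum_le_sum fun x _ => h3 x
        rw [h2] at h4
        linarith
  obtain ⟨g, hg, hgU, hgm, hgle⟩ := key Finset.univ
  have hconst : ∀ x y, g x = g y := const_of_dB g fun i x => by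
    unfold dB
    rw [hgU i (Finset.mem_univ i), hgU i (Finset.mem_univ i)]
    ring
  have hW : 0 < ∑ x, w x := Finset.sum_pos (fun x _ => hwpos x) Finset.univ_nonempty
  have hgc : ∀ x, g x = (∑ x, w x * f x) / ∑ x, w x := by
    intro x
    rw [← hgm, eq_div_iff hW.ne', Finset.mul_sum]
    exact Finset.sum_congr rfl fun y _ => by rw [hconst x y]; ring
  have hent : entW Finset.univ w f = ∑ x, w x * (f x * (Real.log (f x) - Real.log (g x))) := by
    unfold entW
    rw [Finset.sum_mul, ← Finset.sum_sub_distrib]
    refine Finset.sum_congr rfl fun x _ => ?_
    rw [hgc x]; ring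
  rw [hent]
  exact hgle

end ising

end

end P150
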