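import Vale.Agent.P150.Defs
import Vale.Agent.P150.Flip
import Vale.Agent.P150.GapAbs
import Vale.Agent.P150.Tensor
import Vale.Agent.P150.EntStab
import Vale.Agent.P150.MaxPrin
import Vale.Agent.P150.Heat

/-! [H2] approximate tensorization of entropy (helper2) -/

open Function

namespace P150

noncomputable section

set_option linter.unusedSectionVars false

section ising
variable {ι : Type} [Fintype ι] [DecidableEq ι]

namespace AteAux

lemma quad_add (J : ι → ι → ℝ) (M : ℝ) (v : ι → ℝ) :
    ∑ i, ∑ j, (J i j + if i = j then M else 0) * v i * v j =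
      ∑ i, ∑ j, J i j * v i * v j + M * ∑ i, v i ^ 2 := by
  have h1 : ∀ i, ∑ j, (J i j + if i = j then M else 0) * v i * v j =
      ∑ j, J i j * v i * v j + M * v i ^ 2 := by
    intro i
    have h2 : ∀ j, (J i j + if i = j then M else 0) * v i * v j =
        J i j * v i * v j + (if i = j then M * v i ^ 2 else 0) := by
      intro j
      by_cases hij : i = j
      · subst hij; simp; ring
      · simp [hij]
    rw [Finset.sum_congr rfl (fun j _ => h2 j), Finset.sum_add_distrib]
    simp
  rw [Finset.sum_congr rfl (fun i _ => h1 i), Finset.sum_add_distrib, Finset.mul_sum]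

open scoped MatrixOrder in
/-- a factorisation of the positive semidefinite matrix `J + M` -/
lemma exists_factor (J : ι → ι → ℝ) (hs : ∀ i j, J i j = J j i) (M : ℝ)
    (hq2 : ∀ y : ι → ℝ, -(M * ∑ i, y i ^ 2) ≤ ∑ i, ∑ j, J i j * y i * y j) :
    ∃ b : ι → ι → ℝ, ∀ i j, ∑ k, b k i * b k j = J i j + if i = j then M else 0 := by
  let A : Matrix ι ι ℝ := fun i j => J i j + if i = j then M else 0
  have hA : A.PosSemidef := by
    refine Matrix.PosSemidef.of_dotProduct_mulVec_nonneg ?_ ?_
    · ext i j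
      rw [Matrix.conjTranspose_apply, star_trivial]
      show (J j i + if j = i then M else 0) = (J i j + if i = j then M else 0)
      rw [hs j i]
      by_cases hij : i = j
      · subst hij; simp
      · simp [hij, Ne.symm hij]
    · intro x
      have e : star x ⬝ᵥ A.mulVec x = ∑ i, ∑ j, (J i j + if i = j then M else 0) * x i * x j := by
        simp only [dotProduct, Matrix.mulVec, star_trivial, A]
        refine Finset.sum_congr rfl fun i _ => ?_
        rw [Finset.mul_sum]
        exact Finset.sum_congr rfl fun j _ => by ring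
      rw [e, quad_add]
      linarith [hq2 x]
  obtain ⟨B, hB⟩ := CStarAlgebra.nonneg_iff_eq_star_mul_self.mp hA.nonneg
  refine ⟨fun k i => B k i, fun i j => ?_⟩
  have h1 := congrFun (congrFun hB i) j
  simp only [A, Matrix.mul_apply, Matrix.star_apply, star_trivial] at h1
  rw [h1]

lemma entE_eq (w f : (ι → Bool) → ℝ) (i : ι) (x : ι → Bool) :
    entE w f i x = entW {update x i true, update x i false} w f := by
  have hne : update x i true ≠ update x i false := by
    intro hh
    have := congrFun hh i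
    simp at this
  unfold entE e2 entW
  rw [Finset.sum_pair hne, Finset.sum_pair hne, Finset.sum_pair hne]

lemma entW_smul (s : Finset (ι → Bool)) (w f : (ι → Bool) → ℝ) (c : ℝ) (hc : 0 < c) :
    entW s (fun x => c * w x) f = c * entW s w f := by
  unfold entW
  have e1 : ∑ x ∈ s, c * w x * f x * Real.log (f x) = c * ∑ x ∈ s, w x * f x * Real.log (f x) := by
    rw [Finset.mul_sum]; exact Finset.sum_congr rfl fun x _ => by ring
  have e2 : ∑ x ∈ s, c * w x * f x = c * ∑ x ∈ s, w x * f x := by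
    rw [Finset.mul_sum]; exact Finset.sum_congr rfl fun x _ => by ring
  have e3 : ∑ x ∈ s, c * w x = c * ∑ x ∈ s, w x := (Finset.mul_sum _ _ _).symm
  rw [e1, e2, e3, mul_div_mul_left _ _ hc.ne']
  ring

lemma entSum_smul (w f : (ι → Bool) → ℝ) (c : ℝ) (hc : 0 < c) :
    entSum (fun x => c * w x) f = c * entSum w f := by
  unfold entSum
  rw [Finset.mul_sum]
  refine Finset.sum_congr rfl fun i _ => ?_
  rw [← mul_div_assoc, Finset.mul_sum]
  congr 1
  refine Finset.sum_congr rfl fun x _ => ?_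
  rw [entE_eq, entE_eq, entW_smul _ _ _ _ hc]

lemma wB_eq (J : ι → ι → ℝ) (M t : ℝ) (y : ι → ℝ) (x : ι → Bool) :
    wB J M t y x = Real.exp (t * (M * Fintype.card ι) / 2) *
      wt (fun i j => t * J i j) y x := by
  unfold wB wt ham
  rw [← Real.exp_add]
  congr 1
  have : ∑ i, ∑ j, t * J i j * sp (x i) * sp (x j) =
      t * ∑ i, ∑ j, J i j * sp (x i) * sp (x j) := by
    simp only [Finset.mul_sum]
    exact Finset.sum_congr rfl fun i _ => Finset.sum_congr rfl fun j _ => by ring
  rw [this]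
  ring

lemma entE_nonneg (w f : (ι → Bool) → ℝ) (hw : ∀ x, 0 < w x) (hf : ∀ x, 0 < f x) (i : ι)
    (x : ι → Bool) : 0 ≤ entE w f i x := by
  have := le_e2 (w (update x i true)) (w (update x i false)) (f (update x i true))
    (f (update x i false)) 1 1 (hw _) (hw _) (hf _) (hf _) one_pos one_pos (by ring)
  simp only [Real.log_one, mul_zero, add_zero] at this
  exact this

lemma entW_le (w f : (ι → Bool) → ℝ) (hw : ∀ x, 0 < w x) (a0 b0 : ℝ) (ha0 : 0 < a0)
    (ha : ∀ x, a0 ≤ f x) (hb : ∀ x, f x ≤ b0) :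
    entW Finset.univ w f ≤ (∑ x, w x) * (b0 * (Real.log b0 - Real.log a0)) := by
  have hf : ∀ x, 0 < f x := fun x => ha0.trans_le (ha x)
  have hZ : 0 < ∑ x, w x := Finset.sum_pos (fun x _ => hw x) Finset.univ_nonempty
  have hN : a0 * ∑ x, w x ≤ ∑ x, w x * f x := by
    rw [Finset.mul_sum]
    exact Finset.sum_le_sum fun x _ => by
      rw [mul_comm]; exact mul_le_mul_of_nonneg_left (ha x) (hw x).le
  have hNZ : a0 ≤ (∑ x, w x * f x) / ∑ x, w x := by rwa [le_div_iff₀ hZ]
  have hlog : Real.log a0 ≤ Real.log ((∑ x, w x * f x) / ∑ x, w x) :=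
    Real.log_le_log ha0 hNZ
  have hx0 : (ι → Bool) := fun _ => true
  have hab : Real.log a0 ≤ Real.log b0 := Real.log_le_log ha0 ((ha hx0).trans (hb hx0))
  unfold entW
  rw [Finset.sum_mul, ← Finset.sum_sub_distrib, Finset.sum_mul]
  refine Finset.sum_le_sum fun x _ => ?_
  have h1 : Real.log (f x) ≤ Real.log b0 := Real.log_le_log (hf x) (hb x)
  have h2 : w x * f x * Real.log (f x) - w x * f x * Real.log ((∑ x, w x * f x) / ∑ x, w x) ≤
      w x * f x * (Real.log b0 - Real.log a0) := by
    rw [← mul_sub]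
    exact mul_le_mul_of_nonneg_left (by linarith) (mul_pos (hw x) (hf x)).le
  refine h2.trans ?_
  rw [mul_assoc]
  exact mul_le_mul_of_nonneg_left
    (mul_le_mul_of_nonneg_right (hb x) (by linarith)) (hw x).le

lemma tmean_eq (w : (ι → Bool) → ℝ) (c : ℝ) (hc : 0 < c) (b : ι → ℝ) :
    tmean Finset.univ (fun x => c * w x) b =
      ∑ i, b i * ((∑ x, w x * sp (x i)) / ∑ x, w x) := by
  unfold tmean
  have e3 : ∑ x, c * w x = c * ∑ x, w x := (Finset.mul_sum _ _ _).symm
  have e1 : ∑ x, c * w x * ∑ i, b i * sp (x i) = c * ∑ i, b i * ∑ x, w x * sp (x i) := by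
    rw [Finset.mul_sum]
    simp only [Finset.mul_sum]
    rw [Finset.sum_comm]
    exact Finset.sum_congr rfl fun i _ => Finset.sum_congr rfl fun x _ => by ring
  rw [e3, e1, mul_div_mul_left _ _ hc.ne', Finset.sum_div]
  exact Finset.sum_congr rfl fun i _ => by ring

lemma heat_term (J : ι → ι → ℝ) (hs : ∀ i j, J i j = J j i)
    (M K : ℝ) (hM : 0 < M) (hK : 0 < K)
    (hq1 : ∀ y : ι → ℝ, ∑ i, ∑ j, J i j * y i * y j ≤ M * ∑ i, y i ^ 2)
    (hq2 : ∀ y : ι → ℝ, -(M * ∑ i, y i ^ 2) ≤ ∑ i, ∑ j, J i j * y i * y j)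
    (b : ι → ι → ℝ) (hb : ∀ i j, ∑ k, b k i * b k j = J i j + if i = j then M else 0)
    (t : ℝ)
    (hcov : ∀ y a : ι → ℝ,
      vr (fun i j => t * J i j) y (fun x => ∑ i, a i * sp (x i)) ≤ K * ∑ i, a i ^ 2)
    (y : ι → ℝ) (f : (ι → Bool) → ℝ) (hf : ∀ x, 0 < f x) :
    (∑ x, wB J M t y x * f x) *
          (∑ k, (tmean Finset.univ (fun x => wB J M t y x * f x) (b k) -
            tmean Finset.univ (wB J M t y) (b k)) ^ 2)
          / 2 ≤ 2 * M * K * entW Finset.univ (wB J M t y) f := by
  set c := Real.exp (t * (M * Fintype.card ι) / 2) with hc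
  have hcpos : 0 < c := Real.exp_pos _
  have hw : wB J M t y = fun x => c * wt (fun i j => t * J i j) y x := by
    funext x; exact wB_eq J M t y x
  rw [hw]
  have hw2 : (fun x => c * wt (fun i j => t * J i j) y x * f x) =
      fun x => c * (wt (fun i j => t * J i j) y x * f x) := by
    funext x; ring
  set w := wt (fun i j => t * J i j) y with hwdef
  have e0 : ∑ x, c * w x * f x = c * ∑ x, w x * f x := by
    rw [Finset.mul_sum]; exact Finset.sum_congr rfl fun x _ => by ring
  rw [e0, entW_smul _ _ _ _ hcpos, hw2]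
  set Δ : ι → ℝ := fun i => (∑ x, w x * f x * sp (x i)) / (∑ x, w x * f x)
      - (∑ x, w x * sp (x i)) / (∑ x, w x) with hΔ
  have h1 : ∀ k, tmean Finset.univ (fun x => c * (w x * f x)) (b k) -
      tmean Finset.univ (fun x => c * w x) (b k) = ∑ i, b k i * Δ i := by
    intro k
    rw [tmean_eq (fun x => w x * f x) c hcpos, tmean_eq w c hcpos, ← Finset.sum_sub_distrib]
    exact Finset.sum_congr rfl fun i _ => by simp only [hΔ]; ring
  have h2 : ∑ k, (tmean Finset.univ (fun x => c * (w x * f x)) (b k) -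
      tmean Finset.univ (fun x => c * w x) (b k)) ^ 2 =
      ∑ i, ∑ j, (J i j + if i = j then M else 0) * Δ i * Δ j := by
    simp only [h1]
    have e1 : ∀ k, (∑ i, b k i * Δ i) ^ 2 = ∑ i, ∑ j, b k i * b k j * (Δ i * Δ j) := by
      intro k
      rw [sq, Finset.sum_mul_sum]
      exact Finset.sum_congr rfl fun i _ => Finset.sum_congr rfl fun j _ => by ring
    rw [Finset.sum_congr rfl (fun k _ => e1 k), Finset.sum_comm]
    refine Finset.sum_congr rfl fun i _ => ?_
    rw [Finset.sum_comm]
    refine Finset.sum_congr rfl fun j _ => ?_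
    rw [← hb i j, ← Finset.sum_mul, mul_assoc]
  rw [h2]
  have h3 := ent_stab (fun i j => t * J i j) y f hf (fun i j => J i j + if i = j then M else 0)
    (fun i j => by
      rw [hs i j]
      by_cases hij : i = j
      · subst hij; rfl
      · simp [hij, Ne.symm hij]) (2 * M) K (by linarith) hK
    (fun v => by rw [quad_add]; linarith [hq2 v])
    (fun v => by rw [quad_add]; linarith [hq1 v]) hcov Δ (fun i => rfl)
  rw [← hwdef] at h3
  have h4 := mul_le_mul_of_nonneg_left h3 hcpos.le
  calc c * (∑ x, w x * f x) * (∑ i, ∑ j, (J i j + if i = j then M else 0) * Δ i * Δ j) / 2 =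
      c * ((∑ x, w x * f x) *
        (∑ i, ∑ j, (J i j + if i = j then M else 0) * Δ i * Δ j) / 2) := by ring
    _ ≤ c * (2 * M * K * entW Finset.univ w f) := h4
    _ = 2 * M * K * (c * entW Finset.univ w f) := by ring

lemma wB_zero (J : ι → ι → ℝ) (M : ℝ) (y : ι → ℝ) :
    wB J M 0 y = fun x => ∏ i, Real.exp (y i * sp (x i)) := by
  funext x
  unfold wB
  rw [← Real.exp_sum]
  congr 1
  ring

lemma wB_le (J : ι → ι → ℝ) (M : ℝ) : ∃ c : ℝ, ∀ t ∈ Set.Icc (0:ℝ) 1, ∀ y x,
    wB J M t y x ≤ Real.exp c * Real.exp (∑ i, |y i|) := by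
  refine ⟨∑ x : ι → Bool,
    |(∑ i, ∑ j, J i j * sp (x i) * sp (x j)) + M * Fintype.card ι|, ?_⟩
  intro t ht y x
  unfold wB
  rw [← Real.exp_add]
  apply Real.exp_le_exp.mpr
  have h1 : |(∑ i, ∑ j, J i j * sp (x i) * sp (x j)) + M * Fintype.card ι| ≤
      ∑ x : ι → Bool, |(∑ i, ∑ j, J i j * sp (x i) * sp (x j)) + M * Fintype.card ι| :=
    Finset.single_le_sum
      (f := fun x : ι → Bool => |(∑ i, ∑ j, J i j * sp (x i) * sp (x j)) + M * Fintype.card ι|)
      (fun _ _ => abs_nonneg _) (Finset.mem_univ x)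
  have h2 : ∑ i, y i * sp (x i) ≤ ∑ i, |y i| := by
    refine Finset.sum_le_sum fun i _ => ?_
    calc y i * sp (x i) ≤ |y i * sp (x i)| := le_abs_self _
      _ = |y i| := by rw [abs_mul, abs_sp, mul_one]
  set Q := (∑ i, ∑ j, J i j * sp (x i) * sp (x j)) + M * Fintype.card ι with hQ
  have h3 : t * Q / 2 ≤ |Q| := by
    have h4 : t * Q ≤ 1 * |Q| :=
      (mul_le_mul_of_nonneg_left (le_abs_self Q) ht.1).trans
        (mul_le_mul_of_nonneg_right ht.2 (abs_nonneg Q))
    have h5 := abs_nonneg Q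
    linarith
  linarith

end AteAux

open AteAux

theorem ate (J : ι → ι → ℝ) (hs : ∀ i j, J i j = J j i) (hd : ∀ i, J i i = 0)
    (M K : ℝ) (hM : 0 < M) (hK : 0 < K)
    (hq1 : ∀ y : ι → ℝ, ∑ i, ∑ j, J i j * y i * y j ≤ M * ∑ i, y i ^ 2)
    (hq2 : ∀ y : ι → ℝ, -(M * ∑ i, y i ^ 2) ≤ ∑ i, ∑ j, J i j * y i * y j)
    (hcov : ∀ t ∈ Set.Icc (0:ℝ) 1, ∀ y a : ι → ℝ,
      vr (fun i j => t * J i j) y (fun x => ∑ i, a i * sp (x i)) ≤ K * ∑ i, a i ^ 2)
    (h : ι → ℝ) (f : (ι → Bool) → ℝ) (hf : ∀ x, 0 < f x) :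
    entW Finset.univ (wt J h) f ≤ Real.exp (2 * M * K) * entSum (wt J h) f := by
  obtain ⟨b, hb⟩ := exists_factor J hs M hq2
  set α := 2 * M * K with hα
  -- the heat data for all the edges and for the whole space
  obtain ⟨TU, DU1, DU2, hTU, hDU1, hDU2, hHU, hCU⟩ :=
    entW_heat J M b hb Finset.univ Finset.univ_nonempty f hf
  have hedge : ∀ i : ι, ∀ x : ι → Bool,
      ({update x i true, update x i false} : Finset (ι → Bool)).Nonempty :=
    fun i x => ⟨_, Finset.mem_insert_self _ _⟩
  choose TE DE1 DE2 hTE hDE1 hDE2 hHE hCE using fun (i : ι) (x : ι → Bool) =>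
    entW_heat J M b hb {update x i true, update x i false} (hedge i x) f hf
  have hsum : ∀ w : (ι → Bool) → ℝ, entSum w f =
      ∑ i, (∑ x, entW {update x i true, update x i false} w f) / 2 := by
    intro w
    unfold entSum
    simp only [entE_eq]
  have key := max_prin b α
    (fun t y => Real.exp (α * t) *
      (∑ i, (∑ x, entW {update x i true, update x i false} (wB J M t y) f) / 2) -
      entW Finset.univ (wB J M t y) f)
    (fun t y => α * Real.exp (α * t) *
      (∑ i, (∑ x, entW {update x i true, update x i false} (wB J M t y) f) / 2) +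
      Real.exp (α * t) * (∑ i, (∑ x, TE i x t y) / 2) - TU t y)
    (fun k t y => Real.exp (α * t) * (∑ i, (∑ x, DE1 i x k t y) / 2) - DU1 k t y)
    (fun k t y => Real.exp (α * t) * (∑ i, (∑ x, DE2 i x k t y) / 2) - DU2 k t y)
    ?_ ?_ ?_ ?_ ?_ ?_ ?_
  · -- conclusion at time one
    have h1 := key 1 ⟨zero_le_one, le_rfl⟩ h
    beta_reduce at h1
    rw [← hsum] at h1
    set c := Real.exp (1 * (M * Fintype.card ι) / 2) with hc
    have hcpos : 0 < c := Real.exp_pos _
    have hw : wB J M 1 h = fun x => c * wt J h x := by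
      funext x
      rw [wB_eq]
      congr 2
      funext i j
      rw [one_mul]
    rw [hw, entSum_smul _ _ _ hcpos, entW_smul _ _ _ _ hcpos, mul_one] at h1
    have h2 : c * entW Finset.univ (wt J h) f ≤
        c * (Real.exp α * entSum (wt J h) f) := by linarith
    exact le_of_mul_le_mul_left h2 hcpos
  · -- continuity
    refine Continuous.sub (Continuous.mul ?_ ?_) hCU
    · fun_prop
    · refine continuous_finsetSum _ fun i _ => Continuous.div_const ?_ 2
      exact continuous_finsetSum _ fun x _ => hCE i x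
  · -- time derivative
    intro t _ y
    have h1 : HasDerivAt (fun s => Real.exp (α * s)) (α * Real.exp (α * t)) t := by
      have := ((hasDerivAt_id t).const_mul α).exp
      refine this.congr_deriv ?_
      simp only [id]
      ring
    have h2 : HasDerivAt (fun s =>
        ∑ i, (∑ x, entW {update x i true, update x i false} (wB J M s y) f) / 2)
        (∑ i, (∑ x, TE i x t y) / 2) t :=
      HasDerivAt.fun_sum fun i _ =>
        (HasDerivAt.fun_sum fun x _ => hTE i x t y).div_const 2
    exact (h1.mul h2).sub (hTU t y)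
  · intro k t _ y
    have h2 : HasDerivAt (fun s : ℝ =>
        ∑ i, (∑ x, entW {update x i true, update x i false} (wB J M t (y + s • b k)) f) / 2)
        (∑ i, (∑ x, DE1 i x k t y) / 2) 0 :=
      HasDerivAt.fun_sum fun i _ =>
        (HasDerivAt.fun_sum fun x _ => hDE1 i x k t y).div_const 2
    exact (h2.const_mul _).sub (hDU1 k t y)
  · intro k t _ y
    have h2 : HasDerivAt (fun s : ℝ =>
        ∑ i, (∑ x, DE1 i x k t (y + s • b k)) / 2)
        (∑ i, (∑ x, DE2 i x k t y) / 2) 0 :=
      HasDerivAt.fun_sum fun i _ =>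
        (HasDerivAt.fun_sum fun x _ => hDE2 i x k t y).div_const 2
    exact (h2.const_mul _).sub (hDU2 k t y)
  · -- the differential inequality
    intro t ht y
    beta_reduce
    have h1 := heat_term J hs M K hM hK hq1 hq2 b hb t (hcov t ht) y f hf
    rw [← hHU t y] at h1
    have h2 : ∀ i x, 0 ≤ TE i x t y - (∑ k, DE2 i x k t y) / 2 := by
      intro i x
      rw [hHE i x t y]
      refine div_nonneg (mul_nonneg ?_ ?_) (by norm_num)
      · exact Finset.sum_nonneg fun z _ => mul_nonneg (Real.exp_pos _).le (hf z).le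
      · exact Finset.sum_nonneg fun k _ => sq_nonneg _
    have h3 : (∑ k, (Real.exp (α * t) * (∑ i, (∑ x, DE2 i x k t y) / 2) - DU2 k t y)) =
        Real.exp (α * t) * (∑ i, (∑ x, ∑ k, DE2 i x k t y) / 2) - ∑ k, DU2 k t y := by
      rw [Finset.sum_sub_distrib, ← Finset.mul_sum, Finset.sum_comm]
      congr 2
      refine Finset.sum_congr rfl fun i _ => ?_
      rw [← Finset.sum_div, Finset.sum_comm]
    rw [h3]
    have h4 : 0 ≤ Real.exp (α * t) *
        (∑ i, (∑ x, (TE i x t y - (∑ k, DE2 i x k t y) / 2)) / 2) :=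
      mul_nonneg (Real.exp_pos _).le (Finset.sum_nonneg fun i _ =>
        div_nonneg (Finset.sum_nonneg fun x _ => h2 i x) (by norm_num))
    have h5 : ∑ i, (∑ x, (TE i x t y - (∑ k, DE2 i x k t y) / 2)) / 2 =
        (∑ i, (∑ x, TE i x t y) / 2) - (∑ i, (∑ x, ∑ k, DE2 i x k t y) / 2) / 2 := by
      rw [Finset.sum_div, ← Finset.sum_sub_distrib]
      refine Finset.sum_congr rfl fun i _ => ?_
      rw [Finset.sum_sub_distrib, ← Finset.sum_div]
      ring
    rw [h5] at h4
    have h6 : α * entW Finset.univ (wB J M t y) f ≥ TU t y - (∑ k, DU2 k t y) / 2 := h1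
    nlinarith
  · -- time zero
    intro y
    rw [← hsum, wB_zero, mul_zero, Real.exp_zero, one_mul, sub_nonneg]
    exact tensor (fun i s => Real.exp (y i * sp s)) (fun _ _ => Real.exp_pos _) f hf
  · -- growth
    obtain ⟨c, hc⟩ := wB_le J M
    obtain ⟨x0, -, hx0⟩ := Finset.exists_min_image (Finset.univ : Finset (ι → Bool)) f
      Finset.univ_nonempty
    obtain ⟨x1, -, hx1⟩ := Finset.exists_max_image (Finset.univ : Finset (ι → Bool)) f
      Finset.univ_nonempty
    set a0 := f x0
    set b0 := f x1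
    have hab : 0 ≤ b0 * (Real.log b0 - Real.log a0) :=
      mul_nonneg (hf x1).le (sub_nonneg.mpr (Real.log_le_log (hf x0)
        (hx0 x1 (Finset.mem_univ _))))
    refine ⟨(∑ _x : ι → Bool, Real.exp c) * (b0 * (Real.log b0 - Real.log a0)), ?_⟩
    intro t ht y
    beta_reduce
    have h1 := entW_le (wB J M t y) f (fun x => Real.exp_pos _) a0 b0 (hf x0)
      (fun x => hx0 x (Finset.mem_univ x)) (fun x => hx1 x (Finset.mem_univ x))
    have h2 : ∑ x, wB J M t y x ≤ (∑ _x : ι → Bool, Real.exp c) * Real.exp (∑ i, |y i|) := by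
      rw [Finset.sum_mul]
      exact Finset.sum_le_sum fun x _ => hc t ht y x
    have h3 : 0 ≤ Real.exp (α * t) *
        (∑ i, (∑ x, entW {update x i true, update x i false} (wB J M t y) f) / 2) := by
      refine mul_nonneg (Real.exp_pos _).le (Finset.sum_nonneg fun i _ =>
        div_nonneg (Finset.sum_nonneg fun x _ => ?_) (by norm_num))
      rw [← entE_eq]
      exact entE_nonneg _ _ (fun x => Real.exp_pos _) hf i x
    have h4 := mul_le_mul_of_nonneg_right h2 hab
    have h5 : (∑ _x : ι → Bool, Real.exp c) * Real.exp (∑ i, |y i|) *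
        (b0 * (Real.log b0 - Real.log a0)) =
        (∑ _x : ι → Bool, Real.exp c) * (b0 * (Real.log b0 - Real.log a0)) *
          Real.exp (∑ i, |y i|) := by ring
    rw [h5] at h4
    linarith

end ising

end

end P150
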