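import Vale.Agent.P150.Defs
import Vale.Agent.P150.Flip

/-! [B] Bochner inequality from the two-spin face inequality (helper2) -/

open Function

namespace P150

noncomputable section

set_option linter.unusedSectionVars false

/-- the statement of the face inequality with a given constant -/
def FaceIneq (C : ℝ) : Prop := ∀ (J a b : ℝ), |J| ≤ 1/10 → ∀ F : Bool → Bool → ℝ,
    -(C * |J| ^ 3) * ∑ s : Bool, ∑ t : Bool,
      Real.exp (a * sp s + b * sp t + J * sp s * sp t) *
      ((1 - Real.tanh (a + J * sp t) ^ 2) * ((F true t - F false t) / 2) ^ 2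
       + (1 - Real.tanh (b + J * sp s) ^ 2) * ((F s true - F s false) / 2) ^ 2)
    ≤ ∑ s : Bool, ∑ t : Bool,
      Real.exp (a * sp s + b * sp t + J * sp s * sp t) *
      ((sp s - Real.tanh (a + J * sp t)) * (sp t - Real.tanh (b + J * sp s))
          * ((F true t - F false t) / 2) * ((F s true - F s false) / 2)
        + J * ((1 - Real.tanh (a + J * sp t) ^ 2) * ((F true t - F false t) / 2))
            * ((1 - Real.tanh (b + J * sp s) ^ 2) * ((F s true - F s false) / 2))
        + 2 * J ^ 2
            * (Real.tanh (a + J * sp t) * (1 - Real.tanh (a + J * sp t) ^ 2)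
                * ((F true t - F false t) / 2))
            * (Real.tanh (b + J * sp s) * (1 - Real.tanh (b + J * sp s) ^ 2)
                * ((F s true - F s false) / 2)))

section ising
variable {ι : Type} [Fintype ι] [DecidableEq ι]

/-- `y_i = V_i B_i` -/
def yy (J : ι → ι → ℝ) (h : ι → ℝ) (f : (ι → Bool) → ℝ) (x : ι → Bool) (i : ι) : ℝ :=
  Vg J h i x * dB i f x

/-- `z_i = m_i V_i B_i` -/
def zz (J : ι → ι → ℝ) (h : ι → ℝ) (f : (ι → Bool) → ℝ) (x : ι → Bool) (i : ι) : ℝ :=
  mg J h i x * (Vg J h i x * dB i f x)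

/-- the pair inequality, summed over all configurations -/
lemma pair_ineq (C : ℝ) (hface : FaceIneq C)
    (J : ι → ι → ℝ) (hs : ∀ i j, J i j = J j i) (hd : ∀ i, J i i = 0) (h : ι → ℝ)
    (f : (ι → Bool) → ℝ) (i j : ι) (hij : i ≠ j) (hJ : |J i j| ≤ 1/10) :
    -(C * |J i j| ^ 3) * ∑ x, wt J h x * (Vg J h i x * dB i f x ^ 2 + Vg J h j x * dB j f x ^ 2)
    ≤ ∑ x, wt J h x * ((sp (x i) - mg J h i x) * (sp (x j) - mg J h j x)
        * dB i f x * dB j f x + J i j * yy J h f x i * yy J h f x j
        + 2 * J i j ^ 2 * zz J h f x i * zz J h f x j) := by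
  -- a factor depending on the other spins
  set K : (ι → Bool) → ℝ := fun x => wt J h x * Real.exp (-(sp (x i) * fld J h i x) -
    sp (x j) * fld J h j x + J i j * sp (x i) * sp (x j)) with hK
  have hKpos : ∀ x, 0 < K x := fun x => mul_pos (wt_pos J h x) (Real.exp_pos _)
  set a : (ι → Bool) → ℝ := fun x => fld J h i x - J i j * sp (x j) with ha
  set b : (ι → Bool) → ℝ := fun x => fld J h j x - J i j * sp (x i) with hb
  have hji : j ≠ i := fun e => hij e.symm
  have hw : ∀ x s t, wt J h (update (update x i s) j t) =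
      K x * Real.exp (a x * sp s + b x * sp t + J i j * sp s * sp t) := by
    intro x s t
    simp only [hK, ha, hb]
    unfold wt
    rw [ham_update J hs hd, ham_update J hs hd, ← Real.exp_add, ← Real.exp_add]
    congr 1
    rw [update_of_ne hji, fld_update, hs j i]
    ring
  have hfi : ∀ x s t, fld J h i (update (update x i s) j t) = a x + J i j * sp t := by
    intro x s t
    rw [fld_update, fld_update_self J hd, update_of_ne hji]
    simp only [ha]; ring
  have hfj : ∀ x s t, fld J h j (update (update x i s) j t) = b x + J i j * sp s := by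
    intro x s t
    rw [fld_update_self J hd, fld_update, hs j i]
    simp only [hb]; ring
  set F : (ι → Bool) → Bool → Bool → ℝ := fun x s t => f (update (update x i s) j t) with hF
  have hBi : ∀ x s t, dB i f (update (update x i s) j t) = (F x true t - F x false t) / 2 := by
    intro x s t
    simp only [hF]
    unfold dB
    have e : ∀ c, update (update (update x i s) j t) i c = update (update x i c) j t :=
      fun c => by rw [update_comm hji, update_idem]
    rw [e, e]
  have hBj : ∀ x s t, dB j f (update (update x i s) j t) = (F x s true - F x s false) / 2 := by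
    intro x s t
    simp only [hF]
    unfold dB
    rw [update_idem, update_idem]
  have hxi : ∀ (x : ι → Bool) s t, (update (update x i s) j t) i = s := by
    intro x s t; rw [update_of_ne hij, update_self]
  have hxj : ∀ (x : ι → Bool) s t, (update (update x i s) j t) j = t := by
    intro x s t; rw [update_self]
  have L := sum_update_two i j (fun x => wt J h x *
    (Vg J h i x * dB i f x ^ 2 + Vg J h j x * dB j f x ^ 2))
  have R := sum_update_two i j (fun x => wt J h x *
    ((sp (x i) - mg J h i x) * (sp (x j) - mg J h j x)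
        * dB i f x * dB j f x + J i j * yy J h f x i * yy J h f x j
        + 2 * J i j ^ 2 * zz J h f x i * zz J h f x j))
  have key : -(C * |J i j| ^ 3) * ∑ x, ∑ s : Bool, ∑ t : Bool,
      (fun x => wt J h x *
        (Vg J h i x * dB i f x ^ 2 + Vg J h j x * dB j f x ^ 2)) (update (update x i s) j t) ≤
      ∑ x, ∑ s : Bool, ∑ t : Bool, (fun x => wt J h x *
    ((sp (x i) - mg J h i x) * (sp (x j) - mg J h j x)
        * dB i f x * dB j f x + J i j * yy J h f x i * yy J h f x j
        + 2 * J i j ^ 2 * zz J h f x i * zz J h f x j)) (update (update x i s) j t) := by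
    rw [Finset.mul_sum]
    refine Finset.sum_le_sum fun x _ => ?_
    have := mul_le_mul_of_nonneg_left (hface (J i j) (a x) (b x) hJ (F x)) (hKpos x).le
    have e1 : K x * (-(C * |J i j| ^ 3) * ∑ s : Bool, ∑ t : Bool,
      Real.exp (a x * sp s + b x * sp t + J i j * sp s * sp t) *
      ((1 - Real.tanh (a x + J i j * sp t) ^ 2) * ((F x true t - F x false t) / 2) ^ 2
       + (1 - Real.tanh (b x + J i j * sp s) ^ 2) * ((F x s true - F x s false) / 2) ^ 2)) =
      -(C * |J i j| ^ 3) * ∑ s : Bool, ∑ t : Bool,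
      (fun x => wt J h x *
        (Vg J h i x * dB i f x ^ 2 + Vg J h j x * dB j f x ^ 2)) (update (update x i s) j t) := by
      rw [mul_left_comm, Finset.mul_sum]
      congr 1
      refine Finset.sum_congr rfl fun s _ => ?_
      rw [Finset.mul_sum]
      refine Finset.sum_congr rfl fun t _ => ?_
      simp only [hw, hBi, hBj, Vg, mg, hfi, hfj]
      ring
    have e2 : K x * (∑ s : Bool, ∑ t : Bool,
      Real.exp (a x * sp s + b x * sp t + J i j * sp s * sp t) *
      ((sp s - Real.tanh (a x + J i j * sp t)) * (sp t - Real.tanh (b x + J i j * sp s))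
          * ((F x true t - F x false t) / 2) * ((F x s true - F x s false) / 2)
        + J i j * ((1 - Real.tanh (a x + J i j * sp t) ^ 2) * ((F x true t - F x false t) / 2))
            * ((1 - Real.tanh (b x + J i j * sp s) ^ 2) * ((F x s true - F x s false) / 2))
        + 2 * J i j ^ 2
            * (Real.tanh (a x + J i j * sp t) * (1 - Real.tanh (a x + J i j * sp t) ^ 2)
                * ((F x true t - F x false t) / 2))
            * (Real.tanh (b x + J i j * sp s) * (1 - Real.tanh (b x + J i j * sp s) ^ 2)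
                * ((F x s true - F x s false) / 2)))) =
      ∑ s : Bool, ∑ t : Bool, (fun x => wt J h x *
    ((sp (x i) - mg J h i x) * (sp (x j) - mg J h j x)
        * dB i f x * dB j f x + J i j * yy J h f x i * yy J h f x j
        + 2 * J i j ^ 2 * zz J h f x i * zz J h f x j)) (update (update x i s) j t) := by
      rw [Finset.mul_sum]
      refine Finset.sum_congr rfl fun s _ => ?_
      rw [Finset.mul_sum]
      refine Finset.sum_congr rfl fun t _ => ?_
      simp only [yy, zz, hw, hBi, hBj, Vg, mg, hfi, hfj, hxi, hxj]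
      ring
    rw [e1, e2] at this
    exact this
  rw [L, R] at key
  linarith

lemma sum_J_sq_symm (J : ι → ι → ℝ) (hs : ∀ i j, J i j = J j i) (S : ι → ℝ) :
    ∑ i, ∑ j, J i j ^ 2 * (S i + S j) = 2 * ∑ i, S i * ∑ j, J i j ^ 2 := by
  have h1 : ∑ i, ∑ j, J i j ^ 2 * (S i + S j) =
      ∑ i, ∑ j, J i j ^ 2 * S i + ∑ i, ∑ j, J i j ^ 2 * S j := by
    rw [← Finset.sum_add_distrib]
    refine Finset.sum_congr rfl fun i _ => ?_
    rw [← Finset.sum_add_distrib]
    exact Finset.sum_congr rfl fun j _ => by ring
  have h2 : ∑ i, ∑ j, J i j ^ 2 * S j = ∑ i, ∑ j, J i j ^ 2 * S i := by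
    rw [Finset.sum_comm]
    refine Finset.sum_congr rfl fun i _ => Finset.sum_congr rfl fun j _ => ?_
    rw [hs j i]
  rw [h1, h2, ← two_mul]
  congr 1
  refine Finset.sum_congr rfl fun i _ => ?_
  rw [Finset.mul_sum]
  exact Finset.sum_congr rfl fun j _ => by ring

theorem bochner_of_face (C : ℝ) (hC : 0 < C) (hface : FaceIneq C)
    (J : ι → ι → ℝ) (M δ : ℝ) (hG : Good J M δ) (hδ : δ ≤ 1/10) (hM : 0 ≤ M) (hM1 : M ≤ 1)
    (h : ι → ℝ) (f : (ι → Bool) → ℝ) :
    (1 - M - C * δ) * dirf J h f ≤ ev J h (fun x => gen J h f x ^ 2) := by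
  have hs := hG.symm
  have hd := hG.diag
  set S : ι → ℝ := fun i => ∑ x, wt J h x * (Vg J h i x * dB i f x ^ 2) with hS
  have hSnn : ∀ i, 0 ≤ S i := fun i => Finset.sum_nonneg fun x _ =>
    mul_nonneg (wt_pos J h x).le (mul_nonneg (Vg_pos J h i x).le (sq_nonneg _))
  set P : ι → ι → ℝ := fun i j => ∑ x, wt J h x * ((sp (x i) - mg J h i x) *
    (sp (x j) - mg J h j x) * dB i f x * dB j f x) with hP
  have hdir : ∑ x, wt J h x * (∑ i, Vg J h i x * dB i f x ^ 2) = ∑ i, S i := by
    simp only [hS, Finset.mul_sum]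
    exact Finset.sum_comm
  have hgen : ∑ x, wt J h x * gen J h f x ^ 2 = ∑ i, ∑ j, P i j := by
    have e1 : ∀ x, wt J h x * gen J h f x ^ 2 = ∑ i, ∑ j, wt J h x *
        ((sp (x i) - mg J h i x) * (sp (x j) - mg J h j x) * dB i f x * dB j f x) := by
      intro x
      unfold gen
      rw [neg_sq, sq, Finset.sum_mul_sum, Finset.mul_sum]
      refine Finset.sum_congr rfl fun i _ => ?_
      rw [Finset.mul_sum]
      exact Finset.sum_congr rfl fun j _ => by ring
    rw [Finset.sum_congr rfl (fun x _ => e1 x), Finset.sum_comm]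
    refine Finset.sum_congr rfl fun i _ => ?_
    rw [Finset.sum_comm]
  -- the remainder terms
  set W : ι → ι → ℝ := fun i j => ∑ x, wt J h x * (J i j * yy J h f x i * yy J h f x j
        + 2 * J i j ^ 2 * zz J h f x i * zz J h f x j) with hW
  have hPii : ∀ i, P i i = S i := by
    intro i
    simp only [hP, hS]
    rw [← sum_wt_a_sq_mul J hs hd h i (fun x => dB i f x ^ 2)
      (fun x s => by simp only [dB_update_self])]
    exact Finset.sum_congr rfl fun x _ => by ring
  have hPij : ∀ i j, (if i = j then S i else 0) - W i j - C * |J i j| ^ 3 * (S i + S j)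
      ≤ P i j := by
    intro i j
    by_cases hij : i = j
    · subst hij
      have : W i i = 0 := by
        simp only [hW, hd i]
        simp
      rw [this, hPii, hd i]
      simp
    · have h1 := pair_ineq C hface J hs hd h f i j hij ((hG.entry i j).trans hδ)
      have h2 : ∑ x, wt J h x * (Vg J h i x * dB i f x ^ 2 + Vg J h j x * dB j f x ^ 2) =
          S i + S j := by
        simp only [hS]
        rw [← Finset.sum_add_distrib]
        exact Finset.sum_congr rfl fun x _ => by ring
      have h3 : ∑ x, wt J h x * ((sp (x i) - mg J h i x) * (sp (x j) - mg J h j x)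
        * dB i f x * dB j f x + J i j * yy J h f x i * yy J h f x j
        + 2 * J i j ^ 2 * zz J h f x i * zz J h f x j) = P i j + W i j := by
        simp only [hP, hW]
        rw [← Finset.sum_add_distrib]
        exact Finset.sum_congr rfl fun x _ => by ring
      rw [h2, h3] at h1
      simp only [hij, if_false]
      linarith
  -- bound on the quadratic terms
  have hWsum : ∑ i, ∑ j, W i j ≤ M * ∑ i, S i := by
    have e1 : ∑ i, ∑ j, W i j = ∑ x, wt J h x *
        (∑ i, ∑ j, (J i j * yy J h f x i * yy J h f x j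
        + 2 * J i j ^ 2 * zz J h f x i * zz J h f x j)) := by
      simp only [hW, Finset.mul_sum]
      rw [Finset.sum_comm' (s := (Finset.univ : Finset (ι → Bool)))
        (t := fun _ => (Finset.univ : Finset ι)) (t' := (Finset.univ : Finset ι))
        (s' := fun _ => (Finset.univ : Finset (ι → Bool))) (by simp)]
      refine Finset.sum_congr rfl fun i _ => ?_
      rw [Finset.sum_comm]
    rw [e1, ← hdir, Finset.mul_sum]
    refine Finset.sum_le_sum fun x _ => ?_
    rw [mul_left_comm]
    refine mul_le_mul_of_nonneg_left ?_ (wt_pos J h x).le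
    have h1 := hG.quad (yy J h f x)
    have h2 : ∑ i, ∑ j, 2 * J i j ^ 2 * zz J h f x i * zz J h f x j ≤
        M * ∑ i, zz J h f x i ^ 2 := by
      calc ∑ i, ∑ j, 2 * J i j ^ 2 * zz J h f x i * zz J h f x j
          ≤ ∑ i, ∑ j, J i j ^ 2 * (zz J h f x i ^ 2 + zz J h f x j ^ 2) := by
            refine Finset.sum_le_sum fun i _ => Finset.sum_le_sum fun j _ => ?_
            nlinarith [mul_nonneg (sq_nonneg (J i j))
              (sq_nonneg (zz J h f x i - zz J h f x j))]
        _ = 2 * ∑ i, zz J h f x i ^ 2 * ∑ j, J i j ^ 2 :=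
            sum_J_sq_symm J hs (fun i => zz J h f x i ^ 2)
        _ ≤ 2 * ∑ i, zz J h f x i ^ 2 * (M / 2) := by
            refine mul_le_mul_of_nonneg_left ?_ (by norm_num)
            exact Finset.sum_le_sum fun i _ =>
              mul_le_mul_of_nonneg_left (hG.row i) (sq_nonneg _)
        _ = M * ∑ i, zz J h f x i ^ 2 := by
            rw [← Finset.sum_mul]; ring
    have h3 : ∑ i, ∑ j, (J i j * yy J h f x i * yy J h f x j
        + 2 * J i j ^ 2 * zz J h f x i * zz J h f x j) =
        ∑ i, ∑ j, J i j * yy J h f x i * yy J h f x j +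
        ∑ i, ∑ j, 2 * J i j ^ 2 * zz J h f x i * zz J h f x j := by
      rw [← Finset.sum_add_distrib]
      exact Finset.sum_congr rfl fun i _ => Finset.sum_add_distrib
    rw [h3]
    have h4 : M * ∑ i, yy J h f x i ^ 2 + M * ∑ i, zz J h f x i ^ 2 ≤
        M * ∑ i, Vg J h i x * dB i f x ^ 2 := by
      rw [← mul_add, ← Finset.sum_add_distrib]
      refine mul_le_mul_of_nonneg_left ?_ hM
      refine Finset.sum_le_sum fun i _ => ?_
      have hV := Vg_pos J h i x
      have e2 : yy J h f x i ^ 2 + zz J h f x i ^ 2 =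
          Vg J h i x * dB i f x ^ 2 * (1 - mg J h i x ^ 4) := by
        unfold yy zz Vg; ring
      rw [e2]
      have h5 : 0 ≤ Vg J h i x * dB i f x ^ 2 := mul_nonneg hV.le (sq_nonneg _)
      have h6 : 0 ≤ mg J h i x ^ 4 := by positivity
      nlinarith
    linarith
  -- bound on the cubic terms
  have hcub : ∑ i, ∑ j, C * |J i j| ^ 3 * (S i + S j) ≤ C * δ * ∑ i, S i := by
    calc ∑ i, ∑ j, C * |J i j| ^ 3 * (S i + S j)
        ≤ ∑ i, ∑ j, C * δ * (J i j ^ 2 * (S i + S j)) := by
          refine Finset.sum_le_sum fun i _ => Finset.sum_le_sum fun j _ => ?_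
          have h1 : |J i j| ^ 3 ≤ δ * J i j ^ 2 := by
            have : |J i j| ^ 3 = |J i j| * J i j ^ 2 := by
              rw [pow_succ, sq_abs]; ring
            rw [this]
            exact mul_le_mul_of_nonneg_right (hG.entry i j) (sq_nonneg _)
          have h2 : 0 ≤ S i + S j := add_nonneg (hSnn i) (hSnn j)
          have h3 := mul_le_mul_of_nonneg_left h1 (mul_nonneg hC.le h2)
          linarith
      _ = C * δ * (2 * ∑ i, S i * ∑ j, J i j ^ 2) := by
          rw [← sum_J_sq_symm J hs S, Finset.mul_sum]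
          exact Finset.sum_congr rfl fun i _ => (Finset.mul_sum _ _ _).symm
      _ ≤ C * δ * ∑ i, S i := by
          rw [mul_left_comm, Finset.mul_sum, Finset.mul_sum, Finset.mul_sum]
          refine Finset.sum_le_sum fun i _ => ?_
          have hδ0 : 0 ≤ δ := (abs_nonneg _).trans (hG.entry i i)
          have h1 : ∑ j, J i j ^ 2 ≤ 1 / 2 := (hG.row i).trans (by linarith)
          have h2 : 0 ≤ C * δ * S i := mul_nonneg (mul_nonneg hC.le hδ0) (hSnn i)
          nlinarith [mul_le_mul_of_nonneg_left h1 h2]
  have hsum : ∑ i, ∑ j, ((if i = j then S i else 0) - W i j - C * |J i j| ^ 3 * (S i + S j)) ≤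
      ∑ i, ∑ j, P i j :=
    Finset.sum_le_sum fun i _ => Finset.sum_le_sum fun j _ => hPij i j
  have hsplit : ∑ i, ∑ j, ((if i = j then S i else 0) - W i j - C * |J i j| ^ 3 * (S i + S j)) =
      ∑ i, S i - ∑ i, ∑ j, W i j - ∑ i, ∑ j, C * |J i j| ^ 3 * (S i + S j) := by
    rw [← Finset.sum_sub_distrib, ← Finset.sum_sub_distrib]
    refine Finset.sum_congr rfl fun i _ => ?_
    rw [Finset.sum_sub_distrib, Finset.sum_sub_distrib]
    simp
  rw [hsplit] at hsum
  unfold dirf ev
  rw [← mul_div_assoc]
  refine div_le_div_of_nonneg_right ?_ (Zf_pos J h).le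
  rw [hdir, hgen]
  linarith

end ising

end

end P150
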