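import Vale.Agent.P150.Face
import Vale.Agent.P150.BochnerAux

/-! [B] (helper2) -/

namespace P150

theorem bochner : ∃ C : ℝ, 0 < C ∧ ∀ {ι : Type} [Fintype ι] [DecidableEq ι]
    (J : ι → ι → ℝ) (M δ : ℝ), Good J M δ → δ ≤ 1/10 → 0 ≤ M → M ≤ 1 →
    ∀ (h : ι → ℝ) (f : (ι → Bool) → ℝ),
    (1 - M - C * δ) * dirf J h f ≤ ev J h (fun x => gen J h f x ^ 2) := by
  obtain ⟨C, hC, hf⟩ := face_ineq
  refine ⟨C, hC, ?_⟩
  intro ι _ _ J M δ hG hδ hM hM1 h f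
  exact bochner_of_face C hC hf J M δ hG hδ hM hM1 h f

end P150
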