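import Vale.Agent.P150.LamMax

/-!
# The coupling matrix of the SK model is good with high probability (helper file for P150)
-/

open MeasureTheory ProbabilityTheory Filter Topology

namespace P150

noncomputable section

namespace GoodAux

theorem SKJ_symm {n : ℕ} (β : ℝ) (g : Fin n × Fin n → ℝ) (i j : Fin n) :
    SKJ β g i j = SKJ β g j i := by
  unfold SKJ cpl
  rcases lt_trichotomy i j with h | h | h
  · rw [if_neg h.ne, if_neg h.ne', if_pos h, if_neg h.not_gt]
  · rw [h]
  · rw [if_neg h.ne', if_neg h.ne, if_neg h.not_gt, if_pos h]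

theorem SKJ_diag {n : ℕ} (β : ℝ) (g : Fin n × Fin n → ℝ) (i : Fin n) : SKJ β g i i = 0 := by
  unfold SKJ
  rw [if_pos rfl]

theorem SKJ_meas {n : ℕ} (β : ℝ) (i j : Fin n) :
    Measurable (fun g : Fin n × Fin n → ℝ => SKJ β g i j) := by
  unfold SKJ cpl
  by_cases h1 : i = j
  · simp only [if_pos h1]
    exact measurable_const
  · simp only [if_neg h1]
    refine Measurable.const_mul ?_ _
    by_cases h2 : i < j
    · simp only [if_pos h2]
      exact measurable_pi_apply _
    · simp only [if_neg h2]
      exact measurable_pi_apply _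

end GoodAux

open GoodAux LamAux

theorem sk_good (β : ℝ) (hβ : 0 ≤ β) (hβ' : β ≤ 1/2) (ε δ : ℝ) (hε : 0 < ε) (hδ : 0 < δ) :
    Tendsto (fun n : ℕ => disorder n {g | Good (SKJ (n := n) β g) (2 * β + ε) δ})
      atTop (𝓝 1) := by
  have hpr : ∀ n, IsProbabilityMeasure (disorder n) := fun n => by unfold disorder; infer_instance
  have t1 := lam_max β ε hβ hε
  have t2 := sk_rows β hβ hβ'
  have t3 := sk_entries β δ hδ
  have t4 := inter_one _ _ (fun n => ?_) t1 t2
  · have t5 := inter_one _ _ (fun n => ?_) t4 t3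
    · refine tendsto_of_tendsto_of_tendsto_of_le_of_le t5 tendsto_const_nhds ?_
        (fun n => prob_le_one)
      intro n
      refine measure_mono ?_
      intro g hg
      obtain ⟨⟨h1, h2⟩, h3⟩ := hg
      refine ⟨SKJ_symm β g, SKJ_diag β g, h3, fun i => ?_, fun y => ?_, fun y => ?_⟩
      · refine (h2 i).trans ?_
        linarith
      · exact (abs_le.1 (h1 y)).2
      · exact (abs_le.1 (h1 y)).1
    · have e : {g : Fin n × Fin n → ℝ | ∀ i j : Fin n, |SKJ β g i j| ≤ δ} =
          ⋂ i : Fin n, ⋂ j : Fin n, {g : Fin n × Fin n → ℝ | |SKJ β g i j| ≤ δ} := by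
        ext g
        simp
      rw [e]
      refine MeasurableSet.iInter (fun i => MeasurableSet.iInter (fun j => ?_))
      exact measurableSet_le (SKJ_meas β i j).abs measurable_const
  · have e : {g : Fin n × Fin n → ℝ | ∀ i : Fin n, ∑ j, SKJ β g i j ^ 2 ≤ β} =
        ⋂ i : Fin n, {g : Fin n × Fin n → ℝ | ∑ j, SKJ β g i j ^ 2 ≤ β} := by
      ext g
      simp
    rw [e]
    refine MeasurableSet.iInter (fun i => ?_)
    refine measurableSet_le ?_ measurable_const
    exact Finset.measurable_fun_sum _ (fun j _ => (SKJ_meas β i j).pow_const 2)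

end

end P150
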