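import Vale.Agent.P150.Defs
import Vale.Agent.P150.Flip
import Vale.Agent.P150.GapAbs

/-! [I] basic facts on `P_t = exp(tL)` (helper2) -/

open Function

namespace P150

noncomputable section

set_option linter.unusedSectionVars false

section gen
variable {m : Type} [Fintype m] [DecidableEq m]

lemma exp_nonneg_of_nonneg (A : Matrix m m ℝ) (hA : ∀ x y, 0 ≤ A x y) (x y : m) :
    0 ≤ (NormedSpace.exp A) x y := by
  let _ : NormedRing (Matrix m m ℝ) := Matrix.linftyOpNormedRing
  let _ : NormedAlgebra ℝ (Matrix m m ℝ) := Matrix.linftyOpNormedAlgebra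
  have H : HasSum (fun n : ℕ => ((n.factorial : ℝ)⁻¹) • A ^ n) (NormedSpace.exp A) :=
    NormedSpace.exp_series_hasSum_exp' (𝕂 := ℝ) A
  have H2 := Pi.hasSum.mp (Pi.hasSum.mp H x) y
  refine HasSum.nonneg (fun n => ?_) H2
  have hp : ∀ n x y, 0 ≤ (A ^ n) x y := by
    intro n
    induction n with
    | zero =>
      intro x y
      rw [pow_zero, Matrix.one_apply]
      split_ifs <;> norm_num
    | succ n ih =>
      intro x y
      rw [pow_succ, Matrix.mul_apply]
      exact Finset.sum_nonneg fun z _ => mul_nonneg (ih _ _) (hA _ _)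
  exact mul_nonneg (by positivity) (hp n x y)

lemma exp_smul_one (c : ℝ) : NormedSpace.exp (c • (1 : Matrix m m ℝ)) = Real.exp c • 1 := by
  have h1 : c • (1 : Matrix m m ℝ) = Matrix.diagonal (fun _ => c) := by
    ext i j; simp [Matrix.one_apply, Matrix.diagonal_apply]
  have h2 : Real.exp c • (1 : Matrix m m ℝ) = Matrix.diagonal (fun _ => Real.exp c) := by
    ext i j; simp [Matrix.one_apply, Matrix.diagonal_apply]
  rw [h1, h2, Matrix.exp_diagonal]
  congr 1
  rw [Pi.exp_def]
  funext i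
  rw [Real.exp_eq_exp_ℝ]

lemma hasDerivAt_exp_mulVec (A : Matrix m m ℝ) (f : m → ℝ) (t : ℝ) (x : m) :
    HasDerivAt (fun r : ℝ => (NormedSpace.exp (r • A)).mulVec f x)
      (A.mulVec ((NormedSpace.exp (t • A)).mulVec f) x) t := by
  let _ : NormedRing (Matrix m m ℝ) := Matrix.linftyOpNormedRing
  let _ : NormedAlgebra ℝ (Matrix m m ℝ) := Matrix.linftyOpNormedAlgebra
  have H : HasDerivAt (fun u : ℝ => NormedSpace.exp (u • A)) (A * NormedSpace.exp (t • A)) t :=
    hasDerivAt_exp_smul_const' (𝕂 := ℝ) A t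
  let T : Matrix m m ℝ →ₗ[ℝ] ℝ :=
    { toFun := fun M => M.mulVec f x
      map_add' := fun M N => by simp [Matrix.add_mulVec]
      map_smul' := fun c M => by simp [Matrix.smul_mulVec] }
  have H2 := (LinearMap.toContinuousLinearMap T).hasFDerivAt.comp_hasDerivAt t H
  have e : A.mulVec ((NormedSpace.exp (t • A)).mulVec f) x =
      (A * NormedSpace.exp (t • A)).mulVec f x := by
    rw [Matrix.mulVec_mulVec]
  rw [e]
  exact H2

end gen

section ising
variable {ι : Type} [Fintype ι] [DecidableEq ι]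

lemma Qm_nonneg (J : ι → ι → ℝ) (h : ι → ℝ) (i : ι) (x y : ι → Bool) : 0 ≤ Qm J h i x y := by
  unfold Qm
  split_ifs
  · positivity
  · exact le_rfl

lemma sum_Qm_mul (J : ι → ι → ℝ) (h : ι → ℝ) (i : ι) (f : (ι → Bool) → ℝ) (x : ι → Bool) :
    ∑ y, Qm J h i x y * f y = ∑ s : Bool,
      Real.exp (sp s * fld J h i x) / (2 * Real.cosh (fld J h i x)) * f (update x i s) := by
  have h1 : ∀ y : ι → Bool, Qm J h i x y * f y = ∑ s : Bool, if y = update x i s then
      Real.exp (sp s * fld J h i x) / (2 * Real.cosh (fld J h i x)) * f (update x i s) else 0 := by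
    intro y
    unfold Qm
    by_cases hy : ∀ j, j ≠ i → y j = x j
    · have e : y = update x i (y i) := by
        funext k
        by_cases hk : k = i
        · subst hk; simp
        · rw [update_of_ne hk, hy k hk]
      have e2 : ∀ s, y = update x i s ↔ s = y i := by
        intro s
        constructor
        · intro hh; rw [hh, update_self]
        · intro hh; rw [hh]; exact e
      rw [if_pos hy]
      simp only [e2]
      rw [Finset.sum_ite_eq' Finset.univ (y i)]
      rw [if_pos (Finset.mem_univ _), ← e]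
    · rw [if_neg hy, zero_mul]
      symm
      apply Finset.sum_eq_zero
      intro s _
      rw [if_neg]
      intro hh
      apply hy
      intro j hj
      rw [hh, update_of_ne hj]
  rw [Finset.sum_congr rfl (fun y _ => h1 y), Finset.sum_comm]
  refine Finset.sum_congr rfl fun s _ => ?_
  simp

lemma sum_Qm_mul' (J : ι → ι → ℝ) (h : ι → ℝ) (i : ι) (f : (ι → Bool) → ℝ) (x : ι → Bool) :
    ∑ y, Qm J h i x y * f y = f x - (sp (x i) - mg J h i x) * dB i f x := by
  rw [sum_Qm_mul, Fintype.sum_bool]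
  have h1 := f_split f i x
  have h2 : f x - (sp (x i) - mg J h i x) * dB i f x =
      (f (update x i true) + f (update x i false)) / 2 + mg J h i x * dB i f x := by
    linear_combination h1
  rw [h2]
  unfold dB mg
  rw [sp_true, sp_false, Real.tanh_eq_sinh_div_cosh, Real.sinh_eq, Real.cosh_eq]
  have : Real.exp (fld J h i x) + Real.exp (-fld J h i x) ≠ 0 := by positivity
  have e1 : (1:ℝ) * fld J h i x = fld J h i x := one_mul _
  have e2 : (-1:ℝ) * fld J h i x = - fld J h i x := by ring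
  rw [e1, e2]
  field_simp
  ring

theorem Lm_mulVec (J : ι → ι → ℝ) (hd : ∀ i, J i i = 0) (h : ι → ℝ) (f : (ι → Bool) → ℝ)
    (x : ι → Bool) : (Lm J h).mulVec f x = gen J h f x := by
  unfold Lm gen
  rw [Matrix.sum_mulVec, Finset.sum_apply, ← Finset.sum_neg_distrib]
  refine Finset.sum_congr rfl fun i _ => ?_
  rw [Matrix.sub_mulVec, Pi.sub_apply, Matrix.one_mulVec]
  have : (Qm J h i).mulVec f x = ∑ y, Qm J h i x y * f y := rfl
  rw [this, sum_Qm_mul']
  ring

lemma Lm_eq (J : ι → ι → ℝ) (h : ι → ℝ) :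
    Lm J h = ∑ i, Qm J h i + (-(Fintype.card ι : ℝ)) • (1 : Matrix (ι → Bool) (ι → Bool) ℝ) := by
  unfold Lm
  rw [Finset.sum_sub_distrib]
  simp [sub_eq_add_neg, neg_smul, Nat.cast_smul_eq_nsmul]

theorem Pt_nonneg (J : ι → ι → ℝ) (h : ι → ℝ) (t : ℝ) (ht : 0 ≤ t) (x y : ι → Bool) :
    0 ≤ Pt J h t x y := by
  unfold Pt
  rw [Lm_eq, smul_add, smul_smul]
  rw [Matrix.exp_add_of_commute _ _ ((Commute.one_right _).smul_right _)]
  rw [exp_smul_one, mul_smul_comm, mul_one]
  rw [Matrix.smul_apply, smul_eq_mul]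
  refine mul_nonneg (Real.exp_pos _).le (exp_nonneg_of_nonneg _ ?_ x y)
  intro u v
  rw [Matrix.smul_apply, smul_eq_mul, Matrix.sum_apply]
  exact mul_nonneg ht (Finset.sum_nonneg fun i _ => Qm_nonneg J h i u v)

theorem Pt_zero (J : ι → ι → ℝ) (h : ι → ℝ) : Pt J h 0 = 1 := by
  unfold Pt
  rw [zero_smul, NormedSpace.exp_zero]

theorem Pt_deriv (J : ι → ι → ℝ) (hd : ∀ i, J i i = 0) (h : ι → ℝ) (f : (ι → Bool) → ℝ)
    (t : ℝ) (x : ι → Bool) :
    HasDerivAt (fun r => (Pt J h r).mulVec f x) (gen J h ((Pt J h t).mulVec f) x) t := by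
  rw [← Lm_mulVec J hd]
  exact hasDerivAt_exp_mulVec (Lm J h) f t x

lemma Pt_commute (J : ι → ι → ℝ) (h : ι → ℝ) (t : ℝ) : Commute (Lm J h) (Pt J h t) := by
  let _ : NormedRing (Matrix (ι → Bool) (ι → Bool) ℝ) := Matrix.linftyOpNormedRing
  let _ : NormedAlgebra ℝ (Matrix (ι → Bool) (ι → Bool) ℝ) := Matrix.linftyOpNormedAlgebra
  let _ : Algebra ℚ (Matrix (ι → Bool) (ι → Bool) ℝ) := inferInstance
  unfold Pt
  exact (((Commute.refl (Lm J h)).smul_right t).exp_right)

lemma gen_const (J : ι → ι → ℝ) (h : ι → ℝ) (c : ℝ) : gen J h (fun _ => c) = 0 := by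
  funext x; simp [gen, dB_const]

theorem Pt_row_sum (J : ι → ι → ℝ) (hd : ∀ i, J i i = 0) (h : ι → ℝ) (t : ℝ)
    (x : ι → Bool) : ∑ y, Pt J h t x y = 1 := by
  -- `r ↦ (P_r 1)(x)` has zero derivative
  have h0 : ∀ r, HasDerivAt (fun r => (Pt J h r).mulVec (fun _ => (1:ℝ)) x) 0 r := by
    intro r
    have h1 := hasDerivAt_exp_mulVec (Lm J h) (fun _ => (1:ℝ)) r x
    have h2 : (Lm J h).mulVec ((NormedSpace.exp (r • Lm J h)).mulVec (fun _ => (1:ℝ))) x = 0 := by
      rw [Matrix.mulVec_mulVec]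
      have hc : Lm J h * NormedSpace.exp (r • Lm J h) = NormedSpace.exp (r • Lm J h) * Lm J h :=
        Pt_commute J h r
      rw [hc, ← Matrix.mulVec_mulVec]
      have : (Lm J h).mulVec (fun _ => (1:ℝ)) = 0 := by
        funext z
        rw [Lm_mulVec J hd, gen_const]
      rw [this, Matrix.mulVec_zero]; rfl
    rw [h2] at h1
    exact h1
  have h1 : (Pt J h t).mulVec (fun _ => (1:ℝ)) x = (Pt J h 0).mulVec (fun _ => (1:ℝ)) x :=
    is_const_of_deriv_eq_zero (fun r => (h0 r).differentiableAt) (fun r => (h0 r).deriv) t 0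
  rw [Pt_zero, Matrix.one_mulVec] at h1
  rw [← h1]
  simp [Matrix.mulVec, dotProduct]

lemma Lm_symm (J : ι → ι → ℝ) (hs : ∀ i j, J i j = J j i) (hd : ∀ i, J i i = 0)
    (h : ι → ℝ) (x y : ι → Bool) : wt J h x * Lm J h x y = wt J h y * Lm J h y x := by
  have key : ∀ u v : ι → Bool, wt J h u * Lm J h u v =
      ∑ x, wt J h x * ((Pi.single u 1 : (ι → Bool) → ℝ) x *
        gen J h (Pi.single v 1 : (ι → Bool) → ℝ) x) := by
    intro u v
    rw [Finset.sum_eq_single u]
    · rw [← Lm_mulVec J hd, Matrix.mulVec_single_one]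
      simp
    · intro b _ hb
      simp [hb]
    · intro hh; exact absurd (Finset.mem_univ _) hh
  rw [key, key, ev_mul_gen_aux J hs hd, ev_mul_gen_aux J hs hd]
  congr 1
  refine Finset.sum_congr rfl fun z _ => ?_
  congr 1
  exact Finset.sum_congr rfl fun i _ => by ring

theorem Pt_symm (J : ι → ι → ℝ) (hs : ∀ i j, J i j = J j i) (hd : ∀ i, J i i = 0)
    (h : ι → ℝ) (t : ℝ) (x y : ι → Bool) :
    wt J h x * Pt J h t x y = wt J h y * Pt J h t y x := by
  set D : Matrix (ι → Bool) (ι → Bool) ℝ := Matrix.diagonal (wt J h) with hD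
  have hDu : IsUnit D := by
    rw [hD, Matrix.isUnit_diagonal, Pi.isUnit_iff]
    exact fun i => (wt_pos J h i).ne'.isUnit
  have hDdet : IsUnit D.det := (Matrix.isUnit_iff_isUnit_det D).mp hDu
  have h1 : D * Lm J h = (Lm J h).transpose * D := by
    ext u v
    rw [hD, Matrix.diagonal_mul, Matrix.mul_diagonal, Matrix.transpose_apply,
      Lm_symm J hs hd, mul_comm]
  have h2 : D * (t • Lm J h) * D⁻¹ = (t • Lm J h).transpose := by
    rw [mul_smul_comm, h1, smul_mul_assoc, mul_assoc, Matrix.mul_nonsing_inv _ hDdet, mul_one,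
      Matrix.transpose_smul]
  have h3 : NormedSpace.exp ((t • Lm J h).transpose) = D * Pt J h t * D⁻¹ := by
    rw [← h2, Matrix.exp_conj D _ hDu]; rfl
  rw [Matrix.exp_transpose] at h3
  have h4 : (Pt J h t).transpose * D = D * Pt J h t := by
    have : (Pt J h t).transpose = D * Pt J h t * D⁻¹ := h3
    rw [this, mul_assoc, Matrix.nonsing_inv_mul _ hDdet, mul_one]
  have h5 := congrFun (congrFun h4 x) y
  rw [hD, Matrix.diagonal_mul, Matrix.mul_diagonal, Matrix.transpose_apply] at h5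
  rw [← h5, mul_comm]

/-- stationarity -/
theorem stationary (J : ι → ι → ℝ) (hs : ∀ i j, J i j = J j i) (hd : ∀ i, J i i = 0)
    (h : ι → ℝ) (t : ℝ) (y : ι → Bool) :
    ∑ x, wt J h x * Pt J h t x y = wt J h y := by
  rw [Finset.sum_congr rfl (fun x _ => Pt_symm J hs hd h t x y), ← Finset.mul_sum,
    Pt_row_sum J hd, mul_one]

end ising

end

end P150
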