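import Vale.Agent.P150.SKDefs
import Vale.Agent.P150.GapAbs
import Vale.Agent.P150.Semi
import Vale.Agent.P150.Good

/-!
# The SK objects in terms of the general Ising ones
-/

open MeasureTheory ProbabilityTheory Filter Topology

namespace P150

noncomputable section

namespace BridgeAux

open P150.SK GoodAux

lemma spin_eq (b : Bool) : spin b = sp b := rfl

lemma disorder_eq (n : ℕ) : disorderLaw n = disorder n := rfl

lemma coupling_eq {n : ℕ} (g : Fin n × Fin n → ℝ) (i j : Fin n) : coupling g i j = cpl g i j := rfl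

lemma energy_eq {n : ℕ} (β : ℝ) (g : Fin n × Fin n → ℝ) (h : Fin n → ℝ) (x : Fin n → Bool) :
    energy β g h x = ham (SKJ β g) h x := by
  unfold energy ham
  congr 1
  have e1 : ∑ p : Fin n × Fin n, (if p.1 < p.2 then g p * spin (x p.1) * spin (x p.2) else 0) =
      ∑ i, ∑ j, (if i < j then g (i, j) * sp (x i) * sp (x j) else 0) := by
    rw [Fintype.sum_prod_type]
    rfl
  rw [e1]
  have e2 : ∀ i j : Fin n, SKJ β g i j * sp (x i) * sp (x j) =
      β / Real.sqrt n * ((if i < j then g (i, j) * sp (x i) * sp (x j) else 0) +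
        (if j < i then g (j, i) * sp (x j) * sp (x i) else 0)) := by
    intro i j
    unfold SKJ cpl
    rcases lt_trichotomy i j with h | h | h
    · rw [if_neg h.ne, if_pos h, if_pos h, if_neg h.not_gt]; ring
    · subst h; simp
    · rw [if_neg h.ne', if_neg h.not_gt, if_neg h.not_gt, if_pos h]; ring
  simp only [e2, ← Finset.mul_sum, Finset.sum_add_distrib]
  have e3 : ∑ i : Fin n, ∑ j : Fin n, (if j < i then g (j, i) * sp (x j) * sp (x i) else 0) =
      ∑ i, ∑ j, (if i < j then g (i, j) * sp (x i) * sp (x j) else 0) := Finset.sum_comm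
  rw [e3]
  ring

lemma localField_eq {n : ℕ} (β : ℝ) (g : Fin n × Fin n → ℝ) (h : Fin n → ℝ)
    (x : Fin n → Bool) (i : Fin n) : localField β g h x i = fld (SKJ β g) h i x := by
  unfold localField fld
  congr 1
  rw [Finset.mul_sum]
  apply Finset.sum_congr rfl
  intro j _
  unfold SKJ
  by_cases hij : j = i
  · rw [if_pos hij, if_pos hij.symm]; ring
  · rw [if_neg hij, if_neg (Ne.symm hij), coupling_eq, spin_eq]; ring

lemma resample_eq {n : ℕ} (β : ℝ) (g : Fin n × Fin n → ℝ) (h : Fin n → ℝ) (i : Fin n) :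
    resample β g h i = Qm (SKJ β g) h i := by
  funext x y
  unfold resample Qm
  rw [localField_eq, spin_eq]
  by_cases hc : ∀ j, j ≠ i → y j = x j
  · rw [if_pos hc, if_pos hc]
  · rw [if_neg hc, if_neg hc]

lemma generator_eq {n : ℕ} (β : ℝ) (g : Fin n × Fin n → ℝ) (h : Fin n → ℝ) :
    generator β g h = Lm (SKJ β g) h := by
  unfold generator Lm
  simp only [resample_eq]

end BridgeAux

open BridgeAux GoodAux

open P150.SK in
theorem gibbs_eq {n : ℕ} (β : ℝ) (g : Fin n × Fin n → ℝ) (h : Fin n → ℝ) (x : Fin n → Bool) :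
    gibbs β g h x = wt (SKJ β g) h x / Zf (SKJ β g) h := by
  unfold gibbs wt Zf wt
  simp only [energy_eq]

open P150.SK in
theorem kernel_eq {n : ℕ} (β : ℝ) (g : Fin n × Fin n → ℝ) (h : Fin n → ℝ) (t : ℝ) :
    kernel β g h t = Pt (SKJ β g) h t := by
  unfold kernel Pt
  rw [generator_eq]

lemma sum_gibbs {n : ℕ} (β : ℝ) (g : Fin n × Fin n → ℝ) (h : Fin n → ℝ)
    (F : (Fin n → Bool) → ℝ) :
    ∑ x, P150.SK.gibbs β g h x * F x = ev (SKJ β g) h F := by
  unfold ev
  rw [Finset.sum_div]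
  apply Finset.sum_congr rfl
  intro x _
  rw [gibbs_eq]
  ring

open P150.SK in
theorem variance_eq {n : ℕ} (β : ℝ) (g : Fin n × Fin n → ℝ) (h : Fin n → ℝ)
    (f : (Fin n → Bool) → ℝ) :
    variance β g h f = vr (SKJ β g) h f := by
  unfold P150.SK.variance vr
  rw [sum_gibbs, sum_gibbs]

open P150.SK in
theorem dirichlet_eq {n : ℕ} (β : ℝ) (g : Fin n × Fin n → ℝ) (h : Fin n → ℝ)
    (f : (Fin n → Bool) → ℝ) :
    dirichlet β g h f = dirf (SKJ β g) h f := by
  unfold dirichlet
  rw [sum_gibbs]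
  have h1 : ∀ x, f x * (-(generator β g h).mulVec f x) = (-1) * (f x * gen (SKJ β g) h f x) := by
    intro x
    rw [generator_eq, Lm_mulVec (SKJ β g) (SKJ_diag β g) h f x]
    ring
  have h2 : ev (SKJ β g) h (fun x => f x * (-(generator β g h).mulVec f x)) =
      - ev (SKJ β g) h (fun x => f x * gen (SKJ β g) h f x) := by
    unfold ev
    simp only [h1]
    rw [← neg_div, ← Finset.sum_neg_distrib]
    congr 1
    apply Finset.sum_congr rfl; intro x _; ring
  rw [h2, ev_mul_gen (SKJ β g) (SKJ_symm β g) (SKJ_diag β g) h f f, neg_neg]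
  unfold dirf
  congr 1
  funext x
  apply Finset.sum_congr rfl; intro i _; ring

namespace BridgeAux

section ising
variable {ι : Type} [Fintype ι] [DecidableEq ι]

lemma dirf_nonneg (J : ι → ι → ℝ) (h : ι → ℝ) (f : (ι → Bool) → ℝ) : 0 ≤ dirf J h f := by
  unfold dirf ev
  apply div_nonneg _ (Zf_pos J h).le
  apply Finset.sum_nonneg
  intro x _
  apply mul_nonneg (wt_pos J h x).le
  apply Finset.sum_nonneg
  intro i _
  exact mul_nonneg (Vg_pos J h i x).le (sq_nonneg _)

lemma vr_nonneg (J : ι → ι → ℝ) (h : ι → ℝ) (f : (ι → Bool) → ℝ) : 0 ≤ vr J h f := by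
  unfold vr ev
  apply div_nonneg _ (Zf_pos J h).le
  apply Finset.sum_nonneg
  intro x _
  exact mul_nonneg (wt_pos J h x).le (sq_nonneg _)

lemma dB_sp (i k : ι) (x : ι → Bool) : dB k (fun x => sp (x i)) x = if k = i then 1 else 0 := by
  unfold dB
  by_cases hk : k = i
  · subst hk; simp [sp]
  · simp only [if_neg hk, Function.update_of_ne (Ne.symm hk)]
    ring

/-- `D(x_i) = E V_i`, `Var(x_i) ≥ E V_i > 0` -/
lemma spin_test (J : ι → ι → ℝ) (hs : ∀ i j, J i j = J j i) (hd : ∀ i, J i i = 0) (h : ι → ℝ)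
    (i : ι) : dirf J h (fun x => sp (x i)) ≤ vr J h (fun x => sp (x i)) ∧
      0 < vr J h (fun x => sp (x i)) := by
  have hZ := Zf_pos J h
  have e1 : dirf J h (fun x => sp (x i)) = ev J h (fun x => Vg J h i x) := by
    unfold dirf
    congr 1
    funext x
    rw [Finset.sum_eq_single i]
    · rw [dB_sp, if_pos rfl]; ring
    · intro k _ hk
      rw [dB_sp, if_neg hk]; ring
    · intro h; exact absurd (Finset.mem_univ i) h
  set c := ev J h (fun x => sp (x i)) with hc
  have h1 := sum_wt_a_mul J hs hd h i (fun x => 2 * (mg J h i x - c))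
    (fun x s => by simp only [mg_update_self J hd])
  have h2 := sum_wt_a_sq_mul J hs hd h i (fun _ => 1) (fun x s => rfl)
  have e2 : vr J h (fun x => sp (x i)) =
      ev J h (fun x => Vg J h i x) + (∑ x, wt J h x * (mg J h i x - c) ^ 2) / Zf J h := by
    unfold vr
    rw [← hc]
    unfold ev
    rw [← add_div]
    congr 1
    simp only [mul_one] at h2
    have key : ∀ x, wt J h x * (sp (x i) - c) ^ 2 = wt J h x * (sp (x i) - mg J h i x) ^ 2 +
        wt J h x * ((sp (x i) - mg J h i x) * (2 * (mg J h i x - c))) +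
        wt J h x * (mg J h i x - c) ^ 2 := by
      intro x; ring
    rw [Finset.sum_congr rfl (fun x _ => key x), Finset.sum_add_distrib,
      Finset.sum_add_distrib, h1, h2, add_zero]
  have e3 : 0 ≤ (∑ x, wt J h x * (mg J h i x - c) ^ 2) / Zf J h := by
    apply div_nonneg _ hZ.le
    apply Finset.sum_nonneg
    intro x _
    exact mul_nonneg (wt_pos J h x).le (sq_nonneg _)
  have e4 : 0 < ev J h (fun x => Vg J h i x) := by
    unfold ev
    apply div_pos _ hZ
    apply Finset.sum_pos _ Finset.univ_nonempty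
    intro x _
    exact mul_pos (wt_pos J h x) (Vg_pos J h i x)
  constructor
  · rw [e1, e2]; linarith
  · rw [e2]; linarith

end ising

end BridgeAux

open P150.SK in
/-- `D(x_i) = E V_i ≤ Var(x_i)` -/
theorem gap_le_one {n : ℕ} (hn : 0 < n) (β : ℝ) (g : Fin n × Fin n → ℝ) (h : Fin n → ℝ) :
    gap β g h ≤ 1 := by
  unfold gap
  have hb : BddBelow {r : ℝ | ∃ f : Cfg n → ℝ, variance β g h f ≠ 0 ∧
      r = dirichlet β g h f / P150.SK.variance β g h f} := by
    refine ⟨0, ?_⟩
    rintro r ⟨f, _, rfl⟩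
    rw [dirichlet_eq, variance_eq]
    exact div_nonneg (dirf_nonneg _ _ _) (vr_nonneg _ _ _)
  obtain ⟨h1, h2⟩ := spin_test (SKJ β g) (SKJ_symm β g) (SKJ_diag β g) h ⟨0, hn⟩
  refine (csInf_le hb ⟨fun x => sp (x ⟨0, hn⟩), ?_, rfl⟩).trans ?_
  · rw [variance_eq]; exact h2.ne'
  · rw [dirichlet_eq, variance_eq, div_le_one h2]; exact h1

end

end P150
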