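import Vale.Agent.P150.EntDecay

/-!
# Uniformity in the external field (helper file for P150)
-/

open Function

namespace P150

noncomputable section

set_option linter.unusedSectionVars false

namespace ClipAux

section gen
variable {m : Type} [Fintype m] [DecidableEq m] [Nonempty m]

/-- Duhamel bound for two stochastic semigroups -/
lemma duhamel (A B : Matrix m m ℝ) (t c : ℝ) (ht : 0 ≤ t)
    (hA0 : ∀ s : ℝ, 0 ≤ s → ∀ x y, 0 ≤ (NormedSpace.exp (s • A)) x y)
    (hA1 : ∀ s : ℝ, ∀ x, ∑ y, (NormedSpace.exp (s • A)) x y = 1)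
    (hB0 : ∀ s : ℝ, 0 ≤ s → ∀ x y, 0 ≤ (NormedSpace.exp (s • B)) x y)
    (hB1 : ∀ s : ℝ, ∀ x, ∑ y, (NormedSpace.exp (s • B)) x y = 1)
    (hc : ∀ x, ∑ y, |A x y - B x y| ≤ c) (x : m) :
    ∑ y, |(NormedSpace.exp (t • A)) x y - (NormedSpace.exp (t • B)) x y| ≤ t * c := by
  let _ : NormedRing (Matrix m m ℝ) := Matrix.linftyOpNormedRing
  let _ : NormedAlgebra ℝ (Matrix m m ℝ) := Matrix.linftyOpNormedAlgebra
  have hnorm : ∀ (M : Matrix m m ℝ) (C : ℝ), (∀ x, ∑ y, |M x y| ≤ C) → ‖M‖ ≤ C := by
    intro M C hM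
    have hC0 : 0 ≤ C := by
      obtain ⟨x⟩ := ‹Nonempty m›
      exact (Finset.sum_nonneg (fun y _ => abs_nonneg _)).trans (hM x)
    have h := Matrix.linfty_opNorm_def M
    have h' : ‖M‖ = ((Finset.univ : Finset m).sup fun i : m => ∑ j : m, ‖M i j‖₊ : NNReal) := h
    rw [h']
    have : ((Finset.univ : Finset m).sup fun i : m => ∑ j : m, ‖M i j‖₊ : NNReal) ≤ ⟨C, hC0⟩ := by
      refine Finset.sup_le (fun i _ => NNReal.coe_le_coe.1 ?_)
      have h9 : ((∑ j : m, ‖M i j‖₊ : NNReal) : ℝ) = ∑ j, |M i j| := by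
        push_cast
        rfl
      exact h9.le.trans (hM i)
    exact_mod_cast this
  have hnorm2 : ∀ (M : Matrix m m ℝ) (x : m), ∑ y, |M x y| ≤ ‖M‖ := by
    intro M x
    have h := Matrix.linfty_opNorm_def M
    have h' : ‖M‖ = ((Finset.univ : Finset m).sup fun i : m => ∑ j : m, ‖M i j‖₊ : NNReal) := h
    rw [h']
    have : ∑ j : m, ‖M x j‖₊ ≤ ((Finset.univ : Finset m).sup fun i : m => ∑ j : m, ‖M i j‖₊) :=
      Finset.le_sup (f := fun i : m => ∑ j : m, ‖M i j‖₊) (Finset.mem_univ x)
    have h2 : ((∑ j : m, ‖M x j‖₊ : NNReal) : ℝ) ≤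
        ((Finset.univ : Finset m).sup fun i : m => ∑ j : m, ‖M i j‖₊ : NNReal) := by
      exact_mod_cast this
    refine le_trans (le_of_eq ?_) h2
    push_cast
    rfl
  have hAn : ∀ s : ℝ, 0 ≤ s → ‖NormedSpace.exp (s • A)‖ ≤ 1 := by
    intro s hs
    refine hnorm _ _ (fun x => le_of_eq ?_)
    rw [← hA1 s x]
    exact Finset.sum_congr rfl (fun y _ => abs_of_nonneg (hA0 s hs x y))
  have hBn : ∀ s : ℝ, 0 ≤ s → ‖NormedSpace.exp (s • B)‖ ≤ 1 := by
    intro s hs
    refine hnorm _ _ (fun x => le_of_eq ?_)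
    rw [← hB1 s x]
    exact Finset.sum_congr rfl (fun y _ => abs_of_nonneg (hB0 s hs x y))
  have hABn : ‖A - B‖ ≤ c := hnorm _ _ (fun x => by simpa using hc x)
  have hc0 : 0 ≤ c := (norm_nonneg _).trans hABn
  set U : ℝ → Matrix m m ℝ := fun s => NormedSpace.exp (s • A) * NormedSpace.exp ((t - s) • B)
    with hU
  have hder : ∀ s, HasDerivAt U
      (NormedSpace.exp (s • A) * (A - B) * NormedSpace.exp ((t - s) • B)) s := by
    intro s
    have H1 : HasDerivAt (fun u : ℝ => NormedSpace.exp (u • A)) (NormedSpace.exp (s • A) * A) s :=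
      hasDerivAt_exp_smul_const (𝕂 := ℝ) A s
    have H2 : HasDerivAt (fun u : ℝ => NormedSpace.exp (u • B))
        (B * NormedSpace.exp ((t - s) • B)) (t - s) :=
      hasDerivAt_exp_smul_const' (𝕂 := ℝ) B (t - s)
    have hsub : HasDerivAt (fun r : ℝ => t - r) (-1) s := (hasDerivAt_id s).const_sub t
    have H3 := H2.scomp s hsub
    have H4 := H1.mul H3
    refine H4.congr_deriv ?_
    simp only [Function.comp, neg_one_smul, mul_neg, mul_sub, sub_mul, mul_assoc]
    abel
  have hmvt := norm_image_sub_le_of_norm_deriv_le_segment' (f := U) (a := 0) (b := t)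
    (f' := fun s => NormedSpace.exp (s • A) * (A - B) * NormedSpace.exp ((t - s) • B)) (C := c)
    (fun s _ => (hder s).hasDerivWithinAt)
    (by
      intro s hs
      calc ‖NormedSpace.exp (s • A) * (A - B) * NormedSpace.exp ((t - s) • B)‖
          ≤ ‖NormedSpace.exp (s • A) * (A - B)‖ * ‖NormedSpace.exp ((t - s) • B)‖ := norm_mul_le _ _
        _ ≤ (‖NormedSpace.exp (s • A)‖ * ‖A - B‖) * ‖NormedSpace.exp ((t - s) • B)‖ := by
            gcongr
            exact norm_mul_le _ _
        _ ≤ (1 * c) * 1 := by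
            refine mul_le_mul (mul_le_mul (hAn s hs.1) hABn (norm_nonneg _) zero_le_one)
              (hBn _ (by linarith [hs.2])) (norm_nonneg _) (by linarith)
        _ = c := by ring)
    t ⟨ht, le_rfl⟩
  have hUt : U t = NormedSpace.exp (t • A) := by
    simp only [hU, sub_self, zero_smul, NormedSpace.exp_zero, mul_one]
  have hU0 : U 0 = NormedSpace.exp (t • B) := by
    simp only [hU, sub_zero, zero_smul, NormedSpace.exp_zero, one_mul]
  rw [hUt, hU0, sub_zero] at hmvt
  have h5 := hnorm2 (NormedSpace.exp (t • A) - NormedSpace.exp (t • B)) x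
  simp only [Matrix.sub_apply] at h5
  rw [mul_comm]
  exact h5.trans hmvt

end gen

section ising
variable {ι : Type} [Fintype ι] [DecidableEq ι]

lemma Lm_one (J : ι → ι → ℝ) (h : ι → ℝ) : (Lm J h).mulVec (fun _ => (1:ℝ)) = 0 := by
  funext x
  unfold Lm
  rw [Matrix.sum_mulVec, Finset.sum_apply]
  refine Finset.sum_eq_zero fun i _ => ?_
  rw [Matrix.sub_mulVec, Pi.sub_apply, Matrix.one_mulVec]
  have : (Qm J h i).mulVec (fun _ => (1:ℝ)) x = ∑ y, Qm J h i x y * (1:ℝ) := rfl
  rw [this, sum_Qm_mul' J h i (fun _ => (1:ℝ)) x]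
  unfold dB
  ring

lemma Pt_row (J : ι → ι → ℝ) (h : ι → ℝ) (t : ℝ) (x : ι → Bool) :
    ∑ y, Pt J h t x y = 1 := by
  have h0 : ∀ r, HasDerivAt (fun r => (Pt J h r).mulVec (fun _ => (1:ℝ)) x) 0 r := by
    intro r
    have h1 := hasDerivAt_exp_mulVec (Lm J h) (fun _ => (1:ℝ)) r x
    have h2 : (Lm J h).mulVec ((NormedSpace.exp (r • Lm J h)).mulVec (fun _ => (1:ℝ))) x = 0 := by
      rw [Matrix.mulVec_mulVec]
      have hc : Lm J h * NormedSpace.exp (r • Lm J h) = NormedSpace.exp (r • Lm J h) * Lm J h :=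
        Pt_commute J h r
      rw [hc, ← Matrix.mulVec_mulVec, Lm_one, Matrix.mulVec_zero]
      rfl
    rw [h2] at h1
    exact h1
  have h1 : (Pt J h t).mulVec (fun _ => (1:ℝ)) x = (Pt J h 0).mulVec (fun _ => (1:ℝ)) x :=
    is_const_of_deriv_eq_zero (fun r => (h0 r).differentiableAt) (fun r => (h0 r).deriv) t 0
  rw [Pt_zero, Matrix.one_mulVec] at h1
  rw [← h1]
  simp [Matrix.mulVec, dotProduct]

/-- resampling probability -/
def rp (f : ℝ) (s : Bool) : ℝ := Real.exp (sp s * f) / (2 * Real.cosh f)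

lemma rp_nonneg (f : ℝ) (s : Bool) : 0 ≤ rp f s := by
  unfold rp
  positivity

lemma rp_add (f : ℝ) : rp f true + rp f false = 1 := by
  unfold rp
  rw [← add_div, div_eq_one_iff_eq (by positivity), sp_true, sp_false, Real.cosh_eq]
  ring_nf

lemma rp_false_le (f R : ℝ) (h : R ≤ f) : rp f false ≤ Real.exp (-2 * R) := by
  unfold rp
  rw [sp_false, Real.cosh_eq, div_le_iff₀ (by positivity)]
  have h1 : Real.exp (-1 * f) = Real.exp (-2 * f) * Real.exp f := by
    rw [← Real.exp_add]
    congr 1
    ring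
  rw [h1]
  have h2 : Real.exp (-2 * f) ≤ Real.exp (-2 * R) := Real.exp_le_exp.2 (by linarith)
  have h3 := Real.exp_pos (-2 * R)
  have h4 := Real.exp_pos f
  have h5 := Real.exp_pos (-f)
  have h6 : Real.exp (-2 * f) * Real.exp f ≤ Real.exp (-2 * R) * Real.exp f :=
    mul_le_mul_of_nonneg_right h2 h4.le
  have h7 : 0 < Real.exp (-2 * R) * Real.exp (-f) := mul_pos h3 h5
  nlinarith

lemma rp_true_le (f R : ℝ) (h : f ≤ -R) : rp f true ≤ Real.exp (-2 * R) := by
  have h1 : rp f true = rp (-f) false := by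
    unfold rp
    rw [sp_true, sp_false, Real.cosh_neg]
    congr 2
    ring
  rw [h1]
  exact rp_false_le (-f) R (by linarith)

lemma rp_diff (f f' R : ℝ) (H : f = f' ∨ (R ≤ f ∧ R ≤ f') ∨ (f ≤ -R ∧ f' ≤ -R)) :
    |rp f true - rp f' true| + |rp f false - rp f' false| ≤ 2 * Real.exp (-2 * R) := by
  have hE := Real.exp_pos (-2 * R)
  have h1 : |rp f true - rp f' true| = |rp f false - rp f' false| := by
    have e : rp f true - rp f' true = -(rp f false - rp f' false) := by
      linarith [rp_add f, rp_add f']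
    rw [e, abs_neg]
  rcases H with H | H | H
  · subst H
    simp only [sub_self, abs_zero, add_zero]
    positivity
  · rw [h1]
    have h2 := rp_false_le f R H.1
    have h3 := rp_false_le f' R H.2
    have h4 : |rp f false - rp f' false| ≤ Real.exp (-2 * R) := by
      rw [abs_le]
      constructor
      · linarith [rp_nonneg f false]
      · linarith [rp_nonneg f' false]
    linarith
  · rw [← h1]
    have h2 := rp_true_le f R H.1
    have h3 := rp_true_le f' R H.2
    have h4 : |rp f true - rp f' true| ≤ Real.exp (-2 * R) := by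
      rw [abs_le]
      constructor
      · linarith [rp_nonneg f true]
      · linarith [rp_nonneg f' true]
    linarith

lemma Qm_diff (J : ι → ι → ℝ) (h h' : ι → ℝ) (i : ι) (x : ι → Bool) :
    ∑ y, |Qm J h i x y - Qm J h' i x y| ≤
      |rp (fld J h i x) true - rp (fld J h' i x) true| +
      |rp (fld J h i x) false - rp (fld J h' i x) false| := by
  set σ : (ι → Bool) → ℝ := fun y => SignType.sign (Qm J h i x y - Qm J h' i x y) with hσ
  have hσ1 : ∀ y, |σ y| ≤ 1 := by
    intro y
    simp only [hσ]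
    rcases lt_trichotomy (Qm J h i x y - Qm J h' i x y) 0 with hh | hh | hh
    · rw [sign_neg hh]; simp
    · rw [hh, sign_zero]; simp
    · rw [sign_pos hh]; simp
  have e1 : ∀ y, |Qm J h i x y - Qm J h' i x y| = Qm J h i x y * σ y - Qm J h' i x y * σ y := by
    intro y
    simp only [hσ]
    rw [← sub_mul, self_mul_sign]
  simp only [e1]
  rw [Finset.sum_sub_distrib, sum_Qm_mul, sum_Qm_mul, ← Finset.sum_sub_distrib, Fintype.sum_bool]
  have e2 : ∀ s : Bool, Real.exp (sp s * fld J h i x) / (2 * Real.cosh (fld J h i x)) *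
        σ (update x i s) -
      Real.exp (sp s * fld J h' i x) / (2 * Real.cosh (fld J h' i x)) * σ (update x i s) ≤
      |rp (fld J h i x) s - rp (fld J h' i x) s| := by
    intro s
    rw [← sub_mul]
    refine (le_abs_self _).trans ?_
    rw [abs_mul]
    exact mul_le_of_le_one_right (abs_nonneg _) (hσ1 _)
  exact add_le_add (e2 true) (e2 false)

end ising

end ClipAux

open ClipAux

section ising
variable {ι : Type} [Fintype ι] [DecidableEq ι]

/-- stability of the semigroup under a perturbation of the external field: the resampling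
probabilities at `i` do not change if `h i = h' i` and differ by at most `2 e^{-2R}` if
`h i, h' i` have the same sign and both local fields are always at least `R` in absolute value -/
theorem Pt_perturb (J : ι → ι → ℝ) (h h' : ι → ℝ) (R : ℝ) (hR : 0 ≤ R)
    (H : ∀ i, h i = h' i ∨ (∀ x, R ≤ fld J h i x ∧ R ≤ fld J h' i x) ∨
      (∀ x, fld J h i x ≤ -R ∧ fld J h' i x ≤ -R)) (t : ℝ) (ht : 0 ≤ t) (x : ι → Bool) :
    ∑ y, |Pt J h t x y - Pt J h' t x y| ≤ t * (Fintype.card ι) * (2 * Real.exp (-2 * R)) := by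
  rw [mul_assoc]
  refine duhamel (Lm J h) (Lm J h') t _ ht (fun s hs x y => Pt_nonneg J h s hs x y)
    (fun s x => Pt_row J h s x) (fun s hs x y => Pt_nonneg J h' s hs x y)
    (fun s x => Pt_row J h' s x) ?_ x
  intro x
  have e : ∀ y, Lm J h x y - Lm J h' x y = ∑ i, (Qm J h i x y - Qm J h' i x y) := by
    intro y
    unfold Lm
    rw [Matrix.sum_apply, Matrix.sum_apply, ← Finset.sum_sub_distrib]
    refine Finset.sum_congr rfl (fun i _ => ?_)
    rw [Matrix.sub_apply, Matrix.sub_apply]
    ring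
  calc ∑ y, |Lm J h x y - Lm J h' x y| = ∑ y, |∑ i, (Qm J h i x y - Qm J h' i x y)| := by
        simp only [e]
    _ ≤ ∑ y, ∑ i, |Qm J h i x y - Qm J h' i x y| :=
        Finset.sum_le_sum (fun y _ => Finset.abs_sum_le_sum_abs _ _)
    _ = ∑ i, ∑ y, |Qm J h i x y - Qm J h' i x y| := Finset.sum_comm
    _ ≤ ∑ _i : ι, 2 * Real.exp (-2 * R) := by
        refine Finset.sum_le_sum (fun i _ => (Qm_diff J h h' i x).trans (rp_diff _ _ _ ?_))
        rcases H i with Hi | Hi | Hi
        · left
          unfold fld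
          rw [Hi]
        · exact Or.inr (Or.inl (Hi x))
        · exact Or.inr (Or.inr (Hi x))
    _ = (Fintype.card ι) * (2 * Real.exp (-2 * R)) := by
        rw [Finset.sum_const, Finset.card_univ, nsmul_eq_mul]

namespace ClipAux

lemma abs_ham_le (J : ι → ι → ℝ) (hJ : ∀ i j, |J i j| ≤ 1) (h : ι → ℝ) (B : ℝ)
    (hB : ∀ i, |h i| ≤ B) (x : ι → Bool) :
    |ham J h x| ≤ (Fintype.card ι : ℝ) ^ 2 / 2 + (Fintype.card ι : ℝ) * B := by
  unfold ham
  have h1 : |∑ i, ∑ j, J i j * sp (x i) * sp (x j)| ≤ (Fintype.card ι : ℝ) ^ 2 := by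
    refine (Finset.abs_sum_le_sum_abs _ _).trans ?_
    calc ∑ i, |∑ j, J i j * sp (x i) * sp (x j)| ≤ ∑ _i : ι, (Fintype.card ι : ℝ) := by
          refine Finset.sum_le_sum (fun i _ => (Finset.abs_sum_le_sum_abs _ _).trans ?_)
          calc ∑ j, |J i j * sp (x i) * sp (x j)| ≤ ∑ _j : ι, (1 : ℝ) := by
                refine Finset.sum_le_sum (fun j _ => ?_)
                rw [abs_mul, abs_mul, abs_sp, abs_sp, mul_one, mul_one]
                exact hJ i j
            _ = (Fintype.card ι : ℝ) := by simp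
      _ = (Fintype.card ι : ℝ) ^ 2 := by
          rw [Finset.sum_const, Finset.card_univ, nsmul_eq_mul, sq]
  have h2 : |∑ i, h i * sp (x i)| ≤ (Fintype.card ι : ℝ) * B := by
    refine (Finset.abs_sum_le_sum_abs _ _).trans ?_
    calc ∑ i, |h i * sp (x i)| ≤ ∑ _i : ι, B := by
          refine Finset.sum_le_sum (fun i _ => ?_)
          rw [abs_mul, abs_sp, mul_one]
          exact hB i
      _ = (Fintype.card ι : ℝ) * B := by
          rw [Finset.sum_const, Finset.card_univ, nsmul_eq_mul]
  refine (abs_add_le _ _).trans ?_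
  rw [abs_div, abs_two]
  gcongr

lemma log_ratio_le (J : ι → ι → ℝ) (h : ι → ℝ) (H : ℝ) (hH : ∀ x, |ham J h x| ≤ H)
    (x : ι → Bool) : Real.log (Zf J h / wt J h x) ≤ (Fintype.card ι : ℝ) + 2 * H := by
  have hw := wt_pos J h x
  have hZ := Zf_pos J h
  have h1 : Zf J h ≤ Real.exp (Fintype.card ι) * Real.exp H := by
    unfold Zf
    calc ∑ x, wt J h x ≤ ∑ _x : ι → Bool, Real.exp H := by
          refine Finset.sum_le_sum (fun y _ => ?_)
          unfold wt
          exact Real.exp_le_exp.2 ((le_abs_self _).trans (hH y))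
      _ = (2 : ℝ) ^ (Fintype.card ι) * Real.exp H := by
          rw [Finset.sum_const, Finset.card_univ, nsmul_eq_mul, Fintype.card_fun,
            Fintype.card_bool]
          push_cast
          ring
      _ ≤ Real.exp (Fintype.card ι) * Real.exp H := by
          refine mul_le_mul_of_nonneg_right ?_ (Real.exp_pos _).le
          have h2 : (2 : ℝ) ≤ Real.exp 1 := by
            have := Real.add_one_le_exp (1 : ℝ)
            linarith
          calc (2 : ℝ) ^ (Fintype.card ι) ≤ (Real.exp 1) ^ (Fintype.card ι) :=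
                pow_le_pow_left₀ (by norm_num) h2 _
            _ = Real.exp (Fintype.card ι) := by
                rw [← Real.exp_nat_mul, mul_one]
  have h2 : Real.exp (-H) ≤ wt J h x := by
    unfold wt
    refine Real.exp_le_exp.2 ?_
    linarith [(abs_le.1 (hH x)).1]
  rw [Real.log_div hZ.ne' hw.ne']
  have h3 : Real.log (Zf J h) ≤ Fintype.card ι + H := by
    have := Real.log_le_log hZ h1
    rwa [← Real.exp_add, Real.log_exp] at this
  have h4 : -H ≤ Real.log (wt J h x) := by
    have := Real.log_le_log (Real.exp_pos _) h2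
    rwa [Real.log_exp] at this
  linarith

lemma eta_one (z : ℝ) (hz : 2 ≤ z) :
    100 * (z * Real.log z) * (2 * Real.exp (-2 * (10 * z))) ≤ 1 / 8 := by
  have hz0 : 0 < z := by linarith
  have h1 : Real.log z ≤ z := (Real.log_le_sub_one_of_pos hz0).trans (by linarith)
  have h2 := Real.pow_div_factorial_le_exp (20 * z) (by positivity) 4
  have h3 : Real.exp (-2 * (10 * z)) = (Real.exp (20 * z))⁻¹ := by
    rw [← Real.exp_neg]
    congr 1
    ring
  have h4 : ((Nat.factorial 4 : ℕ) : ℝ) = 24 := by norm_num [Nat.factorial]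
  rw [h4] at h2
  have hE := Real.exp_pos (20 * z)
  have h5 : z * Real.log z ≤ z * z := mul_le_mul_of_nonneg_left h1 hz0.le
  rw [h3]
  calc 100 * (z * Real.log z) * (2 * (Real.exp (20 * z))⁻¹)
      ≤ 100 * (z * z) * (2 * (Real.exp (20 * z))⁻¹) := by
        refine mul_le_mul_of_nonneg_right ?_ (by positivity)
        linarith
    _ = 200 * z ^ 2 / Real.exp (20 * z) := by
        field_simp
        norm_num
    _ ≤ 1 / 8 := by
        rw [div_le_div_iff₀ hE (by norm_num)]
        have h6 : (4 : ℝ) ≤ z ^ 2 := by nlinarith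
        have h7 : (20 * z) ^ 4 / 24 = (160000 / 24) * (z ^ 2 * z ^ 2) := by ring
        rw [h7] at h2
        nlinarith

lemma eta_two (z L : ℝ) (hz : 2 ≤ z) (hL : L ≤ 24 * z ^ 2) :
    Real.sqrt (Real.exp (-(100 * Real.log z)) * L) ≤ 1 / 64 := by
  have hz0 : 0 < z := by linarith
  rw [Real.sqrt_le_iff]
  refine ⟨by norm_num, ?_⟩
  have h1 : Real.exp (-(100 * Real.log z)) = (z ^ 100)⁻¹ := by
    rw [Real.exp_neg]
    congr 1
    have := Real.exp_nat_mul (Real.log z) 100
    push_cast at this
    rw [this, Real.exp_log hz0]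
  rw [h1]
  have h2 : (2 : ℝ) ^ 98 ≤ z ^ 98 := pow_le_pow_left₀ (by norm_num) hz 98
  have h3 : (24 * 4096 : ℝ) ≤ z ^ 98 := le_trans (by norm_num) h2
  have h4 : z ^ 100 = z ^ 98 * z ^ 2 := by ring
  calc (z ^ 100)⁻¹ * L ≤ (z ^ 100)⁻¹ * (24 * z ^ 2) :=
        mul_le_mul_of_nonneg_left hL (by positivity)
    _ = 24 / z ^ 98 := by
        rw [h4]
        field_simp
    _ ≤ (1 / 64) ^ 2 := by
        rw [div_le_iff₀ (by positivity)]
        linarith

end ClipAux

/-- mixing uniformly over the external field, from an approximate tensorization of entropy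
valid for every external field -/
theorem mix_uniform (J : ι → ι → ℝ) (hs : ∀ i j, J i j = J j i) (hd : ∀ i, J i i = 0)
    (hJ : ∀ i j, |J i j| ≤ 1) (hn : 2 ≤ Fintype.card ι) (CA : ℝ) (hCA : 1 ≤ CA)
    (hate : ∀ h : ι → ℝ, ∀ f : (ι → Bool) → ℝ, (∀ x, 0 < f x) →
      entW Finset.univ (wt J h) f ≤ CA * entSum (wt J h) f)
    (h : ι → ℝ) (t : ℝ) (ht : t = 100 * CA * Real.log (CA * Fintype.card ι)) (x : ι → Bool) :
    (∑ y, |Pt J h t x y - wt J h y / Zf J h|) / 2 ≤ 1 / 4 := by
  set n : ℝ := (Fintype.card ι : ℝ) with hndef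
  have hn2 : 2 ≤ n := by
    rw [hndef]
    exact_mod_cast hn
  set z : ℝ := CA * n with hz
  have hz2 : 2 ≤ z := by
    rw [hz]
    nlinarith
  have hCA0 : 0 < CA := by linarith
  have hz0 : 0 < z := by linarith
  have hlog0 : 0 ≤ Real.log z := Real.log_nonneg (by linarith)
  have ht0 : 0 ≤ t := by
    rw [ht]
    positivity
  set B : ℝ := n + 10 * z with hB
  have hB0 : 0 ≤ B := by
    rw [hB]
    linarith
  set h' : ι → ℝ := fun i => max (-B) (min (h i) B) with hh'
  have hh'B : ∀ i, |h' i| ≤ B := by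
    intro i
    rw [abs_le]
    refine ⟨le_max_left _ _, ?_⟩
    exact max_le (by linarith) (min_le_right _ _)
  have hlin : ∀ (i : ι) (x : ι → Bool), |∑ j, J i j * sp (x j)| ≤ n := by
    intro i x
    refine (Finset.abs_sum_le_sum_abs _ _).trans ?_
    calc ∑ j, |J i j * sp (x j)| ≤ ∑ _j : ι, (1 : ℝ) := by
          refine Finset.sum_le_sum (fun j _ => ?_)
          rw [abs_mul, abs_sp, mul_one]
          exact hJ i j
      _ = n := by simp [hndef]
  -- perturbation
  have hpert : ∀ x, ∑ y, |Pt J h t x y - Pt J h' t x y| ≤ 1 / 8 := by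
    intro x
    refine (Pt_perturb J h h' (10 * z) (by positivity) ?_ t ht0 x).trans ?_
    · intro i
      by_cases h1 : h i ≤ B
      · by_cases h2 : -B ≤ h i
        · left
          simp only [hh']
          rw [min_eq_left h1, max_eq_right h2]
        · push Not at h2
          right
          right
          intro x
          have e : h' i = -B := by
            simp only [hh']
            rw [min_eq_left h1, max_eq_left h2.le]
          have h3 := (abs_le.1 (hlin i x)).2
          unfold fld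
          rw [e]
          constructor <;> linarith
      · push Not at h1
        right
        left
        intro x
        have e : h' i = B := by
          simp only [hh']
          rw [min_eq_right h1.le, max_eq_right (by linarith)]
        have h3 := (abs_le.1 (hlin i x)).1
        unfold fld
        rw [e]
        constructor <;> linarith
    · have e : t * (Fintype.card ι : ℝ) = 100 * (z * Real.log z) := by
        rw [ht, ← hndef, hz]
        ring
      rw [e]
      exact eta_one z hz2
  -- mixing for the clipped field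
  have hmix : ∀ x, ∑ y, |Pt J h' t x y - wt J h' y / Zf J h'| ≤ 1 / 16 := by
    intro x
    have h1 := tv_decay J hs hd h' CA hCA0 (hate h') x t ht0
    have e : -t / CA = -(100 * Real.log z) := by
      rw [ht]
      field_simp
    rw [e] at h1
    have h2 : Real.log (Zf J h' / wt J h' x) ≤ 24 * z ^ 2 := by
      refine (log_ratio_le J h' _ (fun y => abs_ham_le J hJ h' B hh'B y) x).trans ?_
      rw [← hndef, hB]
      have hzn : n ≤ z := by
        rw [hz]
        nlinarith
      have h3 : n * z ≤ z ^ 2 := by nlinarith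
      have h4 : n ^ 2 ≤ z ^ 2 := by nlinarith
      have h5 : n ≤ z ^ 2 / 2 := by nlinarith
      nlinarith
    have h3 := eta_two z _ hz2 h2
    linarith
  have hboth : ∀ x, ∑ y, |Pt J h t x y - wt J h' y / Zf J h'| ≤ 3 / 16 := by
    intro x
    have h1 := hpert x
    have h2 := hmix x
    calc ∑ y, |Pt J h t x y - wt J h' y / Zf J h'|
        ≤ ∑ y, (|Pt J h t x y - Pt J h' t x y| + |Pt J h' t x y - wt J h' y / Zf J h'|) :=
          Finset.sum_le_sum (fun y _ => abs_sub_le _ _ _)
      _ ≤ 3 / 16 := by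
          rw [Finset.sum_add_distrib]
          linarith
  have hZ := Zf_pos J h
  have hgibbs : ∑ y, |wt J h y / Zf J h - wt J h' y / Zf J h'| ≤ 3 / 16 := by
    have hstat : ∀ y, wt J h y / Zf J h = ∑ x, (wt J h x / Zf J h) * Pt J h t x y := by
      intro y
      rw [← stationary J hs hd h t y, Finset.sum_div]
      exact Finset.sum_congr rfl (fun x _ => by ring)
    have hone : ∑ x, wt J h x / Zf J h = 1 := by
      rw [← Finset.sum_div]
      exact div_self hZ.ne'
    calc ∑ y, |wt J h y / Zf J h - wt J h' y / Zf J h'|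
        = ∑ y, |∑ x, (wt J h x / Zf J h) * (Pt J h t x y - wt J h' y / Zf J h')| := by
          refine Finset.sum_congr rfl (fun y _ => ?_)
          congr 1
          simp only [mul_sub]
          rw [Finset.sum_sub_distrib, ← hstat y, ← Finset.sum_mul, hone, one_mul]
      _ ≤ ∑ y, ∑ x, (wt J h x / Zf J h) * |Pt J h t x y - wt J h' y / Zf J h'| := by
          refine Finset.sum_le_sum (fun y _ => (Finset.abs_sum_le_sum_abs _ _).trans ?_)
          refine Finset.sum_le_sum (fun x _ => ?_)
          rw [abs_mul, abs_of_nonneg (div_nonneg (wt_pos J h x).le hZ.le)]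
      _ = ∑ x, (wt J h x / Zf J h) * ∑ y, |Pt J h t x y - wt J h' y / Zf J h'| := by
          rw [Finset.sum_comm]
          exact Finset.sum_congr rfl (fun x _ => by rw [Finset.mul_sum])
      _ ≤ ∑ x, (wt J h x / Zf J h) * (3 / 16) := by
          refine Finset.sum_le_sum (fun x _ => ?_)
          exact mul_le_mul_of_nonneg_left (hboth x) (div_nonneg (wt_pos J h x).le hZ.le)
      _ = 3 / 16 := by rw [← Finset.sum_mul, hone, one_mul]
  have hfin : ∑ y, |Pt J h t x y - wt J h y / Zf J h| ≤ 3 / 8 := by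
    calc ∑ y, |Pt J h t x y - wt J h y / Zf J h|
        ≤ ∑ y, (|Pt J h t x y - wt J h' y / Zf J h'| +
            |wt J h y / Zf J h - wt J h' y / Zf J h'|) := by
          refine Finset.sum_le_sum (fun y _ => ?_)
          rw [abs_sub_comm (wt J h y / Zf J h)]
          exact abs_sub_le _ _ _
      _ ≤ 3 / 8 := by
          rw [Finset.sum_add_distrib]
          linarith [hboth x]
  linarith

end ising

end

end P150
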