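import Vale.Agent.P150.Semi

/-!
# Lower bound for the autocorrelation of the spins
-/

open Function

namespace P150

noncomputable section

set_option linter.unusedSectionVars false

section ising
variable {ι : Type} [Fintype ι] [DecidableEq ι]

namespace CorrAux

/-- weighted inner product -/
def ip (J : ι → ι → ℝ) (h : ι → ℝ) (f g : (ι → Bool) → ℝ) : ℝ := ∑ x, wt J h x * (f x * g x)

lemma Pt_add (J : ι → ι → ℝ) (h : ι → ℝ) (s t : ℝ) : Pt J h (s + t) = Pt J h s * Pt J h t := by
  unfold Pt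
  rw [add_smul]
  exact Matrix.exp_add_of_commute _ _ (((Commute.refl (Lm J h)).smul_left s).smul_right t)

lemma ip_comm (J : ι → ι → ℝ) (h : ι → ℝ) (f g : (ι → Bool) → ℝ) :
    ip J h f g = ip J h g f := by
  unfold ip; apply Finset.sum_congr rfl; intro x _; ring

lemma ip_self_nonneg (J : ι → ι → ℝ) (h : ι → ℝ) (f : (ι → Bool) → ℝ) : 0 ≤ ip J h f f :=
  Finset.sum_nonneg fun x _ => mul_nonneg (wt_pos J h x).le (mul_self_nonneg _)

lemma ip_self_eq_zero (J : ι → ι → ℝ) (h : ι → ℝ) (f : (ι → Bool) → ℝ) (hf : ip J h f f = 0) :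
    f = 0 := by
  funext x
  unfold ip at hf
  rw [Finset.sum_eq_zero_iff_of_nonneg
    (fun x _ => mul_nonneg (wt_pos J h x).le (mul_self_nonneg _))] at hf
  have h1 := hf x (Finset.mem_univ x)
  rcases mul_eq_zero.1 h1 with h2 | h2
  · exact absurd h2 (wt_pos J h x).ne'
  · exact mul_self_eq_zero.1 h2

lemma ip_Pt (J : ι → ι → ℝ) (hs : ∀ i j, J i j = J j i) (hd : ∀ i, J i i = 0) (h : ι → ℝ)
    (t : ℝ) (f g : (ι → Bool) → ℝ) :
    ip J h f ((Pt J h t).mulVec g) = ip J h ((Pt J h t).mulVec f) g := by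
  unfold ip Matrix.mulVec dotProduct
  have e1 : ∀ x, wt J h x * (f x * ∑ y, Pt J h t x y * g y) =
      ∑ y, (wt J h x * Pt J h t x y) * (f x * g y) := by
    intro x; rw [Finset.mul_sum, Finset.mul_sum]; apply Finset.sum_congr rfl; intro y _; ring
  have e2 : ∀ y, wt J h y * ((∑ x, Pt J h t y x * f x) * g y) =
      ∑ x, (wt J h y * Pt J h t y x) * (f x * g y) := by
    intro y; rw [Finset.sum_mul, Finset.mul_sum]; apply Finset.sum_congr rfl; intro x _; ring
  rw [Finset.sum_congr rfl (fun x _ => e1 x), Finset.sum_congr rfl (fun y _ => e2 y),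
    Finset.sum_comm]
  apply Finset.sum_congr rfl; intro y _
  apply Finset.sum_congr rfl; intro x _
  rw [Pt_symm J hs hd h t x y]

lemma ip_gen (J : ι → ι → ℝ) (hs : ∀ i j, J i j = J j i) (hd : ∀ i, J i i = 0) (h : ι → ℝ)
    (f g : (ι → Bool) → ℝ) : ip J h f (gen J h g) = ip J h (gen J h f) g := by
  rw [ip_comm J h (gen J h f) g]
  unfold ip
  rw [ev_mul_gen_aux J hs hd, ev_mul_gen_aux J hs hd]
  congr 1
  apply Finset.sum_congr rfl; intro x _
  congr 1
  apply Finset.sum_congr rfl; intro i _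
  ring

lemma gen_Pt (J : ι → ι → ℝ) (hd : ∀ i, J i i = 0) (h : ι → ℝ) (t : ℝ)
    (f : (ι → Bool) → ℝ) :
    gen J h ((Pt J h t).mulVec f) = (Pt J h t).mulVec (gen J h f) := by
  have e : ∀ g : (ι → Bool) → ℝ, gen J h g = (Lm J h).mulVec g := by
    intro g; funext x; rw [Lm_mulVec J hd]
  rw [e, e, Matrix.mulVec_mulVec, Matrix.mulVec_mulVec, (Pt_commute J h t).eq]

/-- the three bilinear quantities at time `t` in terms of `g = P_{t/2} f` -/
lemma half (J : ι → ι → ℝ) (hs : ∀ i j, J i j = J j i) (hd : ∀ i, J i i = 0) (h : ι → ℝ)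
    (t : ℝ) (f : (ι → Bool) → ℝ) :
    ip J h f ((Pt J h t).mulVec f) =
      ip J h ((Pt J h (t / 2)).mulVec f) ((Pt J h (t / 2)).mulVec f) ∧
    ip J h (gen J h f) ((Pt J h t).mulVec f) =
      ip J h ((Pt J h (t / 2)).mulVec f) (gen J h ((Pt J h (t / 2)).mulVec f)) ∧
    ip J h (gen J h f) ((Pt J h t).mulVec (gen J h f)) =
      ip J h (gen J h ((Pt J h (t / 2)).mulVec f)) (gen J h ((Pt J h (t / 2)).mulVec f)) := by
  have e : Pt J h t = Pt J h (t / 2) * Pt J h (t / 2) := by
    rw [← Pt_add]; congr 1; ring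
  have e2 : ∀ g : (ι → Bool) → ℝ, (Pt J h t).mulVec g =
      (Pt J h (t / 2)).mulVec ((Pt J h (t / 2)).mulVec g) := by
    intro g; rw [Matrix.mulVec_mulVec, ← e]
  refine ⟨?_, ?_, ?_⟩
  · rw [e2, ip_Pt J hs hd]
  · rw [e2, ip_Pt J hs hd, ← gen_Pt J hd, ip_comm]
  · rw [e2, ip_Pt J hs hd, ← gen_Pt J hd]

lemma deriv_ip (J : ι → ι → ℝ) (hd : ∀ i, J i i = 0) (h : ι → ℝ)
    (f g : (ι → Bool) → ℝ) (t : ℝ) :
    HasDerivAt (fun r => ip J h g ((Pt J h r).mulVec f))
      (ip J h g (gen J h ((Pt J h t).mulVec f))) t := by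
  unfold ip
  apply HasDerivAt.fun_sum
  intro x _
  exact ((Pt_deriv J hd h f t x).const_mul (g x)).const_mul (wt J h x)

end CorrAux

open CorrAux

/-- the autocorrelation of the spins decays at most at rate one -/
theorem corr_lower (J : ι → ι → ℝ) (hs : ∀ i j, J i j = J j i) (hd : ∀ i, J i i = 0)
    (h : ι → ℝ) (t : ℝ) (ht : 0 ≤ t) :
    Fintype.card ι * Real.exp (-t) ≤
      ev J h (fun x => ∑ i, sp (x i) * (Pt J h t).mulVec (fun y => sp (y i)) x) := by
  let φ : ι → (ι → Bool) → ℝ := fun i x => sp (x i)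
  let R : ℝ → ℝ := fun t => ∑ i, ip J h (φ i) ((Pt J h t).mulVec (φ i))
  let R1 : ℝ → ℝ := fun t => ∑ i, ip J h (gen J h (φ i)) ((Pt J h t).mulVec (φ i))
  let R2 : ℝ → ℝ := fun t => ∑ i, ip J h (gen J h (φ i)) ((Pt J h t).mulVec (gen J h (φ i)))
  have hR1 : ∀ t, HasDerivAt R (R1 t) t := by
    intro t
    apply HasDerivAt.fun_sum
    intro i _
    have := deriv_ip J hd h (φ i) (φ i) t
    rw [ip_gen J hs hd] at this
    exact this
  have hR2 : ∀ t, HasDerivAt R1 (R2 t) t := by
    intro t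
    apply HasDerivAt.fun_sum
    intro i _
    have := deriv_ip J hd h (φ i) (gen J h (φ i)) t
    rw [gen_Pt J hd] at this
    exact this
  -- Cauchy-Schwarz
  have hCS : ∀ t, R1 t ^ 2 ≤ R t * R2 t := by
    intro t
    have e0 : R t = ∑ i, ∑ x, (Real.sqrt (wt J h x) * (Pt J h (t / 2)).mulVec (φ i) x) ^ 2 := by
      apply Finset.sum_congr rfl; intro i _
      rw [(half J hs hd h t (φ i)).1]
      unfold ip
      apply Finset.sum_congr rfl; intro x _
      rw [mul_pow, Real.sq_sqrt (wt_pos J h x).le]; ring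
    have e1 : R1 t = ∑ i, ∑ x, (Real.sqrt (wt J h x) * (Pt J h (t / 2)).mulVec (φ i) x) *
        (Real.sqrt (wt J h x) * gen J h ((Pt J h (t / 2)).mulVec (φ i)) x) := by
      apply Finset.sum_congr rfl; intro i _
      rw [(half J hs hd h t (φ i)).2.1]
      unfold ip
      apply Finset.sum_congr rfl; intro x _
      have := Real.mul_self_sqrt (wt_pos J h x).le
      linear_combination (-((Pt J h (t / 2)).mulVec (φ i) x *
        gen J h ((Pt J h (t / 2)).mulVec (φ i)) x)) * this
    have e2 : R2 t = ∑ i, ∑ x, (Real.sqrt (wt J h x) *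
        gen J h ((Pt J h (t / 2)).mulVec (φ i)) x) ^ 2 := by
      apply Finset.sum_congr rfl; intro i _
      rw [(half J hs hd h t (φ i)).2.2]
      unfold ip
      apply Finset.sum_congr rfl; intro x _
      rw [mul_pow, Real.sq_sqrt (wt_pos J h x).le]; ring
    rw [e0, e1, e2]
    simp only [← Finset.sum_product', Finset.univ_product_univ]
    exact Finset.sum_mul_sq_le_sq_mul_sq _ _ _
  rcases Nat.eq_zero_or_pos (Fintype.card ι) with hc | hc
  · have : IsEmpty ι := Fintype.card_eq_zero_iff.1 hc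
    rw [hc]
    unfold ev
    simp
  have hne : Nonempty ι := Fintype.card_pos_iff.1 hc
  have hRpos : ∀ t, 0 < R t := by
    intro t
    obtain ⟨i0⟩ := hne
    have hnn : ∀ i ∈ (Finset.univ : Finset ι), 0 ≤ ip J h (φ i) ((Pt J h t).mulVec (φ i)) := by
      intro i _
      rw [(half J hs hd h t (φ i)).1]
      exact ip_self_nonneg J h _
    refine lt_of_le_of_ne (Finset.sum_nonneg hnn) ?_
    intro h0
    have h1 := (Finset.sum_eq_zero_iff_of_nonneg hnn).1 h0.symm i0 (Finset.mem_univ _)
    rw [(half J hs hd h t (φ i0)).1] at h1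
    have h2 := ip_self_eq_zero J h _ h1
    have h3 : (Pt J h (-(t / 2))).mulVec ((Pt J h (t / 2)).mulVec (φ i0)) = φ i0 := by
      rw [Matrix.mulVec_mulVec, ← Pt_add, neg_add_cancel, Pt_zero, Matrix.one_mulVec]
    rw [h2, Matrix.mulVec_zero] at h3
    have h4 := congrFun h3 (fun _ => true)
    simp [φ, sp] at h4
  -- the logarithmic derivative is nondecreasing
  have hmono : MonotoneOn (fun t => R1 t / R t) (Set.Ici 0) := by
    have hder : ∀ t, HasDerivAt (fun t => R1 t / R t)
        ((R2 t * R t - R1 t * R1 t) / R t ^ 2) t := fun t => (hR2 t).div (hR1 t) (hRpos t).ne'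
    apply monotoneOn_of_deriv_nonneg (convex_Ici 0)
    · exact fun t _ => (hder t).continuousAt.continuousWithinAt
    · exact fun t _ => (hder t).differentiableAt.differentiableWithinAt
    · intro t _
      rw [(hder t).deriv]
      apply div_nonneg _ (sq_nonneg _)
      have := hCS t
      nlinarith
  have hZ := Zf_pos J h
  have hR0 : R 0 = Fintype.card ι * Zf J h := by
    have : ∀ i, ip J h (φ i) ((Pt J h 0).mulVec (φ i)) = Zf J h := by
      intro i
      rw [Pt_zero, Matrix.one_mulVec]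
      unfold ip Zf
      apply Finset.sum_congr rfl; intro x _
      simp only [φ]
      rw [sp_mul_self, mul_one]
    simp only [R, this, Finset.sum_const, Finset.card_univ, nsmul_eq_mul]
  have hR10 : -(Fintype.card ι * Zf J h) ≤ R1 0 := by
    have : ∀ i, -(Zf J h) ≤ ip J h (gen J h (φ i)) ((Pt J h 0).mulVec (φ i)) := by
      intro i
      rw [Pt_zero, Matrix.one_mulVec, ip_comm]
      unfold ip
      rw [ev_mul_gen_aux J hs hd]
      apply neg_le_neg
      unfold Zf
      apply Finset.sum_le_sum; intro x _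
      have hb : ∑ k, Vg J h k x * dB k (φ i) x * dB k (φ i) x = Vg J h i x := by
        have hdb : ∀ k, dB k (φ i) x = if k = i then 1 else 0 := by
          intro k
          unfold dB
          by_cases hk : k = i
          · subst hk; simp [φ, sp]
          · simp only [φ, if_neg hk, Function.update_of_ne (Ne.symm hk)]
            ring
        rw [Finset.sum_eq_single i]
        · rw [hdb, if_pos rfl]; ring
        · intro k _ hk; rw [hdb, if_neg hk]; ring
        · intro hh; exact absurd (Finset.mem_univ i) hh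
      rw [hb]
      calc wt J h x * Vg J h i x ≤ wt J h x * 1 :=
            mul_le_mul_of_nonneg_left (Vg_le_one J h i x) (wt_pos J h x).le
        _ = wt J h x := mul_one _
    have h2 := Finset.sum_le_sum (fun i (_ : i ∈ (Finset.univ : Finset ι)) => this i)
    simp only [Finset.sum_const, Finset.card_univ, nsmul_eq_mul, mul_neg] at h2
    exact h2
  have hratio0 : -1 ≤ R1 0 / R 0 := by
    rw [le_div_iff₀ (hRpos 0), hR0]
    linarith
  have hR1ge : ∀ t, 0 ≤ t → - R t ≤ R1 t := by
    intro t ht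
    have h1 := hmono (Set.mem_Ici.2 le_rfl) (Set.mem_Ici.2 ht) ht
    simp only [] at h1
    have h2 : -1 ≤ R1 t / R t := hratio0.trans h1
    rw [le_div_iff₀ (hRpos t)] at h2
    linarith
  have hmono2 : MonotoneOn (fun t => Real.exp t * R t) (Set.Ici 0) := by
    have hder : ∀ t, HasDerivAt (fun t => Real.exp t * R t)
        (Real.exp t * R t + Real.exp t * R1 t) t :=
      fun t => (Real.hasDerivAt_exp t).mul (hR1 t)
    apply monotoneOn_of_deriv_nonneg (convex_Ici 0)
    · exact fun t _ => (hder t).continuousAt.continuousWithinAt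
    · exact fun t _ => (hder t).differentiableAt.differentiableWithinAt
    · intro t ht
      rw [interior_Ici] at ht
      rw [(hder t).deriv, ← mul_add]
      apply mul_nonneg (Real.exp_pos t).le
      have := hR1ge t (le_of_lt ht)
      linarith
  have hfin := hmono2 (Set.mem_Ici.2 le_rfl) (Set.mem_Ici.2 ht) ht
  simp only [Real.exp_zero, one_mul] at hfin
  rw [hR0] at hfin
  have hev : ev J h (fun x => ∑ i, sp (x i) * (Pt J h t).mulVec (fun y => sp (y i)) x) =
      R t / Zf J h := by
    unfold ev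
    congr 1
    simp only [R, ip]
    rw [Finset.sum_comm]
    apply Finset.sum_congr rfl; intro x _
    rw [Finset.mul_sum]
  rw [hev, le_div_iff₀ hZ, Real.exp_neg]
  have he := Real.exp_pos t
  calc (Fintype.card ι : ℝ) * (Real.exp t)⁻¹ * Zf J h
      = (Real.exp t)⁻¹ * (Fintype.card ι * Zf J h) := by ring
    _ ≤ (Real.exp t)⁻¹ * (Real.exp t * R t) :=
        mul_le_mul_of_nonneg_left hfin (inv_nonneg.2 he.le)
    _ = R t := by rw [← mul_assoc, inv_mul_cancel₀ he.ne', one_mul]

end ising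

end

end P150
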