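import Mathlib

/-!
# General Ising models: definitions (helper file for P150)
-/

open MeasureTheory ProbabilityTheory Filter Topology

namespace P150

noncomputable section

/-- the spin `±1` encoded by a Boolean -/
def sp (b : Bool) : ℝ := if b then 1 else -1

section ising

variable {ι : Type} [Fintype ι] [DecidableEq ι]

/-- Hamiltonian `½ ∑ J_ij x_i x_j + ∑ h_i x_i` -/
def ham (J : ι → ι → ℝ) (h : ι → ℝ) (x : ι → Bool) : ℝ :=
  (∑ i, ∑ j, J i j * sp (x i) * sp (x j)) / 2 + ∑ i, h i * sp (x i)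

/-- Gibbs weight -/
def wt (J : ι → ι → ℝ) (h : ι → ℝ) (x : ι → Bool) : ℝ := Real.exp (ham J h x)

/-- partition function -/
def Zf (J : ι → ι → ℝ) (h : ι → ℝ) : ℝ := ∑ x, wt J h x

/-- Gibbs expectation -/
def ev (J : ι → ι → ℝ) (h : ι → ℝ) (f : (ι → Bool) → ℝ) : ℝ :=
  (∑ x, wt J h x * f x) / Zf J h

/-- Gibbs variance -/
def vr (J : ι → ι → ℝ) (h : ι → ℝ) (f : (ι → Bool) → ℝ) : ℝ :=
  ev J h (fun x => (f x - ev J h f) ^ 2)

/-- local field at `i` (for `J i i = 0` it does not depend on `x i`) -/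
def fld (J : ι → ι → ℝ) (h : ι → ℝ) (i : ι) (x : ι → Bool) : ℝ :=
  ∑ j, J i j * sp (x j) + h i

/-- conditional mean of the spin `i` -/
def mg (J : ι → ι → ℝ) (h : ι → ℝ) (i : ι) (x : ι → Bool) : ℝ := Real.tanh (fld J h i x)

/-- conditional variance of the spin `i` -/
def Vg (J : ι → ι → ℝ) (h : ι → ℝ) (i : ι) (x : ι → Bool) : ℝ := 1 - mg J h i x ^ 2

/-- discrete derivative `(f(x^{i+}) - f(x^{i-}))/2` -/
def dB (i : ι) (f : (ι → Bool) → ℝ) (x : ι → Bool) : ℝ :=
  (f (Function.update x i true) - f (Function.update x i false)) / 2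

/-- generator of the heat-bath dynamics -/
def gen (J : ι → ι → ℝ) (h : ι → ℝ) (f : (ι → Bool) → ℝ) (x : ι → Bool) : ℝ :=
  - ∑ i, (sp (x i) - mg J h i x) * dB i f x

/-- Dirichlet form `E ∑ V_i B_i^2` -/
def dirf (J : ι → ι → ℝ) (h : ι → ℝ) (f : (ι → Bool) → ℝ) : ℝ :=
  ev J h (fun x => ∑ i, Vg J h i x * dB i f x ^ 2)

/-- heat-bath generator as a matrix: `∑_i (Q_i - 1)` -/
def Qm (J : ι → ι → ℝ) (h : ι → ℝ) (i : ι) : Matrix (ι → Bool) (ι → Bool) ℝ :=
  fun x y => if (∀ j, j ≠ i → y j = x j) then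
    Real.exp (sp (y i) * fld J h i x) / (2 * Real.cosh (fld J h i x)) else 0

/-- heat-bath generator as a matrix: `∑_i (Q_i - 1)` -/
def Lm (J : ι → ι → ℝ) (h : ι → ℝ) : Matrix (ι → Bool) (ι → Bool) ℝ :=
  ∑ i, (Qm J h i - 1)

/-- transition kernel `P_t = exp(tL)` -/
def Pt (J : ι → ι → ℝ) (h : ι → ℝ) (t : ℝ) : Matrix (ι → Bool) (ι → Bool) ℝ :=
  NormedSpace.exp (t • Lm J h)

/-- the deterministic properties of the coupling matrix that are used -/
structure Good (J : ι → ι → ℝ) (M δ : ℝ) : Prop where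
  symm : ∀ i j, J i j = J j i
  diag : ∀ i, J i i = 0
  entry : ∀ i j, |J i j| ≤ δ
  row : ∀ i, ∑ j, J i j ^ 2 ≤ M / 2
  quad : ∀ y : ι → ℝ, ∑ i, ∑ j, J i j * y i * y j ≤ M * ∑ i, y i ^ 2
  quad' : ∀ y : ι → ℝ, -(M * ∑ i, y i ^ 2) ≤ ∑ i, ∑ j, J i j * y i * y j

end ising

/-- unnormalised entropy `Σ w f log f − (Σ w f) log (Σ w f / Σ w)` over a finite set -/
def entW {X : Type} (s : Finset X) (w f : X → ℝ) : ℝ :=
  ∑ x ∈ s, w x * f x * Real.log (f x) -
    (∑ x ∈ s, w x * f x) * Real.log ((∑ x ∈ s, w x * f x) / ∑ x ∈ s, w x)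

/-- unnormalised two-point entropy with weights `p, q` and values `a, b` -/
def e2 (p q a b : ℝ) : ℝ :=
  p * a * Real.log a + q * b * Real.log b -
    (p * a + q * b) * Real.log ((p * a + q * b) / (p + q))

section ising
variable {ι : Type} [Fintype ι] [DecidableEq ι]

/-- unnormalised entropy of `f` over the edge `{x^{i+}, x^{i-}}` -/
def entE (w f : (ι → Bool) → ℝ) (i : ι) (x : ι → Bool) : ℝ :=
  e2 (w (Function.update x i true)) (w (Function.update x i false))
    (f (Function.update x i true)) (f (Function.update x i false))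

/-- sum over directions of the unnormalised conditional entropies
(each edge is counted for its two endpoints, whence the `/ 2`) -/
def entSum (w f : (ι → Bool) → ℝ) : ℝ := ∑ i, (∑ x, entE w f i x) / 2

end ising

/-! ## The Sherrington-Kirkpatrick model -/

/-- law of the disorder: i.i.d. standard Gaussians (only the entries `i < j` are used) -/
def disorder (n : ℕ) : Measure (Fin n × Fin n → ℝ) := Measure.pi (fun _ => gaussianReal 0 1)

/-- symmetric coupling `g_ij = g_ji` -/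
def cpl {n : ℕ} (g : Fin n × Fin n → ℝ) (i j : Fin n) : ℝ := if i < j then g (i, j) else g (j, i)

/-- the SK coupling matrix -/
def SKJ {n : ℕ} (β : ℝ) (g : Fin n × Fin n → ℝ) (i j : Fin n) : ℝ :=
  if i = j then 0 else β / Real.sqrt n * cpl g i j

end

end P150
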