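import Vale.Agent.P150.Defs
import Vale.Agent.P150.Flip
import Vale.Agent.P150.GapAbs
import Vale.Agent.P150.Semi

/-! [J] entropy production and decay (helper2) -/

open Function

namespace P150

noncomputable section

set_option linter.unusedSectionVars false

lemma e2_le (p q a b : ℝ) (hp : 0 < p) (hq : 0 < q) (ha : 0 < a) (hb : 0 < b) :
    e2 p q a b ≤ p * q / (p + q) * ((a - b) * (Real.log a - Real.log b)) := by
  have hpq : 0 < p + q := add_pos hp hq
  have hconc := strictConcaveOn_log_Ioi.concaveOn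
  have h1 := hconc.2 (show a ∈ Set.Ioi (0:ℝ) from ha) (show b ∈ Set.Ioi (0:ℝ) from hb)
    (div_nonneg hp.le hpq.le) (div_nonneg hq.le hpq.le) (by field_simp)
  simp only [smul_eq_mul] at h1
  have e1 : p / (p + q) * a + q / (p + q) * b = (p * a + q * b) / (p + q) := by
    field_simp
  rw [e1] at h1
  have h2 : 0 < p * a + q * b := by positivity
  have h3 := mul_le_mul_of_nonneg_left h1 h2.le
  unfold e2
  have e2' : p * q / (p + q) * ((a - b) * (Real.log a - Real.log b)) =
      p * a * Real.log a + q * b * Real.log b -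
      (p * a + q * b) * (p / (p + q) * Real.log a + q / (p + q) * Real.log b) := by
    field_simp
    ring
  rw [e2']
  linarith

section ising
variable {ι : Type} [Fintype ι] [DecidableEq ι]

lemma Vg_eq (J : ι → ι → ℝ) (hs : ∀ i j, J i j = J j i) (hd : ∀ i, J i i = 0)
    (h : ι → ℝ) (i : ι) (x : ι → Bool) :
    (wt J h (update x i true) + wt J h (update x i false)) * Vg J h i x =
      4 * (wt J h (update x i true) * wt J h (update x i false) /
        (wt J h (update x i true) + wt J h (update x i false))) := by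
  rw [wt_update J hs hd, wt_update J hs hd, sp_true, sp_false]
  unfold Vg mg
  have hw := wt_pos J h x
  have e1 : (1:ℝ) * fld J h i x = fld J h i x := one_mul _
  have e2 : (-1:ℝ) * fld J h i x = - fld J h i x := by ring
  rw [e1, e2, Real.tanh_eq_sinh_div_cosh, Real.sinh_eq, Real.cosh_eq]
  set K := wt J h x * Real.exp (-(sp (x i) * fld J h i x))
  have hK : 0 < K := mul_pos hw (Real.exp_pos _)
  set A := Real.exp (fld J h i x)
  set B := Real.exp (-fld J h i x)
  have hA : 0 < A := Real.exp_pos _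
  have hB : 0 < B := Real.exp_pos _
  have h1 : A + B ≠ 0 := by positivity
  have h2 : K * A + K * B ≠ 0 := by positivity
  field_simp
  ring

/-- the entropy production dominates the sum of conditional entropies -/
theorem ent_production (J : ι → ι → ℝ) (hs : ∀ i j, J i j = J j i) (hd : ∀ i, J i i = 0)
    (h : ι → ℝ) (f : (ι → Bool) → ℝ) (hf : ∀ x, 0 < f x) :
    entSum (wt J h) f ≤ - ∑ x, wt J h x * (gen J h f x * Real.log (f x)) := by
  have h1 := ev_mul_gen_aux J hs hd h (fun x => Real.log (f x)) f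
  have h2 : ∑ x, wt J h x * (gen J h f x * Real.log (f x)) =
      ∑ x, wt J h x * (Real.log (f x) * gen J h f x) :=
    Finset.sum_congr rfl fun x _ => by ring
  rw [h2, h1, neg_neg]
  have h3 : ∑ x, wt J h x * (∑ i, Vg J h i x * dB i (fun x => Real.log (f x)) x * dB i f x) =
      ∑ i, ∑ x, wt J h x * (Vg J h i x * dB i (fun x => Real.log (f x)) x * dB i f x) := by
    rw [Finset.sum_comm]
    refine Finset.sum_congr rfl fun x _ => ?_
    rw [Finset.mul_sum]
  rw [h3]
  unfold entSum
  refine Finset.sum_le_sum fun i _ => ?_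
  have h4 := sum_update' i
    (fun x => wt J h x * (Vg J h i x * dB i (fun x => Real.log (f x)) x * dB i f x))
  have h5 : ∀ x, entE (wt J h) f i x ≤
      (fun x => wt J h x * (Vg J h i x * dB i (fun x => Real.log (f x)) x * dB i f x))
        (update x i true) +
      (fun x => wt J h x * (Vg J h i x * dB i (fun x => Real.log (f x)) x * dB i f x))
        (update x i false) := by
    intro x
    unfold entE
    refine (e2_le _ _ _ _ (wt_pos _ _ _) (wt_pos _ _ _) (hf _) (hf _)).trans (le_of_eq ?_)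
    simp only [Vg_update_self J hd, dB_update_self]
    have h6 := Vg_eq J hs hd h i x
    unfold dB
    have h7 : wt J h (update x i true) * wt J h (update x i false) /
        (wt J h (update x i true) + wt J h (update x i false)) =
        (wt J h (update x i true) + wt J h (update x i false)) * Vg J h i x / 4 := by
      rw [h6]; ring
    rw [h7]
    ring
  have h6 : ∑ x, entE (wt J h) f i x ≤ 2 * ∑ x, wt J h x *
      (Vg J h i x * dB i (fun x => Real.log (f x)) x * dB i f x) := by
    rw [← h4]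
    exact Finset.sum_le_sum fun x _ => h5 x
  linarith

lemma Pt_pos (J : ι → ι → ℝ) (hd : ∀ i, J i i = 0) (h : ι → ℝ) (f : (ι → Bool) → ℝ)
    (hf : ∀ x, 0 < f x) (t : ℝ) (ht : 0 ≤ t) (x : ι → Bool) :
    0 < (Pt J h t).mulVec f x := by
  obtain ⟨y0, -, hy0⟩ := Finset.exists_min_image (Finset.univ : Finset (ι → Bool)) f
    Finset.univ_nonempty
  have h1 : f y0 ≤ (Pt J h t).mulVec f x := by
    calc f y0 = ∑ y, Pt J h t x y * f y0 := by
          rw [← Finset.sum_mul, Pt_row_sum J hd, one_mul]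
      _ ≤ ∑ y, Pt J h t x y * f y := Finset.sum_le_sum fun y _ =>
          mul_le_mul_of_nonneg_left (hy0 y (Finset.mem_univ y)) (Pt_nonneg J h t ht x y)
      _ = (Pt J h t).mulVec f x := rfl
  exact (hf y0).trans_le h1

lemma Pt_mean (J : ι → ι → ℝ) (hs : ∀ i j, J i j = J j i) (hd : ∀ i, J i i = 0)
    (h : ι → ℝ) (f : (ι → Bool) → ℝ) (t : ℝ) :
    ∑ x, wt J h x * (Pt J h t).mulVec f x = ∑ x, wt J h x * f x := by
  have h1 : ∀ x, wt J h x * (Pt J h t).mulVec f x =
      ∑ y, wt J h x * Pt J h t x y * f y := by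
    intro x
    have : (Pt J h t).mulVec f x = ∑ y, Pt J h t x y * f y := rfl
    rw [this, Finset.mul_sum]
    exact Finset.sum_congr rfl fun y _ => by ring
  rw [Finset.sum_congr rfl (fun x _ => h1 x), Finset.sum_comm]
  refine Finset.sum_congr rfl fun y _ => ?_
  rw [← Finset.sum_mul, stationary J hs hd]

theorem ent_decay (J : ι → ι → ℝ) (hs : ∀ i j, J i j = J j i) (hd : ∀ i, J i i = 0)
    (h : ι → ℝ) (CA : ℝ) (hCA : 0 < CA)
    (hate : ∀ f : (ι → Bool) → ℝ, (∀ x, 0 < f x) →
      entW Finset.univ (wt J h) f ≤ CA * entSum (wt J h) f)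
    (f : (ι → Bool) → ℝ) (hf : ∀ x, 0 < f x) (t : ℝ) (ht : 0 ≤ t) :
    entW Finset.univ (wt J h) ((Pt J h t).mulVec f) ≤
      Real.exp (-t / CA) * entW Finset.univ (wt J h) f := by
  set S := ∑ x, wt J h x * f x with hS
  set c := S * Real.log (S / ∑ x, wt J h x) with hc
  have hE : ∀ r, entW Finset.univ (wt J h) ((Pt J h r).mulVec f) =
      ∑ x, wt J h x * ((Pt J h r).mulVec f x * Real.log ((Pt J h r).mulVec f x)) - c := by
    intro r
    unfold entW
    rw [Pt_mean J hs hd, ← hS, ← hc]
    congr 1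
    exact Finset.sum_congr rfl fun x _ => by ring
  -- derivative of the entropy
  have hder : ∀ r, 0 ≤ r → HasDerivAt (fun r => entW Finset.univ (wt J h) ((Pt J h r).mulVec f))
      (∑ x, wt J h x * (gen J h ((Pt J h r).mulVec f) x *
        Real.log ((Pt J h r).mulVec f x))) r := by
    intro r hr
    have h1 : ∀ x, HasDerivAt (fun r => wt J h x *
        ((Pt J h r).mulVec f x * Real.log ((Pt J h r).mulVec f x)))
        (wt J h x * (gen J h ((Pt J h r).mulVec f) x * Real.log ((Pt J h r).mulVec f x) +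
          gen J h ((Pt J h r).mulVec f) x)) r := by
      intro x
      have hp := Pt_pos J hd h f hf r hr x
      have h2 := Pt_deriv J hd h f r x
      have h3 := (h2.mul (h2.log hp.ne')).const_mul (wt J h x)
      have e : wt J h x * (gen J h ((Pt J h r).mulVec f) x * Real.log ((Pt J h r).mulVec f x) +
          (Pt J h r).mulVec f x * (gen J h ((Pt J h r).mulVec f) x / (Pt J h r).mulVec f x)) =
          wt J h x * (gen J h ((Pt J h r).mulVec f) x * Real.log ((Pt J h r).mulVec f x) +
          gen J h ((Pt J h r).mulVec f) x) := by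
        rw [mul_div_cancel₀ _ hp.ne']
      rw [e] at h3
      exact h3
    have h4 := (HasDerivAt.fun_sum fun x (_ : x ∈ (Finset.univ : Finset (ι → Bool))) =>
      h1 x).sub_const c
    have e2 : ∑ x, wt J h x * (gen J h ((Pt J h r).mulVec f) x *
        Real.log ((Pt J h r).mulVec f x) + gen J h ((Pt J h r).mulVec f) x) =
        ∑ x, wt J h x * (gen J h ((Pt J h r).mulVec f) x *
        Real.log ((Pt J h r).mulVec f x)) := by
      simp only [mul_add, Finset.sum_add_distrib]
      rw [mean_gen J hs hd, add_zero]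
    rw [e2] at h4
    refine h4.congr_of_eventuallyEq (Filter.Eventually.of_forall fun r => ?_)
    exact hE r
  -- Gronwall
  have hanti : AntitoneOn (fun r => Real.exp (r / CA) *
      entW Finset.univ (wt J h) ((Pt J h r).mulVec f)) (Set.Ici 0) := by
    have hd1 : ∀ r, 0 ≤ r → HasDerivAt (fun r => Real.exp (r / CA) *
        entW Finset.univ (wt J h) ((Pt J h r).mulVec f))
        (Real.exp (r / CA) * (1 / CA) * entW Finset.univ (wt J h) ((Pt J h r).mulVec f) +
          Real.exp (r / CA) * (∑ x, wt J h x * (gen J h ((Pt J h r).mulVec f) x *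
        Real.log ((Pt J h r).mulVec f x)))) r := by
      intro r hr
      exact (((hasDerivAt_id r).div_const CA).exp).mul (hder r hr)
    apply antitoneOn_of_deriv_nonpos (convex_Ici 0)
    · exact fun r hr => (hd1 r hr).continuousAt.continuousWithinAt
    · intro r hr
      rw [interior_Ici] at hr
      exact (hd1 r (le_of_lt hr)).differentiableAt.differentiableWithinAt
    · intro r hr
      rw [interior_Ici] at hr
      have hr0 : 0 ≤ r := le_of_lt hr
      rw [(hd1 r hr0).deriv]
      have h1 := hate _ (Pt_pos J hd h f hf r hr0)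
      have h2 := ent_production J hs hd h _ (Pt_pos J hd h f hf r hr0)
      have h3 : 1 / CA * entW Finset.univ (wt J h) ((Pt J h r).mulVec f) ≤
          entSum (wt J h) ((Pt J h r).mulVec f) := by
        rw [one_div, inv_mul_le_iff₀ hCA]; exact h1
      have h4 := Real.exp_pos (r / CA)
      have h5 : 1 / CA * entW Finset.univ (wt J h) ((Pt J h r).mulVec f) +
        ∑ x, wt J h x * (gen J h ((Pt J h r).mulVec f) x *
        Real.log ((Pt J h r).mulVec f x)) ≤ 0 := by linarith
      have h6 := mul_nonpos_of_nonneg_of_nonpos h4.le h5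
      linarith
  have h1 := hanti (Set.mem_Ici.mpr le_rfl) (Set.mem_Ici.mpr ht) ht
  simp only [zero_div, Real.exp_zero, one_mul, Pt_zero, Matrix.one_mulVec] at h1
  have h2 : Real.exp (-t / CA) * Real.exp (t / CA) = 1 := by
    rw [← Real.exp_add, neg_div, neg_add_cancel, Real.exp_zero]
  calc entW Finset.univ (wt J h) ((Pt J h t).mulVec f) =
      Real.exp (-t / CA) * (Real.exp (t / CA) *
        entW Finset.univ (wt J h) ((Pt J h t).mulVec f)) := by
        rw [← mul_assoc, h2, one_mul]
    _ ≤ Real.exp (-t / CA) * entW Finset.univ (wt J h) f :=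
        mul_le_mul_of_nonneg_left h1 (Real.exp_pos _).le

lemma entW_of_mean_one (J : ι → ι → ℝ) (h : ι → ℝ) (f : (ι → Bool) → ℝ)
    (hf1 : ∑ x, wt J h x * f x = Zf J h) :
    entW Finset.univ (wt J h) f = ∑ x, wt J h x * (f x * Real.log (f x)) := by
  unfold entW
  have : (∑ x, wt J h x) = Zf J h := rfl
  rw [hf1, this, div_self (Zf_pos J h).ne', Real.log_one, mul_zero, sub_zero]
  exact Finset.sum_congr rfl fun x _ => by ring

/-- Hellinger form of Pinsker -/
theorem tv_le_ent (J : ι → ι → ℝ) (h : ι → ℝ) (f : (ι → Bool) → ℝ) (hf : ∀ x, 0 < f x)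
    (hf1 : ∑ x, wt J h x * f x = Zf J h) :
    (∑ x, wt J h x / Zf J h * |f x - 1|) / 2 ≤
      Real.sqrt (entW Finset.univ (wt J h) f / Zf J h) := by
  have hZ := Zf_pos J h
  set μ : (ι → Bool) → ℝ := fun x => wt J h x / Zf J h with hμ
  have hμ0 : ∀ x, 0 ≤ μ x := fun x => div_nonneg (wt_pos J h x).le hZ.le
  have hμ1 : ∑ x, μ x = 1 := by
    simp only [hμ]
    rw [← Finset.sum_div]
    exact div_self hZ.ne'
  have hμf : ∑ x, μ x * f x = 1 := by
    have : ∑ x, μ x * f x = (∑ x, wt J h x * f x) / Zf J h := by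
      rw [Finset.sum_div]
      exact Finset.sum_congr rfl fun x _ => by simp only [hμ]; ring
    rw [this, hf1, div_self hZ.ne']
  set s : (ι → Bool) → ℝ := fun x => Real.sqrt (f x) with hs
  have hs2 : ∀ x, s x ^ 2 = f x := fun x => Real.sq_sqrt (hf x).le
  have hspos : ∀ x, 0 < s x := fun x => Real.sqrt_pos.mpr (hf x)
  -- Hellinger bound
  have hH : ∑ x, μ x * (s x - 1) ^ 2 ≤ entW Finset.univ (wt J h) f / Zf J h := by
    rw [entW_of_mean_one J h f hf1, Finset.sum_div]
    have e1 : ∑ x, μ x * (s x - 1) ^ 2 = ∑ x, μ x * (2 * s x ^ 2 - 2 * s x) := by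
      have e2 : ∀ x, μ x * (s x - 1) ^ 2 = μ x * (2 * s x ^ 2 - 2 * s x) +
          (μ x - μ x * f x) := by
        intro x; rw [← hs2 x]; ring
      rw [Finset.sum_congr rfl (fun x _ => e2 x), Finset.sum_add_distrib,
        Finset.sum_sub_distrib, hμ1, hμf]
      ring
    rw [e1]
    refine Finset.sum_le_sum fun x _ => ?_
    have e3 : wt J h x * (f x * Real.log (f x)) / Zf J h = μ x * (f x * Real.log (f x)) := by
      simp only [hμ]; ring
    rw [e3]
    refine mul_le_mul_of_nonneg_left ?_ (hμ0 x)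
    have h1 : Real.log (f x) = 2 * Real.log (s x) := by
      rw [← hs2 x, Real.log_pow]; norm_num
    have h2 : 1 - (s x)⁻¹ ≤ Real.log (s x) := Real.one_sub_inv_le_log_of_pos (hspos x)
    rw [h1, ← hs2 x]
    have h3 := mul_le_mul_of_nonneg_left h2 (sq_nonneg (s x))
    have h4 : s x ^ 2 * (1 - (s x)⁻¹) = s x ^ 2 - s x := by
      have := (hspos x).ne'
      field_simp
    nlinarith
  -- Cauchy-Schwarz
  have hA : ∑ x, μ x * (s x + 1) ^ 2 ≤ 4 := by
    have e1 : ∀ x, μ x * (s x + 1) ^ 2 = 2 * (μ x * f x) + 2 * μ x - μ x * (s x - 1) ^ 2 := by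
      intro x; rw [← hs2 x]; ring
    rw [Finset.sum_congr rfl (fun x _ => e1 x), Finset.sum_sub_distrib, Finset.sum_add_distrib,
      ← Finset.mul_sum, ← Finset.mul_sum, hμ1, hμf]
    have : 0 ≤ ∑ x, μ x * (s x - 1) ^ 2 := Finset.sum_nonneg fun x _ =>
      mul_nonneg (hμ0 x) (sq_nonneg _)
    linarith
  have hCS : (∑ x, μ x * |f x - 1|) ^ 2 ≤
      (∑ x, μ x * (s x - 1) ^ 2) * (∑ x, μ x * (s x + 1) ^ 2) := by
    have := Finset.sum_mul_sq_le_sq_mul_sq (Finset.univ : Finset (ι → Bool))
      (fun x => Real.sqrt (μ x) * |s x - 1|) (fun x => Real.sqrt (μ x) * |s x + 1|)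
    have e1 : ∀ x, Real.sqrt (μ x) * |s x - 1| * (Real.sqrt (μ x) * |s x + 1|) =
        μ x * |f x - 1| := by
      intro x
      have h1 : Real.sqrt (μ x) * Real.sqrt (μ x) = μ x := Real.mul_self_sqrt (hμ0 x)
      have h2 : |s x - 1| * |s x + 1| = |f x - 1| := by
        rw [← abs_mul, ← hs2 x]; congr 1; ring
      calc _ = (Real.sqrt (μ x) * Real.sqrt (μ x)) * (|s x - 1| * |s x + 1|) := by ring
        _ = _ := by rw [h1, h2]
    have e2 : ∀ x, (Real.sqrt (μ x) * |s x - 1|) ^ 2 = μ x * (s x - 1) ^ 2 := by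
      intro x; rw [mul_pow, Real.sq_sqrt (hμ0 x), sq_abs]
    have e3 : ∀ x, (Real.sqrt (μ x) * |s x + 1|) ^ 2 = μ x * (s x + 1) ^ 2 := by
      intro x; rw [mul_pow, Real.sq_sqrt (hμ0 x), sq_abs]
    simp only [e1, e2, e3] at this
    exact this
  have h0 : 0 ≤ ∑ x, μ x * (s x - 1) ^ 2 := Finset.sum_nonneg fun x _ =>
    mul_nonneg (hμ0 x) (sq_nonneg _)
  refine Real.le_sqrt_of_sq_le ?_
  have h5 : (∑ x, μ x * |f x - 1|) ^ 2 ≤ entW Finset.univ (wt J h) f / Zf J h * 4 :=
    hCS.trans (mul_le_mul hH hA (Finset.sum_nonneg fun x _ =>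
      mul_nonneg (hμ0 x) (sq_nonneg _)) (h0.trans hH))
  rw [div_pow]
  linarith

lemma wt_le_Zf (J : ι → ι → ℝ) (h : ι → ℝ) (x : ι → Bool) : wt J h x ≤ Zf J h :=
  Finset.single_le_sum (f := wt J h) (fun y _ => (wt_pos J h y).le) (Finset.mem_univ x)

theorem tv_decay (J : ι → ι → ℝ) (hs : ∀ i j, J i j = J j i) (hd : ∀ i, J i i = 0)
    (h : ι → ℝ) (CA : ℝ) (hCA : 0 < CA)
    (hate : ∀ f : (ι → Bool) → ℝ, (∀ x, 0 < f x) →
      entW Finset.univ (wt J h) f ≤ CA * entSum (wt J h) f)
    (x : ι → Bool) (t : ℝ) (ht : 0 ≤ t) :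
    (∑ y, |Pt J h t x y - wt J h y / Zf J h|) / 2 ≤
      2 * Real.sqrt (Real.exp (-t / CA) * Real.log (Zf J h / wt J h x)) := by
  have hZ := Zf_pos J h
  have hwx := wt_pos J h x
  set R := Zf J h / wt J h x with hR
  have hR1 : 1 ≤ R := by rw [hR, le_div_iff₀ hwx, one_mul]; exact wt_le_Zf J h x
  set f0 : (ι → Bool) → ℝ := fun y => (1 + if y = x then R else 0) / 2 with hf0
  have hf0pos : ∀ y, 0 < f0 y := by
    intro y
    simp only [hf0]
    split_ifs <;> linarith
  have hf0le : ∀ y, f0 y ≤ R := by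
    intro y
    simp only [hf0]
    split_ifs <;> linarith
  have hf0m : ∑ y, wt J h y * f0 y = Zf J h := by
    have e : ∀ y, wt J h y * f0 y = wt J h y / 2 + (if y = x then wt J h x * R / 2 else 0) := by
      intro y
      simp only [hf0]
      by_cases hy : y = x
      · subst hy; simp; ring
      · simp [hy]; ring
    rw [Finset.sum_congr rfl (fun y _ => e y), Finset.sum_add_distrib, ← Finset.sum_div]
    have : (∑ y, wt J h y) = Zf J h := rfl
    rw [this, Finset.sum_ite_eq' Finset.univ x, if_pos (Finset.mem_univ x), hR,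
      mul_div_cancel₀ _ hwx.ne']
    ring
  set ft := (Pt J h t).mulVec f0 with hft
  have hftpos : ∀ y, 0 < ft y := Pt_pos J hd h f0 hf0pos t ht
  have hftm : ∑ y, wt J h y * ft y = Zf J h := by
    rw [hft, Pt_mean J hs hd, hf0m]
  have hfty : ∀ y, ft y = (1 + Pt J h t y x * R) / 2 := by
    intro y
    have : ft y = ∑ z, Pt J h t y z * f0 z := rfl
    rw [this]
    have e : ∀ z, Pt J h t y z * f0 z = Pt J h t y z / 2 +
        (if z = x then Pt J h t y x * R / 2 else 0) := by
      intro z
      simp only [hf0]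
      by_cases hz : z = x
      · subst hz; simp; ring
      · simp [hz]; ring
    rw [Finset.sum_congr rfl (fun y _ => e y), Finset.sum_add_distrib, ← Finset.sum_div,
      Pt_row_sum J hd, Finset.sum_ite_eq' Finset.univ x, if_pos (Finset.mem_univ x)]
    ring
  have htv := tv_le_ent J h ft hftpos hftm
  -- the total variation distance in terms of `ft`
  have e1 : ∀ y, |Pt J h t x y - wt J h y / Zf J h| = 2 * (wt J h y / Zf J h * |ft y - 1|) := by
    intro y
    have hwy := wt_pos J h y
    have hsym := Pt_symm J hs hd h t x y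
    have h1 : Pt J h t x y = wt J h y / Zf J h * (Pt J h t y x * R) := by
      rw [hR]
      field_simp
      linarith
    have h2 : Pt J h t x y - wt J h y / Zf J h = 2 * (wt J h y / Zf J h) * (ft y - 1) := by
      rw [h1, hfty y]; ring
    rw [h2, abs_mul, abs_of_pos (by positivity : (0:ℝ) < 2 * (wt J h y / Zf J h))]
    ring
  rw [Finset.sum_congr rfl (fun y _ => e1 y), ← Finset.mul_sum]
  have e2 : 2 * (∑ y, wt J h y / Zf J h * |ft y - 1|) / 2 =
      2 * ((∑ y, wt J h y / Zf J h * |ft y - 1|) / 2) := by ring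
  rw [e2]
  refine mul_le_mul_of_nonneg_left (htv.trans (Real.sqrt_le_sqrt ?_)) (by norm_num)
  have hdec := ent_decay J hs hd h CA hCA hate f0 hf0pos t ht
  have h3 : entW Finset.univ (wt J h) f0 ≤ Zf J h * Real.log R := by
    rw [entW_of_mean_one J h f0 hf0m, ← hf0m, Finset.sum_mul]
    refine Finset.sum_le_sum fun y _ => ?_
    rw [mul_assoc]
    refine mul_le_mul_of_nonneg_left ?_ (wt_pos J h y).le
    exact mul_le_mul_of_nonneg_left (Real.log_le_log (hf0pos y) (hf0le y)) (hf0pos y).le
  rw [div_le_iff₀ hZ]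
  calc entW Finset.univ (wt J h) ft ≤ Real.exp (-t / CA) * entW Finset.univ (wt J h) f0 := hdec
    _ ≤ Real.exp (-t / CA) * (Zf J h * Real.log R) :=
        mul_le_mul_of_nonneg_left h3 (Real.exp_pos _).le
    _ = Real.exp (-t / CA) * Real.log R * Zf J h := by ring

end ising

end

end P150
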