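import Vale.Agent.P150.Defs

/-!
# The two-spin (face) inequality
-/

namespace P150

noncomputable section

namespace FaceAux

open Real

lemma hasDerivAt_tanh (u : ℝ) : HasDerivAt tanh (1 / cosh u ^ 2) u := by
  have h := (Real.hasDerivAt_sinh u).div (Real.hasDerivAt_cosh u) (Real.cosh_pos u).ne'
  have e : tanh = fun x => sinh x / cosh x := by
    funext x; exact Real.tanh_eq_sinh_div_cosh x
  have h2 : (cosh u * cosh u - sinh u * sinh u) / cosh u ^ 2 = 1 / cosh u ^ 2 := by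
    have : cosh u ^ 2 - sinh u ^ 2 = 1 := Real.cosh_sq_sub_sinh_sq u
    rw [← this]; ring
  rw [e, ← h2]
  exact h

lemma tanh_le_self {u : ℝ} (h : 0 ≤ u) : tanh u ≤ u := by
  have h1 : MonotoneOn (fun x => x - tanh x) (Set.Ici 0) := by
    apply monotoneOn_of_deriv_nonneg (convex_Ici 0)
    · exact (continuous_id.sub (continuous_iff_continuousAt.2
        fun x => (hasDerivAt_tanh x).continuousAt)).continuousOn
    · intro x _
      exact ((hasDerivAt_id x).sub (hasDerivAt_tanh x)).differentiableAt.differentiableWithinAt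
    · intro x _
      have hd : HasDerivAt (fun x => x - tanh x) (1 - 1 / cosh x ^ 2) x :=
        (hasDerivAt_id x).sub (hasDerivAt_tanh x)
      rw [hd.deriv]
      have := one_le_cosh x
      rw [sub_nonneg, div_le_one (by positivity)]
      nlinarith
  have := h1 (Set.mem_Ici.2 le_rfl) (Set.mem_Ici.2 h) h
  simp only [tanh_zero, sub_zero] at this
  linarith

lemma tanh_ge {u : ℝ} (h : 0 ≤ u) : u - u ^ 3 / 2 ≤ tanh u := by
  rw [Real.tanh_eq_sinh_div_cosh, le_div_iff₀ (Real.cosh_pos u)]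
  have h1 : u ≤ sinh u := Real.self_le_sinh_iff.2 h
  have h2 : cosh u ≤ exp (u ^ 2 / 2) := Real.cosh_le_exp_half_sq u
  by_cases h3 : 1 - u ^ 2 / 2 ≤ 0
  · have : (u - u ^ 3 / 2) * cosh u ≤ 0 := by
      have e : (u - u ^ 3 / 2) = u * (1 - u ^ 2 / 2) := by ring
      rw [e]
      exact mul_nonpos_of_nonpos_of_nonneg (mul_nonpos_of_nonneg_of_nonpos h h3)
        (Real.cosh_pos u).le
    linarith
  · push Not at h3
    have h4 : 1 - u ^ 2 / 2 ≤ exp (-(u ^ 2 / 2)) := by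
      have := Real.add_one_le_exp (-(u ^ 2 / 2)); linarith
    have h5 : (1 - u ^ 2 / 2) * cosh u ≤ 1 := by
      calc (1 - u ^ 2 / 2) * cosh u ≤ exp (-(u ^ 2 / 2)) * exp (u ^ 2 / 2) := by
            apply mul_le_mul h4 h2 (Real.cosh_pos u).le (exp_pos _).le
        _ = 1 := by rw [← exp_add]; simp
    calc (u - u ^ 3 / 2) * cosh u = u * ((1 - u ^ 2 / 2) * cosh u) := by ring
      _ ≤ u * 1 := mul_le_mul_of_nonneg_left h5 h
      _ ≤ sinh u := by linarith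

lemma abs_tanh_le (J : ℝ) : |tanh J| ≤ |J| := by
  rcases le_total 0 J with h | h
  · rw [abs_of_nonneg h, abs_of_nonneg]
    · exact tanh_le_self h
    · rw [Real.tanh_eq_sinh_div_cosh]
      exact div_nonneg (Real.sinh_nonneg_iff.2 h) (Real.cosh_pos _).le
  · have h' : 0 ≤ -J := by linarith
    rw [abs_of_nonpos h, abs_of_nonpos]
    · rw [← Real.tanh_neg]; exact tanh_le_self h'
    · rw [Real.tanh_eq_sinh_div_cosh]
      exact div_nonpos_of_nonpos_of_nonneg (Real.sinh_nonpos_iff.2 h) (Real.cosh_pos _).le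

lemma abs_tanh_sub (J : ℝ) : |tanh J - J| ≤ |J| ^ 3 := by
  rcases le_total 0 J with h | h
  · have h1 := tanh_le_self h
    have h2 := tanh_ge h
    have h3 : 0 ≤ J ^ 3 := by positivity
    rw [abs_of_nonneg h, abs_le]; constructor <;> linarith
  · have h' : 0 ≤ -J := by linarith
    have h1 := tanh_le_self h'
    have h2 := tanh_ge h'
    have h3 : 0 ≤ (-J) ^ 3 := by positivity
    rw [Real.tanh_neg] at h1 h2
    rw [abs_of_nonpos h, abs_le]; constructor <;> linarith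

lemma abs_tanh_lt_one (J : ℝ) : |tanh J| < 1 := by
  rw [Real.tanh_eq_sinh_div_cosh, abs_div, abs_of_pos (Real.cosh_pos J),
    div_lt_one (Real.cosh_pos J), abs_lt]
  constructor
  · have := Real.exp_pos J
    have h := Real.cosh_eq J; have h2 := Real.sinh_eq J
    have := Real.exp_pos (-J)
    rw [h, h2]; linarith
  · have := Real.exp_pos (-J)
    have h := Real.cosh_eq J; have h2 := Real.sinh_eq J
    rw [h, h2]; linarith

lemma tanh_add' (x y : ℝ) : tanh (x + y) = (tanh x + tanh y) / (1 + tanh x * tanh y) := by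
  have hx := Real.cosh_pos x
  have hy := Real.cosh_pos y
  have hxy := Real.cosh_pos (x + y)
  have e : 1 + tanh x * tanh y = cosh (x + y) / (cosh x * cosh y) := by
    rw [Real.tanh_eq_sinh_div_cosh, Real.tanh_eq_sinh_div_cosh, Real.cosh_add]
    field_simp
  have e2 : tanh x + tanh y = sinh (x + y) / (cosh x * cosh y) := by
    rw [Real.tanh_eq_sinh_div_cosh, Real.tanh_eq_sinh_div_cosh, Real.sinh_add]
    field_simp
  rw [e, e2, Real.tanh_eq_sinh_div_cosh]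
  field_simp

lemma exp_sp (a s : ℝ) (hs : s = 1 ∨ s = -1) : exp (a * s) = cosh a * (1 + tanh a * s) := by
  have ha := Real.cosh_pos a
  have : cosh a * tanh a = sinh a := by
    rw [Real.tanh_eq_sinh_div_cosh]; field_simp
  have e : cosh a * (1 + tanh a * s) = cosh a + sinh a * s := by
    rw [← this]; ring
  rw [e]
  rcases hs with rfl | rfl
  · simp [Real.cosh_add_sinh]
  · have := Real.cosh_sub_sinh a
    simp only [mul_neg, mul_one]
    rw [← sub_eq_add_neg, this]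

lemma tanh_sp (a J s : ℝ) (hs : s = 1 ∨ s = -1) :
    tanh (a + J * s) = (tanh a + tanh J * s) / (1 + tanh J * tanh a * s) := by
  rw [tanh_add']
  rcases hs with rfl | rfl
  · simp; ring
  · simp [Real.tanh_neg]; ring

/-- first-order product lemma -/
lemma prod1 {A B a b α a' β b' d : ℝ} (hd0 : 0 ≤ d) (hd : d ≤ 1/10)
    (hA : |A - (1 + a)| ≤ α * d ^ 2) (ha : |a| ≤ a' * d) (hα : 0 ≤ α) (ha' : 0 ≤ a')
    (hB : |B - (1 + b)| ≤ β * d ^ 2) (hb : |b| ≤ b' * d) (hβ : 0 ≤ β) (hb' : 0 ≤ b') :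
    |A * B - (1 + (a + b))| ≤ (α * (1 + b' / 10 + β / 100) + β * (1 + a' / 10) + a' * b') * d ^ 2 := by
  have e : A * B - (1 + (a + b)) = (A - (1 + a)) * B + (1 + a) * (B - (1 + b)) + a * b := by ring
  have hd2 : d ^ 2 ≤ 1 / 100 := by nlinarith
  have hBabs : |B| ≤ 1 + b' / 10 + β / 100 := by
    have : B = (B - (1 + b)) + (1 + b) := by ring
    calc |B| = |(B - (1 + b)) + (1 + b)| := by rw [← this]
      _ ≤ |B - (1 + b)| + |1 + b| := abs_add_le _ _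
      _ ≤ β * d ^ 2 + (1 + b' * d) := by
          have := abs_add_le 1 b
          rw [abs_one] at this
          linarith
      _ ≤ 1 + b' / 10 + β / 100 := by nlinarith
  have haabs : |1 + a| ≤ 1 + a' / 10 := by
    have := abs_add_le 1 a
    rw [abs_one] at this
    nlinarith
  rw [e]
  calc |(A - (1 + a)) * B + (1 + a) * (B - (1 + b)) + a * b|
      ≤ |(A - (1 + a)) * B + (1 + a) * (B - (1 + b))| + |a * b| := abs_add_le _ _
    _ ≤ |(A - (1 + a)) * B| + |(1 + a) * (B - (1 + b))| + |a * b| := by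
        have := abs_add_le ((A - (1 + a)) * B) ((1 + a) * (B - (1 + b))); linarith
    _ = |A - (1 + a)| * |B| + |1 + a| * |B - (1 + b)| + |a| * |b| := by
        rw [abs_mul, abs_mul, abs_mul]
    _ ≤ (α * d ^ 2) * (1 + b' / 10 + β / 100) + (1 + a' / 10) * (β * d ^ 2)
        + (a' * d) * (b' * d) := by
        have h1 := mul_le_mul hA hBabs (abs_nonneg _) (by positivity)
        have h2 := mul_le_mul haabs hB (abs_nonneg _) (by positivity)
        have h3 := mul_le_mul ha hb (abs_nonneg _) (by positivity)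
        linarith
    _ = _ := by ring

/-- second-order expansion of a geometric factor -/
lemma inv_sq_approx {X d : ℝ} (_hd0 : 0 ≤ d) (hd : d ≤ 1/10) (hX : |X| ≤ d) :
    |1 / (1 + X) ^ 2 - (1 + -(2 * X))| ≤ 4 * d ^ 2 := by
  have hX' := abs_le.1 hX
  have hpos : 0 < 1 + X := by linarith
  have e : 1 / (1 + X) ^ 2 - (1 + -(2 * X)) = X ^ 2 * (3 + 2 * X) / (1 + X) ^ 2 := by
    field_simp; ring
  rw [e, abs_div, abs_mul, abs_of_nonneg (sq_nonneg X), abs_of_pos (pow_pos hpos 2),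
    div_le_iff₀ (pow_pos hpos 2), abs_of_pos (by linarith : (0:ℝ) < 3 + 2 * X)]
  have h1 : X ^ 2 ≤ d ^ 2 := by rw [← sq_abs X]; exact pow_le_pow_left₀ (abs_nonneg _) hX 2
  have h2 : 3 + 2 * X ≤ 4 * (1 + X) ^ 2 := by nlinarith [sq_nonneg X]
  have h3 : X ^ 2 * (3 + 2 * X) ≤ d ^ 2 * (4 * (1 + X) ^ 2) :=
    mul_le_mul h1 h2 (by linarith) (by positivity)
  linarith

lemma abs_sign_mul {s x d : ℝ} (hs : s = 1 ∨ s = -1) (h : |x| ≤ d) : |x * s| ≤ d := by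
  rcases hs with rfl | rfl
  · simpa using h
  · simpa using h

/-- the expansion of the first term -/
lemma first_term {X Y Z d : ℝ} (hd0 : 0 ≤ d) (hd : d ≤ 1/10) (hX : |X| ≤ d) (hY : |Y| ≤ d)
    (hZ : |Z| ≤ d) :
    |1 / ((1 + X) * (1 + Y) * (1 + Z)) -
      (1 - (X + Y + Z) + (X ^ 2 + Y ^ 2 + Z ^ 2 + X * Y + X * Z + Y * Z))| ≤ 30 * d ^ 3 := by
  have hX' := abs_le.1 hX
  have hY' := abs_le.1 hY
  have hZ' := abs_le.1 hZ
  have p1 : (9/10 : ℝ) ≤ 1 + X := by linarith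
  have p2 : (9/10 : ℝ) ≤ 1 + Y := by linarith
  have p3 : (9/10 : ℝ) ≤ 1 + Z := by linarith
  have hD : (729/1000 : ℝ) ≤ (1 + X) * (1 + Y) * (1 + Z) := by
    have h1 : (81/100 : ℝ) ≤ (1 + X) * (1 + Y) := by nlinarith
    nlinarith
  have hDpos : 0 < (1 + X) * (1 + Y) * (1 + Z) := by linarith
  set D := (1 + X) * (1 + Y) * (1 + Z) with hDdef
  set e1 := X + Y + Z with he1
  set e2 := X * Y + X * Z + Y * Z with he2
  set e3 := X * Y * Z with he3
  set h2 := X ^ 2 + Y ^ 2 + Z ^ 2 + X * Y + X * Z + Y * Z with hh2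
  set h3 := X ^ 3 + Y ^ 3 + Z ^ 3 + X ^ 2 * Y + X ^ 2 * Z + Y ^ 2 * X + Y ^ 2 * Z + Z ^ 2 * X
    + Z ^ 2 * Y + X * Y * Z with hh3
  have key : 1 / D - (1 - e1 + h2) = (-h3 - (h2 * e2 - e1 * e3) - h2 * e3) / D := by
    rw [eq_div_iff hDpos.ne', sub_mul, div_mul_cancel₀ _ hDpos.ne']
    rw [hDdef, he1, hh2, hh3, he2, he3]; ring
  have m2 : ∀ {a b : ℝ}, |a| ≤ d → |b| ≤ d → |a * b| ≤ d ^ 2 := by
    intro a b ha hb
    rw [abs_mul, sq]; exact mul_le_mul ha hb (abs_nonneg _) hd0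
  have s2 : ∀ {a : ℝ}, |a| ≤ d → |a ^ 2| ≤ d ^ 2 := by
    intro a ha
    rw [abs_pow]; exact pow_le_pow_left₀ (abs_nonneg _) ha 2
  have s3 : ∀ {a : ℝ}, |a| ≤ d → |a ^ 3| ≤ d ^ 3 := by
    intro a ha
    rw [abs_pow]; exact pow_le_pow_left₀ (abs_nonneg _) ha 3
  have m3 : ∀ {a b : ℝ}, |a| ≤ d → |b| ≤ d → |a ^ 2 * b| ≤ d ^ 3 := by
    intro a b ha hb
    rw [abs_mul]
    calc |a ^ 2| * |b| ≤ d ^ 2 * d := mul_le_mul (s2 ha) hb (abs_nonneg _) (by positivity)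
      _ = d ^ 3 := by ring
  have he3b : |e3| ≤ d ^ 3 := by
    rw [he3, abs_mul]
    calc |X * Y| * |Z| ≤ d ^ 2 * d := mul_le_mul (m2 hX hY) hZ (abs_nonneg _) (by positivity)
      _ = d ^ 3 := by ring
  have hh3b : |h3| ≤ 10 * d ^ 3 := by
    rw [hh3]
    have t1 := s3 hX; have t2 := s3 hY; have t3 := s3 hZ
    have t4 := m3 hX hY; have t5 := m3 hX hZ; have t6 := m3 hY hX; have t7 := m3 hY hZ
    have t8 := m3 hZ hX; have t9 := m3 hZ hY
    rw [he3] at he3b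
    rw [abs_le] at *
    constructor <;> linarith [t1.1, t1.2, t2.1, t2.2, t3.1, t3.2, t4.1, t4.2, t5.1, t5.2, t6.1,
      t6.2, t7.1, t7.2, t8.1, t8.2, t9.1, t9.2, he3b.1, he3b.2]
  have hh2b : |h2| ≤ 6 * d ^ 2 := by
    rw [hh2]
    have t1 := s2 hX; have t2 := s2 hY; have t3 := s2 hZ
    have t4 := m2 hX hY; have t5 := m2 hX hZ; have t6 := m2 hY hZ
    rw [abs_le] at *
    constructor <;> linarith [t1.1, t1.2, t2.1, t2.2, t3.1, t3.2, t4.1, t4.2, t5.1, t5.2, t6.1,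
      t6.2]
  have he2b : |e2| ≤ 3 * d ^ 2 := by
    rw [he2]
    have t4 := m2 hX hY; have t5 := m2 hX hZ; have t6 := m2 hY hZ
    rw [abs_le] at *
    constructor <;> linarith [t4.1, t4.2, t5.1, t5.2, t6.1, t6.2]
  have he1b : |e1| ≤ 3 * d := by
    rw [he1]
    rw [abs_le]
    constructor <;> linarith
  have b1 : |h2 * e2| ≤ 18 * d ^ 4 := by
    rw [abs_mul]
    calc |h2| * |e2| ≤ (6 * d ^ 2) * (3 * d ^ 2) :=
          mul_le_mul hh2b he2b (abs_nonneg _) (by positivity)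
      _ = 18 * d ^ 4 := by ring
  have b2 : |e1 * e3| ≤ 3 * d ^ 4 := by
    rw [abs_mul]
    calc |e1| * |e3| ≤ (3 * d) * (d ^ 3) :=
          mul_le_mul he1b he3b (abs_nonneg _) (by positivity)
      _ = 3 * d ^ 4 := by ring
  have b3 : |h2 * e3| ≤ 6 * d ^ 5 := by
    rw [abs_mul]
    calc |h2| * |e3| ≤ (6 * d ^ 2) * (d ^ 3) :=
          mul_le_mul hh2b he3b (abs_nonneg _) (by positivity)
      _ = 6 * d ^ 5 := by ring
  have hd4 : d ^ 4 ≤ d ^ 3 / 10 := by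
    have : 0 ≤ d ^ 3 := by positivity
    nlinarith
  have hd5 : d ^ 5 ≤ d ^ 3 / 100 := by
    have : 0 ≤ d ^ 4 := by positivity
    nlinarith
  have hd3 : 0 ≤ d ^ 3 := by positivity
  have num : |(-h3 - (h2 * e2 - e1 * e3) - h2 * e3)| ≤ 13 * d ^ 3 := by
    rw [abs_le] at *
    constructor <;> linarith [hh3b.1, hh3b.2, b1.1, b1.2, b2.1, b2.2, b3.1, b3.2]
  have e : 1 - (X + Y + Z) + (X ^ 2 + Y ^ 2 + Z ^ 2 + X * Y + X * Z + Y * Z) = 1 - e1 + h2 := by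
    rw [he1, hh2]
  rw [key, abs_div, abs_of_pos hDpos, div_le_iff₀ hDpos]
  nlinarith

/-- a conditional mean is close to the unperturbed mean -/
lemma mean_approx {τ u t d : ℝ} (hd0 : 0 ≤ d) (hd : d ≤ 1/10) (hτ : |τ| ≤ d) (hu : |u| ≤ 1)
    (ht : t = 1 ∨ t = -1) : |(u + τ * t) / (1 + τ * u * t) - u| ≤ 2 * d := by
  have hX : |τ * u * t| ≤ d := by
    apply abs_sign_mul ht
    rw [abs_mul]; nlinarith [abs_nonneg τ, abs_nonneg u]
  have hX' := abs_le.1 hX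
  have hpX : (9/10:ℝ) ≤ 1 + τ * u * t := by linarith
  have hne : 1 + τ * u * t ≠ 0 := by linarith
  have e : (u + τ * t) / (1 + τ * u * t) - u = τ * t * (1 - u ^ 2) / (1 + τ * u * t) := by
    rw [eq_div_iff hne, sub_mul, div_mul_cancel₀ _ hne]; ring
  have hu2 : |1 - u ^ 2| ≤ 1 := by
    have : u ^ 2 ≤ 1 := by rw [← sq_abs u]; nlinarith [abs_nonneg u]
    rw [abs_le]; constructor <;> nlinarith [sq_nonneg u]
  rw [e, abs_div, abs_of_pos (by linarith : (0:ℝ) < 1 + τ * u * t), div_le_iff₀ (by linarith),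
    abs_mul]
  have h1 : |τ * t| ≤ d := abs_sign_mul ht hτ
  have h2 : |τ * t| * |1 - u ^ 2| ≤ d * 1 := mul_le_mul h1 hu2 (abs_nonneg _) hd0
  nlinarith

lemma prod_mean_approx {mi mj u v d : ℝ} (hd0 : 0 ≤ d) (hd : d ≤ 1/10)
    (hu : |u| ≤ 1) (hv : |v| ≤ 1) (hmi : |mi - u| ≤ 2 * d) (hmj : |mj - v| ≤ 2 * d) :
    |mi * mj - u * v| ≤ 5 * d := by
  have e : mi * mj - u * v = (mi - u) * (mj - v) + (mi - u) * v + u * (mj - v) := by ring
  rw [e]
  calc |(mi - u) * (mj - v) + (mi - u) * v + u * (mj - v)|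
      ≤ |(mi - u) * (mj - v) + (mi - u) * v| + |u * (mj - v)| := abs_add_le _ _
    _ ≤ |(mi - u) * (mj - v)| + |(mi - u) * v| + |u * (mj - v)| := by
        have := abs_add_le ((mi - u) * (mj - v)) ((mi - u) * v); linarith
    _ = |mi - u| * |mj - v| + |mi - u| * |v| + |u| * |mj - v| := by
        rw [abs_mul, abs_mul, abs_mul]
    _ ≤ (2 * d) * (2 * d) + (2 * d) * 1 + 1 * (2 * d) := by
        have h1 := mul_le_mul hmi hmj (abs_nonneg _) (by positivity)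
        have h2 := mul_le_mul hmi hv (abs_nonneg _) (by positivity)
        have h3 := mul_le_mul hu hmj (abs_nonneg _) (by norm_num)
        linarith
    _ ≤ 5 * d := by nlinarith

lemma factor_approx {J mi mj u v d : ℝ} (hd0 : 0 ≤ d) (hJ : |J| ≤ d)
    (h : |mi * mj - u * v| ≤ 5 * d) :
    |(1 + 2 * J * mi * mj) - (1 + 2 * J * u * v)| ≤ 10 * d ^ 2 := by
  have e : (1 + 2 * J * mi * mj) - (1 + 2 * J * u * v) = 2 * (J * (mi * mj - u * v)) := by ring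
  rw [e, abs_mul, abs_mul, abs_of_pos (by norm_num : (0:ℝ) < 2)]
  have h1 : |J| * |mi * mj - u * v| ≤ d * (5 * d) := mul_le_mul hJ h (abs_nonneg _) hd0
  linarith

lemma two_mul_le {J u v d : ℝ} (hd0 : 0 ≤ d) (hJ : |J| ≤ d) (hu : |u| ≤ 1) (hv : |v| ≤ 1) :
    |2 * J * u * v| ≤ 2 * d := by
  have e : 2 * J * u * v = 2 * (J * (u * v)) := by ring
  rw [e, abs_mul, abs_mul, abs_mul, abs_of_pos (by norm_num : (0:ℝ) < 2)]
  have h1 : |u| * |v| ≤ 1 * 1 := mul_le_mul hu hv (abs_nonneg _) (by norm_num)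
  have h2 : |J| * (|u| * |v|) ≤ d * 1 := mul_le_mul hJ (by linarith) (by positivity) hd0
  linarith

lemma triple {A B X Y a b d : ℝ} (hd0 : 0 ≤ d) (hd : d ≤ 1/10)
    (hX : |X| ≤ d) (hY : |Y| ≤ d) (ha : |a| ≤ 1 * d) (hA : A = 1 + a)
    (hB : |B - (1 + b)| ≤ 10 * d ^ 2) (hb : |b| ≤ 2 * d) :
    |A * B * (1 / (1 + X) ^ 2) * (1 / (1 + Y) ^ 2) - (1 + (a + b - 2 * X - 2 * Y))|
      ≤ 60 * d ^ 2 := by
  have hd2 : 0 ≤ d ^ 2 := by positivity
  have hA' : |A - (1 + a)| ≤ 0 * d ^ 2 := by rw [hA]; simp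
  have P1 := prod1 hd0 hd hA' ha le_rfl (by norm_num) hB hb (by norm_num) (by norm_num)
  have P1' : |A * B - (1 + (a + b))| ≤ 13 * d ^ 2 := P1.trans (le_of_eq (by ring))
  have hab : |a + b| ≤ 3 * d := by
    have := abs_add_le a b; linarith
  have hX2 : |-(2 * X)| ≤ 2 * d := by
    rw [abs_neg, abs_mul, abs_of_pos (by norm_num : (0:ℝ) < 2)]
    linarith
  have hY2 : |-(2 * Y)| ≤ 2 * d := by
    rw [abs_neg, abs_mul, abs_of_pos (by norm_num : (0:ℝ) < 2)]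
    linarith
  have P2 := prod1 hd0 hd P1' hab (by norm_num) (by norm_num)
    (inv_sq_approx hd0 hd hX) hX2 (by norm_num) (by norm_num)
  have P2' : |A * B * (1 / (1 + X) ^ 2) - (1 + (a + b + -(2 * X)))| ≤ 28 * d ^ 2 := by
    refine P2.trans ?_
    nlinarith
  have hab2 : |a + b + -(2 * X)| ≤ 5 * d := by
    have h1 := abs_add_le (a + b) (-(2 * X))
    linarith
  have P3 := prod1 hd0 hd P2' hab2 (by norm_num) (by norm_num)
    (inv_sq_approx hd0 hd hY) hY2 (by norm_num) (by norm_num)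
  have e3 : 1 + (a + b - 2 * X - 2 * Y) = 1 + (a + b + -(2 * X) + -(2 * Y)) := by ring
  rw [e3]
  refine P3.trans ?_
  nlinarith

/-- the expansion of the second term -/
lemma second_term {J τ u v s t : ℝ} (hJ : |J| ≤ 1/10) (hτ : |τ| ≤ |J|) (hu : |u| ≤ 1)
    (hv : |v| ≤ 1) (hs : s = 1 ∨ s = -1) (ht : t = 1 ∨ t = -1) :
    |(1 + τ * s * t) * (1 + 2 * J * ((u + τ * t) / (1 + τ * u * t)) * ((v + τ * s) / (1 + τ * v * s)))
        * (1 / (1 + τ * u * t) ^ 2) * (1 / (1 + τ * v * s) ^ 2) -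
      (1 + (τ * s * t + 2 * J * u * v - 2 * (τ * u * t) - 2 * (τ * v * s)))| ≤ 60 * |J| ^ 2 := by
  have hd0 : 0 ≤ |J| := abs_nonneg _
  have hX : |τ * u * t| ≤ |J| := by
    apply abs_sign_mul ht
    rw [abs_mul]; nlinarith [abs_nonneg τ, abs_nonneg u]
  have hY : |τ * v * s| ≤ |J| := by
    apply abs_sign_mul hs
    rw [abs_mul]; nlinarith [abs_nonneg τ, abs_nonneg v]
  have hZ : |τ * s * t| ≤ 1 * |J| := by
    rw [one_mul]
    apply abs_sign_mul ht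
    exact abs_sign_mul hs hτ
  exact triple hd0 hJ hX hY hZ rfl
    (factor_approx hd0 le_rfl (prod_mean_approx hd0 hJ hu hv (mean_approx hd0 hJ hτ hu ht)
      (mean_approx hd0 hJ hτ hv hs))) (two_mul_le hd0 le_rfl hu hv)

/-- the coefficient function of the face inequality -/
def phi (J τ u v s t : ℝ) : ℝ :=
  s * t / ((1 + τ * u * t) * (1 + τ * v * s) * (1 + τ * s * t)) +
    J * ((1 + u * s) * (1 + v * t)) * ((1 + τ * s * t) *
      (1 + 2 * J * ((u + τ * t) / (1 + τ * u * t)) * ((v + τ * s) / (1 + τ * v * s)))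
        * (1 / (1 + τ * u * t) ^ 2) * (1 / (1 + τ * v * s) ^ 2))

lemma c_bounds {J τ u v s t W : ℝ} (hJ : |J| ≤ 1/10) (hτ : |τ| ≤ 1/10)
    (hu : |u| ≤ 1) (hv : |v| ≤ 1) (hs : s = 1 ∨ s = -1) (ht : t = 1 ∨ t = -1) (hW : |W| ≤ 4) :
    |-(s * t) * (u * t + v * s + s * t)
        + (s * t) * (τ + J) * (u ^ 2 + v ^ 2 + 1 + u * v * s * t + u * s + v * t)
        + J * W * (s * t - 2 * (u * t) - 2 * (v * s))| ≤ 7 := by
  have habs1 : |s * t| = 1 := by
    rcases hs with rfl | rfl <;> rcases ht with rfl | rfl <;> norm_num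
  have su : |u * t| ≤ 1 := abs_sign_mul ht hu
  have sv : |v * s| ≤ 1 := abs_sign_mul hs hv
  have su' : |u * s| ≤ 1 := abs_sign_mul hs hu
  have sv' : |v * t| ≤ 1 := abs_sign_mul ht hv
  have hu2 : |u ^ 2| ≤ 1 := by rw [abs_pow]; nlinarith [abs_nonneg u]
  have hv2 : |v ^ 2| ≤ 1 := by rw [abs_pow]; nlinarith [abs_nonneg v]
  have huv : |u * v * s * t| ≤ 1 := by
    apply abs_sign_mul ht; apply abs_sign_mul hs
    rw [abs_mul]; nlinarith [abs_nonneg u, abs_nonneg v]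
  have c1 : |-(s * t) * (u * t + v * s + s * t)| ≤ 3 := by
    rw [abs_mul, abs_neg, habs1, one_mul]
    have h1 := abs_add_le (u * t + v * s) (s * t)
    have h2 := abs_add_le (u * t) (v * s)
    linarith
  have c2 : |(s * t) * (τ + J) * (u ^ 2 + v ^ 2 + 1 + u * v * s * t + u * s + v * t)| ≤ 2 := by
    rw [abs_mul, abs_mul, habs1, one_mul]
    have h1 : |τ + J| ≤ 2 / 10 := by have := abs_add_le τ J; linarith
    have h2 : |u ^ 2 + v ^ 2 + 1 + u * v * s * t + u * s + v * t| ≤ 6 := by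
      have k1 := abs_add_le (u ^ 2 + v ^ 2 + 1 + u * v * s * t + u * s) (v * t)
      have k2 := abs_add_le (u ^ 2 + v ^ 2 + 1 + u * v * s * t) (u * s)
      have k3 := abs_add_le (u ^ 2 + v ^ 2 + 1) (u * v * s * t)
      have k4 := abs_add_le (u ^ 2 + v ^ 2) 1
      have k5 := abs_add_le (u ^ 2) (v ^ 2)
      rw [abs_one] at k4
      linarith
    have h3 := mul_le_mul h1 h2 (abs_nonneg _) (by norm_num)
    linarith
  have c3 : |J * W * (s * t - 2 * (u * t) - 2 * (v * s))| ≤ 2 := by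
    rw [abs_mul, abs_mul]
    have h1 : |J| * |W| ≤ 1 / 10 * 4 := mul_le_mul hJ hW (abs_nonneg _) (by norm_num)
    have h2 : |s * t - 2 * (u * t) - 2 * (v * s)| ≤ 5 := by
      have k1 := abs_sub (s * t - 2 * (u * t)) (2 * (v * s))
      have k2 := abs_sub (s * t) (2 * (u * t))
      rw [abs_mul 2, abs_of_pos (by norm_num : (0:ℝ) < 2)] at k1 k2
      linarith
    have h3 := mul_le_mul h1 h2 (abs_nonneg _) (by norm_num)
    linarith
  have h1 := abs_add_le (-(s * t) * (u * t + v * s + s * t)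
      + (s * t) * (τ + J) * (u ^ 2 + v ^ 2 + 1 + u * v * s * t + u * s + v * t))
      (J * W * (s * t - 2 * (u * t) - 2 * (v * s)))
  have h2 := abs_add_le (-(s * t) * (u * t + v * s + s * t))
    ((s * t) * (τ + J) * (u ^ 2 + v ^ 2 + 1 + u * v * s * t + u * s + v * t))
  linarith

lemma phi_approx {J τ u v s t : ℝ} (hJ : |J| ≤ 1/10) (hτ : |τ| ≤ |J|) (hτJ : |τ - J| ≤ |J| ^ 3)
    (hu : |u| ≤ 1) (hv : |v| ≤ 1) (hs : s = 1 ∨ s = -1) (ht : t = 1 ∨ t = -1) :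
    |phi J τ u v s t - s * t * (1 + J * u * v + J ^ 2 * (2 - u ^ 2 - v ^ 2 + 2 * u ^ 2 * v ^ 2))|
      ≤ 400 * |J| ^ 3 := by
  have hd0 : 0 ≤ |J| := abs_nonneg _
  have hX : |τ * u * t| ≤ |J| := by
    apply abs_sign_mul ht
    rw [abs_mul]; nlinarith [abs_nonneg τ, abs_nonneg u]
  have hY : |τ * v * s| ≤ |J| := by
    apply abs_sign_mul hs
    rw [abs_mul]; nlinarith [abs_nonneg τ, abs_nonneg v]
  have hZ : |τ * s * t| ≤ |J| := by
    apply abs_sign_mul ht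
    exact abs_sign_mul hs hτ
  have F := first_term hd0 hJ hX hY hZ
  have S := second_term hJ hτ hu hv hs ht
  have habs1 : |s * t| = 1 := by
    rcases hs with rfl | rfl <;> rcases ht with rfl | rfl <;> norm_num
  have hw1 : |1 + u * s| ≤ 2 := by
    have h1 : |u * s| ≤ 1 := abs_sign_mul hs hu
    have := abs_add_le 1 (u * s); rw [abs_one] at this; linarith
  have hw2 : |1 + v * t| ≤ 2 := by
    have h1 : |v * t| ≤ 1 := abs_sign_mul ht hv
    have := abs_add_le 1 (v * t); rw [abs_one] at this; linarith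
  have hW : |(1 + u * s) * (1 + v * t)| ≤ 4 := by
    rw [abs_mul]
    calc |1 + u * s| * |1 + v * t| ≤ 2 * 2 := mul_le_mul hw1 hw2 (abs_nonneg _) (by norm_num)
      _ = 4 := by norm_num
  have C := c_bounds hJ (hτ.trans hJ) hu hv hs ht hW
  generalize hD : 1 / ((1 + τ * u * t) * (1 + τ * v * s) * (1 + τ * s * t)) = D at F
  generalize hG : (1 + τ * s * t) *
      (1 + 2 * J * ((u + τ * t) / (1 + τ * u * t)) * ((v + τ * s) / (1 + τ * v * s)))
        * (1 / (1 + τ * u * t) ^ 2) * (1 / (1 + τ * v * s) ^ 2) = G at S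
  have hphi : phi J τ u v s t = s * t * D + J * ((1 + u * s) * (1 + v * t)) * G := by
    unfold phi
    rw [← hD, ← hG, mul_one_div (s * t)]
  generalize hr1 : D - (1 - (τ * u * t + τ * v * s + τ * s * t) + ((τ * u * t) ^ 2 + (τ * v * s) ^ 2 +
    (τ * s * t) ^ 2 + (τ * u * t) * (τ * v * s) + (τ * u * t) * (τ * s * t) +
    (τ * v * s) * (τ * s * t))) = r1 at F
  generalize hr2 : G - (1 + (τ * s * t + 2 * J * u * v - 2 * (τ * u * t) - 2 * (τ * v * s))) = r2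
    at S
  generalize hc : (-(s * t) * (u * t + v * s + s * t)
        + (s * t) * (τ + J) * (u ^ 2 + v ^ 2 + 1 + u * v * s * t + u * s + v * t)
        + J * ((1 + u * s) * (1 + v * t)) * (s * t - 2 * (u * t) - 2 * (v * s))) = c at C
  have key : phi J τ u v s t -
      s * t * (1 + J * u * v + J ^ 2 * (2 - u ^ 2 - v ^ 2 + 2 * u ^ 2 * v ^ 2)) =
      s * t * r1 + J * ((1 + u * s) * (1 + v * t)) * r2 + (τ - J) * c := by
    rw [hphi, ← hr1, ← hr2, ← hc]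
    rcases hs with rfl | rfl <;> rcases ht with rfl | rfl <;> ring
  have b1 : |s * t * r1| ≤ 30 * |J| ^ 3 := by
    rw [abs_mul, habs1, one_mul]; exact F
  have b2 : |J * ((1 + u * s) * (1 + v * t)) * r2| ≤ 240 * |J| ^ 3 := by
    rw [abs_mul, abs_mul]
    have h1 : |J| * |(1 + u * s) * (1 + v * t)| ≤ |J| * 4 :=
      mul_le_mul le_rfl hW (abs_nonneg _) hd0
    have h2 := mul_le_mul h1 S (abs_nonneg _) (by positivity)
    calc |J| * |(1 + u * s) * (1 + v * t)| * |r2| ≤ |J| * 4 * (60 * |J| ^ 2) := h2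
      _ = 240 * |J| ^ 3 := by ring
  have b3 : |(τ - J) * c| ≤ 7 * |J| ^ 3 := by
    rw [abs_mul]
    have h4 := mul_le_mul hτJ C (abs_nonneg _) (by positivity)
    linarith
  rw [key]
  have h1 := abs_add_le (s * t * r1 + J * ((1 + u * s) * (1 + v * t)) * r2) ((τ - J) * c)
  have h2 := abs_add_le (s * t * r1) (J * ((1 + u * s) * (1 + v * t)) * r2)
  have h3 : 0 ≤ |J| ^ 3 := by positivity
  linarith

lemma pos_of_lt {τ u t : ℝ} (hτ : |τ| < 1) (hu : |u| < 1) (ht : t = 1 ∨ t = -1) :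
    0 < 1 + τ * u * t := by
  have h : |τ * u * t| < 1 := by
    have h1 : |τ * u| < 1 := by
      rw [abs_mul]; nlinarith [abs_nonneg τ, abs_nonneg u]
    rcases ht with rfl | rfl
    · simpa using h1
    · simpa using h1
  have := (abs_lt.1 h).1
  linarith

lemma sub_mean {τ u s t A' : ℝ} (hs : s = 1 ∨ s = -1) (ht : t = 1 ∨ t = -1)
    (hA : (1 + τ * u * t) * A' = 1) :
    s - (u + τ * t) * A' = s * (1 - u * s) * (1 - τ * s * t) * A' := by
  rcases hs with rfl | rfl <;> rcases ht with rfl | rfl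
  · linear_combination (-1) * hA
  · linear_combination (-1) * hA
  · linear_combination hA
  · linear_combination hA

lemma term_eq {J τ u v s t c0 x y : ℝ} (hτ : |τ| < 1) (hu : |u| < 1) (hv : |v| < 1)
    (hs : s = 1 ∨ s = -1) (ht : t = 1 ∨ t = -1) :
    c0 * ((1 + u * s) * (1 + v * t) * (1 + τ * s * t)) *
      ((s - (u + τ * t) / (1 + τ * u * t)) * (t - (v + τ * s) / (1 + τ * v * s)) * x * y
        + J * ((1 - ((u + τ * t) / (1 + τ * u * t)) ^ 2) * x)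
            * ((1 - ((v + τ * s) / (1 + τ * v * s)) ^ 2) * y)
        + 2 * J ^ 2 * ((u + τ * t) / (1 + τ * u * t) * (1 - ((u + τ * t) / (1 + τ * u * t)) ^ 2) * x)
            * ((v + τ * s) / (1 + τ * v * s) * (1 - ((v + τ * s) / (1 + τ * v * s)) ^ 2) * y))
      = c0 * ((1 - u ^ 2) * (1 - v ^ 2) * (1 - τ ^ 2) ^ 2) * (phi J τ u v s t * (x * y)) := by
  have h1 : 1 + τ * u * t ≠ 0 := (pos_of_lt hτ hu ht).ne'
  have h2 : 1 + τ * v * s ≠ 0 := (pos_of_lt hτ hv hs).ne'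
  have h3 : 1 + τ * s * t ≠ 0 := by
    have : 0 < 1 + τ * 1 * (s * t) := by
      have h : |τ * 1 * (s * t)| < 1 := by
        rcases hs with rfl | rfl <;> rcases ht with rfl | rfl <;> simpa using hτ
      have := (abs_lt.1 h).1
      linarith
    have e : 1 + τ * s * t = 1 + τ * 1 * (s * t) := by ring
    rw [e]; exact this.ne'
  unfold phi
  have hA : (1 + τ * u * t) * (1 + τ * u * t)⁻¹ = 1 := mul_inv_cancel₀ h1
  have hB : (1 + τ * v * s) * (1 + τ * v * s)⁻¹ = 1 := mul_inv_cancel₀ h2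
  have hC : (1 + τ * s * t) * (1 + τ * s * t)⁻¹ = 1 := mul_inv_cancel₀ h3
  have e0 : s * t / ((1 + τ * u * t) * (1 + τ * v * s) * (1 + τ * s * t)) =
      s * t * ((1 + τ * u * t)⁻¹ * (1 + τ * v * s)⁻¹ * (1 + τ * s * t)⁻¹) := by
    rw [div_eq_mul_inv, mul_inv, mul_inv]
  rw [e0, one_div, one_div]
  simp only [div_eq_mul_inv]
  rw [← inv_pow, ← inv_pow]
  generalize hA'' : (1 + τ * u * t)⁻¹ = A' at hA ⊢
  generalize hB'' : (1 + τ * v * s)⁻¹ = B' at hB ⊢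
  generalize hC'' : (1 + τ * s * t)⁻¹ = C' at hC ⊢
  have ei := sub_mean hs ht hA
  have ej := sub_mean ht hs hB
  have hs2 : s ^ 2 = 1 := by rcases hs with rfl | rfl <;> norm_num
  have ht2 : t ^ 2 = 1 := by rcases ht with rfl | rfl <;> norm_num
  have e1 : 1 - ((u + τ * t) * A') ^ 2 = (1 - u ^ 2) * (1 - τ ^ 2) * A' ^ 2 := by
    linear_combination (-(1 + (1 + τ * u * t) * A')) * hA + (u ^ 2 * τ ^ 2 * A' ^ 2 - τ ^ 2 * A' ^ 2) * ht2
  have e2 : 1 - ((v + τ * s) * B') ^ 2 = (1 - v ^ 2) * (1 - τ ^ 2) * B' ^ 2 := by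
    linear_combination (-(1 + (1 + τ * v * s) * B')) * hB + (v ^ 2 * τ ^ 2 * B' ^ 2 - τ ^ 2 * B' ^ 2) * hs2
  have ej' : t * (1 - v * t) * (1 - τ * t * s) * B' = t * (1 - v * t) * ((1 - τ ^ 2) * C') * B' := by
    have : 1 - τ * t * s = (1 - τ ^ 2) * C' := by
      rcases hs with rfl | rfl <;> rcases ht with rfl | rfl
      · linear_combination (-(1 - τ)) * hC
      · linear_combination (-(1 + τ)) * hC
      · linear_combination (-(1 + τ)) * hC
      · linear_combination (-(1 - τ)) * hC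
    rw [this]
  rw [ei, ej, ej', e1, e2]
  generalize (u + τ * t) * A' = mi
  generalize (v + τ * s) * B' = mj
  clear hA hB hC ei ej ej' e1 e2 e0 hA'' hB'' hC'' h1 h2 h3
  rcases hs with rfl | rfl <;> rcases ht with rfl | rfl <;> ring

/-- lower bound for the marginal weight -/
lemma marg {τ u v t c0 : ℝ} (hτ : |τ| < 1) (hu : |u| < 1) (hv : |v| < 1)
    (ht : t = 1 ∨ t = -1) (hc0 : 0 < c0) :
    c0 * ((1 - u ^ 2) * (1 - v ^ 2) * (1 - τ ^ 2) ^ 2) ≤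
      2 * (c0 * ((1 + u * 1) * (1 + v * t) * (1 + τ * 1 * t)) *
            (1 - ((u + τ * t) / (1 + τ * u * t)) ^ 2)
        + c0 * ((1 + u * (-1)) * (1 + v * t) * (1 + τ * (-1) * t)) *
            (1 - ((u + τ * t) / (1 + τ * u * t)) ^ 2)) := by
  have hp := pos_of_lt hτ hu ht
  have hu2 : 0 < 1 - u ^ 2 := by have := (sq_lt_one_iff_abs_lt_one u).2 hu; linarith
  have hτ2 : 0 < 1 - τ ^ 2 := by have := (sq_lt_one_iff_abs_lt_one τ).2 hτ; linarith
  have hτ3 : 1 - τ ^ 2 ≤ 1 := by nlinarith [sq_nonneg τ]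
  have hle2 : 1 + τ * u * t ≤ 2 := by
    have h : |τ * u * t| < 1 := by
      have h1 : |τ * u| < 1 := by
        rw [abs_mul]; nlinarith [abs_nonneg τ, abs_nonneg u]
      rcases ht with rfl | rfl
      · simpa using h1
      · simpa using h1
    have := (abs_lt.1 h).2
    linarith
  have hvt : 1 - v ^ 2 ≤ 2 * (1 + v * t) := by
    have h1 := (abs_lt.1 hv).1
    have h2 := (abs_lt.1 hv).2
    rcases ht with rfl | rfl <;> nlinarith
  have hvt0 : 0 ≤ 1 + v * t := by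
    have h1 := (abs_lt.1 hv).1
    have h2 := (abs_lt.1 hv).2
    rcases ht with rfl | rfl <;> linarith
  have ht2 : t ^ 2 = 1 := by rcases ht with rfl | rfl <;> norm_num
  have e : 2 * (c0 * ((1 + u * 1) * (1 + v * t) * (1 + τ * 1 * t)) *
            (1 - ((u + τ * t) / (1 + τ * u * t)) ^ 2)
        + c0 * ((1 + u * (-1)) * (1 + v * t) * (1 + τ * (-1) * t)) *
            (1 - ((u + τ * t) / (1 + τ * u * t)) ^ 2)) =
      (4 * c0 * (1 + v * t) * ((1 - u ^ 2) * (1 - τ ^ 2))) / (1 + τ * u * t) := by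
    have hne := hp.ne'
    have hA : (1 + τ * u * t) * (1 + τ * u * t)⁻¹ = 1 := mul_inv_cancel₀ hne
    simp only [div_eq_mul_inv]
    generalize (1 + τ * u * t)⁻¹ = A' at hA ⊢
    have e1 : 1 - ((u + τ * t) * A') ^ 2 = (1 - u ^ 2) * (1 - τ ^ 2) * A' ^ 2 := by
      linear_combination (-(1 + (1 + τ * u * t) * A')) * hA + (u ^ 2 * τ ^ 2 * A' ^ 2 - τ ^ 2 * A' ^ 2) * ht2
    rw [e1]
    linear_combination (4 * c0 * (1 + v * t) * ((1 - u ^ 2) * (1 - τ ^ 2)) * A') * hA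
  rw [e, le_div_iff₀ hp]
  have k0 : 0 ≤ c0 * ((1 - u ^ 2) * (1 - τ ^ 2)) := by positivity
  have k1 : (1 - v ^ 2) * (1 - τ ^ 2) * (1 + τ * u * t) ≤ 4 * (1 + v * t) := by
    have hv2 : 0 ≤ 1 - v ^ 2 := by have := (sq_lt_one_iff_abs_lt_one v).2 hv; linarith
    calc (1 - v ^ 2) * (1 - τ ^ 2) * (1 + τ * u * t) ≤ (1 - v ^ 2) * 1 * 2 := by
          apply mul_le_mul (mul_le_mul_of_nonneg_left hτ3 hv2) hle2 hp.le (by linarith)
      _ ≤ 4 * (1 + v * t) := by linarith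
  calc c0 * ((1 - u ^ 2) * (1 - v ^ 2) * (1 - τ ^ 2) ^ 2) * (1 + τ * u * t)
      = c0 * ((1 - u ^ 2) * (1 - τ ^ 2)) * ((1 - v ^ 2) * (1 - τ ^ 2) * (1 + τ * u * t)) := by ring
    _ ≤ c0 * ((1 - u ^ 2) * (1 - τ ^ 2)) * (4 * (1 + v * t)) := mul_le_mul_of_nonneg_left k1 k0
    _ = 4 * c0 * (1 + v * t) * ((1 - u ^ 2) * (1 - τ ^ 2)) := by ring

lemma exp_face (a b J s t : ℝ) (hs : s = 1 ∨ s = -1) (ht : t = 1 ∨ t = -1) :
    exp (a * s + b * t + J * s * t) = (cosh a * cosh b * cosh J) *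
      ((1 + tanh a * s) * (1 + tanh b * t) * (1 + tanh J * s * t)) := by
  have hst : s * t = 1 ∨ s * t = -1 := by
    rcases hs with rfl | rfl <;> rcases ht with rfl | rfl <;> norm_num
  rw [exp_add, exp_add, exp_sp a s hs, exp_sp b t ht, mul_assoc J s t, exp_sp J (s * t) hst]
  ring

lemma alg_R {P0 Q K x1 x2 y1 y2 f11 f12 f21 f22 : ℝ} (hP0 : 0 ≤ P0) (hQ : 0 ≤ Q)
    (hxy : x1 - x2 = y1 - y2)
    (h1 : Q * (x1 * y1) - K * ((x1 ^ 2 + y1 ^ 2) / 2) ≤ f11)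
    (h2 : -Q * (x2 * y1) - K * ((x2 ^ 2 + y1 ^ 2) / 2) ≤ f12)
    (h3 : -Q * (x1 * y2) - K * ((x1 ^ 2 + y2 ^ 2) / 2) ≤ f21)
    (h4 : Q * (x2 * y2) - K * ((x2 ^ 2 + y2 ^ 2) / 2) ≤ f22) :
    P0 * (-K * (x1 ^ 2 + x2 ^ 2 + (y1 ^ 2 + y2 ^ 2))) ≤
      P0 * f11 + P0 * f12 + (P0 * f21 + P0 * f22) := by
  rw [← mul_add, ← mul_add, ← mul_add]
  apply mul_le_mul_of_nonneg_left _ hP0
  have h5 : 0 ≤ Q * ((x1 - x2) * (y1 - y2)) := by
    rw [hxy]; exact mul_nonneg hQ (mul_self_nonneg _)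
  have e : Q * ((x1 - x2) * (y1 - y2)) = Q * (x1 * y1) + -Q * (x2 * y1) + (-Q * (x1 * y2))
    + Q * (x2 * y2) := by ring
  linarith

lemma alg_L {P0 x1 x2 y1 y2 w11 w12 w21 w22 m1 m2 n1 n2 : ℝ}
    (h1 : P0 * x1 ^ 2 ≤ 2 * (w11 * m1 + w21 * m1) * x1 ^ 2)
    (h2 : P0 * x2 ^ 2 ≤ 2 * (w12 * m2 + w22 * m2) * x2 ^ 2)
    (h3 : P0 * y1 ^ 2 ≤ 2 * (w11 * n1 + w12 * n1) * y1 ^ 2)
    (h4 : P0 * y2 ^ 2 ≤ 2 * (w21 * n2 + w22 * n2) * y2 ^ 2) :
    P0 * (x1 ^ 2 + x2 ^ 2 + (y1 ^ 2 + y2 ^ 2)) ≤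
      2 * (w11 * (m1 * x1 ^ 2 + n1 * y1 ^ 2) + w12 * (m2 * x2 ^ 2 + n1 * y1 ^ 2)
        + (w21 * (m1 * x1 ^ 2 + n2 * y2 ^ 2) + w22 * (m2 * x2 ^ 2 + n2 * y2 ^ 2))) := by
  have e : 2 * (w11 * (m1 * x1 ^ 2 + n1 * y1 ^ 2) + w12 * (m2 * x2 ^ 2 + n1 * y1 ^ 2)
        + (w21 * (m1 * x1 ^ 2 + n2 * y2 ^ 2) + w22 * (m2 * x2 ^ 2 + n2 * y2 ^ 2))) =
      2 * (w11 * m1 + w21 * m1) * x1 ^ 2 + 2 * (w12 * m2 + w22 * m2) * x2 ^ 2 +
      2 * (w11 * n1 + w12 * n1) * y1 ^ 2 + 2 * (w21 * n2 + w22 * n2) * y2 ^ 2 := by ring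
  rw [e]; linarith

lemma app_term {J τ u v s t X Y : ℝ} (hJ : |J| ≤ 1/10) (hτ : |τ| ≤ |J|)
    (hτJ : |τ - J| ≤ |J| ^ 3) (hu : |u| ≤ 1) (hv : |v| ≤ 1) (hs : s = 1 ∨ s = -1)
    (ht : t = 1 ∨ t = -1) :
    s * t * (1 + J * u * v + J ^ 2 * (2 - u ^ 2 - v ^ 2 + 2 * u ^ 2 * v ^ 2)) * (X * Y)
      - 400 * |J| ^ 3 * ((X ^ 2 + Y ^ 2) / 2) ≤ phi J τ u v s t * (X * Y) := by
  have h := phi_approx hJ hτ hτJ hu hv hs ht
  generalize (1 + J * u * v + J ^ 2 * (2 - u ^ 2 - v ^ 2 + 2 * u ^ 2 * v ^ 2)) = Q at h ⊢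
  generalize phi J τ u v s t = f at h ⊢
  have h2 : |(f - s * t * Q) * (X * Y)| ≤ 400 * |J| ^ 3 * ((X ^ 2 + Y ^ 2) / 2) := by
    rw [abs_mul]
    apply mul_le_mul h _ (abs_nonneg _) (by positivity)
    rw [abs_mul]
    have := sq_nonneg (|X| - |Y|)
    have e1 := sq_abs X; have e2 := sq_abs Y
    nlinarith
  have h3 := (abs_le.1 h2).1
  linarith

lemma Q_nonneg {J u v : ℝ} (hJ : |J| ≤ 1/10) (hu : |u| < 1) (hv : |v| < 1) :
    0 ≤ 1 + J * u * v + J ^ 2 * (2 - u ^ 2 - v ^ 2 + 2 * u ^ 2 * v ^ 2) := by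
  have hu2 : u ^ 2 < 1 := (sq_lt_one_iff_abs_lt_one u).2 hu
  have hv2 : v ^ 2 < 1 := (sq_lt_one_iff_abs_lt_one v).2 hv
  have h1 : |J * u * v| ≤ 1 := by
    rw [abs_mul, abs_mul]
    have : |J| * |u| ≤ 1 * 1 := mul_le_mul (by linarith) hu.le (abs_nonneg _) (by norm_num)
    calc |J| * |u| * |v| ≤ 1 * 1 := mul_le_mul (by linarith) hv.le (abs_nonneg _) (by norm_num)
      _ = 1 := by norm_num
  have h2 := (abs_le.1 h1).1
  have h3 : 0 ≤ J ^ 2 * (2 - u ^ 2 - v ^ 2 + 2 * u ^ 2 * v ^ 2) := by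
    apply mul_nonneg (sq_nonneg _)
    have : 0 ≤ u ^ 2 * v ^ 2 := by positivity
    nlinarith
  linarith

/-- the face inequality in terms of `±1` variables -/
lemma face_core (J a b : ℝ) (hJ : |J| ≤ 1/10) (x1 x2 y1 y2 : ℝ)
    (hxy : x1 - x2 = y1 - y2)
    (w : ℝ → ℝ → ℝ) (hw : w = fun s t => exp (a * s + b * t + J * s * t))
    (mi mj : ℝ → ℝ) (hmi : mi = fun t => tanh (a + J * t)) (hmj : mj = fun s => tanh (b + J * s))
    (R L : ℝ → ℝ → ℝ → ℝ → ℝ)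
    (hR : R = fun s t x y => w s t * ((s - mi t) * (t - mj s) * x * y
        + J * ((1 - mi t ^ 2) * x) * ((1 - mj s ^ 2) * y)
        + 2 * J ^ 2 * (mi t * (1 - mi t ^ 2) * x) * (mj s * (1 - mj s ^ 2) * y)))
    (hL : L = fun s t x y => w s t * ((1 - mi t ^ 2) * x ^ 2 + (1 - mj s ^ 2) * y ^ 2)) :
    -(800 * |J| ^ 3) * (L 1 1 x1 y1 + L 1 (-1) x2 y1 + (L (-1) 1 x1 y2 + L (-1) (-1) x2 y2)) ≤
      R 1 1 x1 y1 + R 1 (-1) x2 y1 + (R (-1) 1 x1 y2 + R (-1) (-1) x2 y2) := by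
  have p1 : (1:ℝ) = 1 ∨ (1:ℝ) = -1 := Or.inl rfl
  have m1 : (-1:ℝ) = 1 ∨ (-1:ℝ) = -1 := Or.inr rfl
  have hu : |tanh a| < 1 := abs_tanh_lt_one a
  have hv : |tanh b| < 1 := abs_tanh_lt_one b
  have hτ1 : |tanh J| < 1 := abs_tanh_lt_one J
  have hτ : |tanh J| ≤ |J| := abs_tanh_le J
  have hτJ : |tanh J - J| ≤ |J| ^ 3 := abs_tanh_sub J
  have hc0 : 0 < cosh a * cosh b * cosh J := by
    have := Real.cosh_pos a; have := Real.cosh_pos b; have := Real.cosh_pos J; positivity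
  have hwe : ∀ s t : ℝ, (s = 1 ∨ s = -1) → (t = 1 ∨ t = -1) →
      w s t = (cosh a * cosh b * cosh J) *
        ((1 + tanh a * s) * (1 + tanh b * t) * (1 + tanh J * s * t)) := by
    intro s t hs ht
    rw [hw]; exact exp_face a b J s t hs ht
  have hmie : ∀ t : ℝ, (t = 1 ∨ t = -1) →
      mi t = (tanh a + tanh J * t) / (1 + tanh J * tanh a * t) := by
    intro t ht; rw [hmi]; exact tanh_sp a J t ht
  have hmje : ∀ s : ℝ, (s = 1 ∨ s = -1) →
      mj s = (tanh b + tanh J * s) / (1 + tanh J * tanh b * s) := by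
    intro s hs; rw [hmj]; exact tanh_sp b J s hs
  generalize tanh a = u at *
  generalize tanh b = v at *
  generalize tanh J = τ at *
  generalize cosh a * cosh b * cosh J = c0 at *
  clear hw hmi hmj
  have hP0pos : 0 ≤ c0 * ((1 - u ^ 2) * (1 - v ^ 2) * (1 - τ ^ 2) ^ 2) := by
    have hu2 : 0 < 1 - u ^ 2 := by have := (sq_lt_one_iff_abs_lt_one u).2 hu; linarith
    have hv2 : 0 < 1 - v ^ 2 := by have := (sq_lt_one_iff_abs_lt_one v).2 hv; linarith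
    positivity
  have hRe : ∀ s t x y : ℝ, (s = 1 ∨ s = -1) → (t = 1 ∨ t = -1) →
      R s t x y = c0 * ((1 - u ^ 2) * (1 - v ^ 2) * (1 - τ ^ 2) ^ 2) *
        (phi J τ u v s t * (x * y)) := by
    intro s t x y hs ht
    have h : R s t x y = w s t * ((s - mi t) * (t - mj s) * x * y
        + J * ((1 - mi t ^ 2) * x) * ((1 - mj s ^ 2) * y)
        + 2 * J ^ 2 * (mi t * (1 - mi t ^ 2) * x) * (mj s * (1 - mj s ^ 2) * y)) := by rw [hR]
    rw [h, hwe s t hs ht, hmie t ht, hmje s hs]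
    exact term_eq hτ1 hu hv hs ht
  have hLe : ∀ s t x y : ℝ,
      L s t x y = w s t * ((1 - mi t ^ 2) * x ^ 2 + (1 - mj s ^ 2) * y ^ 2) := by
    intro s t x y; rw [hL]
  have hmx : ∀ t x : ℝ, (t = 1 ∨ t = -1) →
      c0 * ((1 - u ^ 2) * (1 - v ^ 2) * (1 - τ ^ 2) ^ 2) * x ^ 2 ≤
      2 * (w 1 t * (1 - mi t ^ 2) + w (-1) t * (1 - mi t ^ 2)) * x ^ 2 := by
    intro t x ht
    apply mul_le_mul_of_nonneg_right _ (sq_nonneg _)
    rw [hwe 1 t p1 ht, hwe (-1) t m1 ht, hmie t ht]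
    exact marg hτ1 hu hv ht hc0
  have hmy : ∀ s y : ℝ, (s = 1 ∨ s = -1) →
      c0 * ((1 - u ^ 2) * (1 - v ^ 2) * (1 - τ ^ 2) ^ 2) * y ^ 2 ≤
      2 * (w s 1 * (1 - mj s ^ 2) + w s (-1) * (1 - mj s ^ 2)) * y ^ 2 := by
    intro s y hs
    apply mul_le_mul_of_nonneg_right _ (sq_nonneg _)
    rw [hwe s 1 hs p1, hwe s (-1) hs m1, hmje s hs]
    have h := marg (c0 := c0) hτ1 hv hu hs hc0
    have e1 : (1 - v ^ 2) * (1 - u ^ 2) * (1 - τ ^ 2) ^ 2 =
      (1 - u ^ 2) * (1 - v ^ 2) * (1 - τ ^ 2) ^ 2 := by ring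
    rw [e1] at h
    refine h.trans (le_of_eq ?_)
    ring
  have hQ := Q_nonneg hJ hu hv
  have a11 := app_term (X := x1) (Y := y1) hJ hτ hτJ hu.le hv.le p1 p1
  have a12 := app_term (X := x2) (Y := y1) hJ hτ hτJ hu.le hv.le p1 m1
  have a21 := app_term (X := x1) (Y := y2) hJ hτ hτJ hu.le hv.le m1 p1
  have a22 := app_term (X := x2) (Y := y2) hJ hτ hτJ hu.le hv.le m1 m1
  rw [hRe 1 1 x1 y1 p1 p1, hRe 1 (-1) x2 y1 p1 m1, hRe (-1) 1 x1 y2 m1 p1,
    hRe (-1) (-1) x2 y2 m1 m1]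
  rw [hLe, hLe, hLe, hLe]
  generalize 1 + J * u * v + J ^ 2 * (2 - u ^ 2 - v ^ 2 + 2 * u ^ 2 * v ^ 2) = Q at *
  generalize phi J τ u v 1 1 = f11 at *
  generalize phi J τ u v 1 (-1) = f12 at *
  generalize phi J τ u v (-1) 1 = f21 at *
  generalize phi J τ u v (-1) (-1) = f22 at *
  generalize c0 * ((1 - u ^ 2) * (1 - v ^ 2) * (1 - τ ^ 2) ^ 2) = P0 at *
  have HR := alg_R (K := 400 * |J| ^ 3) (f11 := f11 * (x1 * y1)) (f12 := f12 * (x2 * y1))
    (f21 := f21 * (x1 * y2)) (f22 := f22 * (x2 * y2)) hP0pos hQ hxy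
    (by linarith) (by linarith) (by linarith) (by linarith)
  have HL := alg_L (hmx 1 x1 p1) (hmx (-1) x2 m1) (hmy 1 y1 p1) (hmy (-1) y2 m1)
  have hJ3 : 0 ≤ 400 * |J| ^ 3 := by positivity
  have HL' := mul_le_mul_of_nonneg_left HL hJ3
  refine le_trans ?_ HR
  generalize (w 1 1 * ((1 - mi 1 ^ 2) * x1 ^ 2 + (1 - mj 1 ^ 2) * y1 ^ 2) +
          w 1 (-1) * ((1 - mi (-1) ^ 2) * x2 ^ 2 + (1 - mj 1 ^ 2) * y1 ^ 2) +
        (w (-1) 1 * ((1 - mi 1 ^ 2) * x1 ^ 2 + (1 - mj (-1) ^ 2) * y2 ^ 2) +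
          w (-1) (-1) * ((1 - mi (-1) ^ 2) * x2 ^ 2 + (1 - mj (-1) ^ 2) * y2 ^ 2))) = LL at *
  linarith

end FaceAux

open FaceAux in
theorem face_ineq : ∃ C : ℝ, 0 < C ∧ ∀ (J a b : ℝ), |J| ≤ 1/10 → ∀ F : Bool → Bool → ℝ,
    -(C * |J| ^ 3) * ∑ s : Bool, ∑ t : Bool,
      Real.exp (a * sp s + b * sp t + J * sp s * sp t) *
      ((1 - Real.tanh (a + J * sp t) ^ 2) * ((F true t - F false t) / 2) ^ 2
       + (1 - Real.tanh (b + J * sp s) ^ 2) * ((F s true - F s false) / 2) ^ 2)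
    ≤ ∑ s : Bool, ∑ t : Bool,
      Real.exp (a * sp s + b * sp t + J * sp s * sp t) *
      ((sp s - Real.tanh (a + J * sp t)) * (sp t - Real.tanh (b + J * sp s))
          * ((F true t - F false t) / 2) * ((F s true - F s false) / 2)
        + J * ((1 - Real.tanh (a + J * sp t) ^ 2) * ((F true t - F false t) / 2))
            * ((1 - Real.tanh (b + J * sp s) ^ 2) * ((F s true - F s false) / 2))
        + 2 * J ^ 2
            * (Real.tanh (a + J * sp t) * (1 - Real.tanh (a + J * sp t) ^ 2)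
                * ((F true t - F false t) / 2))
            * (Real.tanh (b + J * sp s) * (1 - Real.tanh (b + J * sp s) ^ 2)
                * ((F s true - F s false) / 2))) := by
  refine ⟨800, by norm_num, ?_⟩
  intro J a b hJ F
  have key := face_core J a b hJ
    ((F true true - F false true) / 2) ((F true false - F false false) / 2)
    ((F true true - F true false) / 2) ((F false true - F false false) / 2)
    (by ring) _ rfl _ _ rfl rfl _ _ rfl rfl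
  simp only [Fintype.sum_bool, sp, if_true, Bool.false_eq_true, if_false]
  exact key

end

end P150
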