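import Vale.Agent.P150.Defs

/-!
# Gaussian tail bounds (helper file for P150)
-/

open MeasureTheory ProbabilityTheory Filter Topology

namespace P150

noncomputable section

namespace TailAux

theorem exp_sq (s : ℝ) (hs : s < 1 / 2) :
    ∫ x, Real.exp (s * x ^ 2) ∂(gaussianReal 0 1) = (Real.sqrt (1 - 2 * s))⁻¹ := by
  rw [integral_gaussianReal_eq_integral_smul one_ne_zero]
  have h : ∀ x : ℝ, gaussianPDFReal 0 1 x • Real.exp (s * x ^ 2) =
      (Real.sqrt (2 * Real.pi))⁻¹ * Real.exp (-(1 / 2 - s) * x ^ 2) := by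
    intro x
    rw [gaussianPDFReal_def, smul_eq_mul]
    simp only [NNReal.coe_one, mul_one, sub_zero]
    rw [mul_assoc, ← Real.exp_add]
    congr 2
    ring
  simp only [h]
  rw [integral_const_mul, integral_gaussian]
  have h1 : (0 : ℝ) < 1 - 2 * s := by linarith
  have e : Real.pi / (1 / 2 - s) = (2 * Real.pi) / (1 - 2 * s) := by
    have : (1 / 2 - s : ℝ) ≠ 0 := by linarith
    field_simp
  rw [e, Real.sqrt_div (by positivity)]
  have h2 : Real.sqrt (2 * Real.pi) ≠ 0 := by positivity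
  have h3 : Real.sqrt (1 - 2 * s) ≠ 0 := (Real.sqrt_pos.2 h1).ne'
  field_simp

theorem integrable_exp_sq (s : ℝ) (hs : s < 1 / 2) :
    Integrable (fun x : ℝ => Real.exp (s * x ^ 2)) (gaussianReal 0 1) := by
  refine Integrable.of_integral_ne_zero ?_
  rw [exp_sq s hs]
  have h1 : (0 : ℝ) < 1 - 2 * s := by linarith
  exact (inv_pos.2 (Real.sqrt_pos.2 h1)).ne'

theorem chern {κ : Type} [Fintype κ] [DecidableEq κ] (S : Finset κ) (s a : ℝ) (hs0 : 0 ≤ s)
    (hs : s < 1 / 2) :
    (Measure.pi fun _ : κ => gaussianReal 0 1) {z | a ≤ ∑ k ∈ S, z k ^ 2} ≤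
      ENNReal.ofReal (Real.exp (-(s * a)) * ((Real.sqrt (1 - 2 * s))⁻¹) ^ S.card) := by
  set μ := (Measure.pi fun _ : κ => gaussianReal 0 1) with hμ
  set f : (κ → ℝ) → ℝ := fun z => ∏ k, (if k ∈ S then Real.exp (s * z k ^ 2) else 1) with hf
  have hfe : ∀ z, f z = Real.exp (s * ∑ k ∈ S, z k ^ 2) := by
    intro z
    rw [hf]
    beta_reduce
    rw [Finset.prod_ite_mem, Finset.univ_inter, ← Real.exp_sum, Finset.mul_sum]
  have hI : ∫ z, f z ∂μ = ((Real.sqrt (1 - 2 * s))⁻¹) ^ S.card := by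
    rw [hf, hμ]
    rw [integral_fintype_prod_eq_prod (𝕜 := ℝ) (fun k x => if k ∈ S then Real.exp (s * x ^ 2) else 1)]
    have : ∀ k : κ, ∫ x, (if k ∈ S then Real.exp (s * x ^ 2) else 1) ∂(gaussianReal 0 1) =
        if k ∈ S then (Real.sqrt (1 - 2 * s))⁻¹ else 1 := by
      intro k
      by_cases hk : k ∈ S
      · simp only [if_pos hk]
        exact exp_sq s hs
      · simp only [if_neg hk]
        simp
    simp only [this]
    rw [Finset.prod_ite_mem, Finset.univ_inter, Finset.prod_const]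
  have h1 : (0 : ℝ) < 1 - 2 * s := by linarith
  have hfi : Integrable f μ := by
    refine Integrable.of_integral_ne_zero ?_
    rw [hI]
    exact (pow_pos (inv_pos.2 (Real.sqrt_pos.2 h1)) _).ne'
  have hm := mul_meas_ge_le_integral_of_nonneg (μ := μ) (f := f)
    (Eventually.of_forall (fun z => by rw [hfe]; exact (Real.exp_pos _).le)) hfi (Real.exp (s * a))
  have hsub : {z : κ → ℝ | a ≤ ∑ k ∈ S, z k ^ 2} ⊆ {z | Real.exp (s * a) ≤ f z} := by
    intro z hz
    rw [Set.mem_ofPred_eq] at hz ⊢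
    rw [hfe, Real.exp_le_exp]
    exact mul_le_mul_of_nonneg_left hz hs0
  refine (measure_mono hsub).trans ?_
  rw [hI] at hm
  have hm2 : μ.real {z | Real.exp (s * a) ≤ f z} ≤
      Real.exp (-(s * a)) * ((Real.sqrt (1 - 2 * s))⁻¹) ^ S.card := by
    rw [Real.exp_neg]
    rw [inv_mul_eq_div, le_div_iff₀ (Real.exp_pos _), mul_comm]
    exact hm
  rw [← ENNReal.ofReal_toReal (measure_ne_top μ {z | Real.exp (s * a) ≤ f z})]
  exact ENNReal.ofReal_le_ofReal hm2

theorem tendsto_one {Ω : ℕ → Type} [∀ n, MeasurableSpace (Ω n)] (μ : ∀ n, Measure (Ω n))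
    [∀ n, IsProbabilityMeasure (μ n)] (A : ∀ n, Set (Ω n)) (r : ℕ → ℝ)
    (hr : Tendsto r atTop (𝓝 0))
    (h : ∀ᶠ n in atTop, μ n (A n)ᶜ ≤ ENNReal.ofReal (r n)) :
    Tendsto (fun n => μ n (A n)) atTop (𝓝 1) := by
  have h1 : Tendsto (fun n => 1 - ENNReal.ofReal (r n)) atTop (𝓝 1) := by
    have := ENNReal.Tendsto.sub (tendsto_const_nhds (x := (1 : ENNReal)) (f := atTop (α := ℕ)))
      (ENNReal.tendsto_ofReal hr) (Or.inl ENNReal.one_ne_top)
    simpa using this
  refine tendsto_of_tendsto_of_tendsto_of_le_of_le' h1 tendsto_const_nhds ?_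
    (Eventually.of_forall (fun n => prob_le_one))
  filter_upwards [h] with n hn
  rw [tsub_le_iff_right]
  calc (1 : ENNReal) = μ n Set.univ := measure_univ.symm
    _ = μ n (A n ∪ (A n)ᶜ) := by rw [Set.union_compl_self]
    _ ≤ μ n (A n) + μ n (A n)ᶜ := measure_union_le _ _
    _ ≤ μ n (A n) + ENNReal.ofReal (r n) := by gcongr

end TailAux

open TailAux

theorem gauss_exp_sq : ∫ x, Real.exp (x ^ 2 / 4) ∂(gaussianReal 0 1) = Real.sqrt 2 := by
  have h := exp_sq (1 / 4) (by norm_num)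
  have e : (fun x : ℝ => Real.exp (x ^ 2 / 4)) = fun x => Real.exp (1 / 4 * x ^ 2) := by
    funext x
    congr 1
    ring
  rw [e, h, ← Real.sqrt_inv]
  norm_num

/-- the norm of a standard Gaussian vector -/
theorem gauss_norm (ε : ℝ) (hε : 0 < ε) :
    Tendsto (fun n : ℕ => (Measure.pi fun _ : Fin n => gaussianReal 0 1)
      {z | ∑ i, z i ^ 2 ≤ (1 + ε) * n}) atTop (𝓝 1) := by
  set s : ℝ := ε / (4 * (1 + ε)) with hs
  have hs0 : 0 ≤ s := by positivity
  have hs1 : s < 1 / 2 := by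
    rw [hs, div_lt_iff₀ (by positivity)]
    linarith
  have hse : s * (1 + ε) = ε / 4 := by
    rw [hs]
    field_simp
  set ρ : ℝ := Real.exp (-(s * (1 + ε))) * (Real.sqrt (1 - 2 * s))⁻¹ with hρ
  have h1 : (0 : ℝ) < 1 - 2 * s := by linarith
  have hρ0 : 0 ≤ ρ := by positivity
  have hρ1 : ρ < 1 := by
    rw [hρ, ← div_eq_mul_inv, div_lt_one (Real.sqrt_pos.2 h1), Real.lt_sqrt (Real.exp_pos _).le,
      ← Real.exp_nat_mul, hse]
    have hexp : 1 + ε / 2 < Real.exp (ε / 2) := by
      have := Real.add_one_lt_exp (x := ε / 2) (by positivity)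
      linarith
    have e1 : Real.exp ((2 : ℕ) * -(ε / 4)) = (Real.exp (ε / 2))⁻¹ := by
      rw [← Real.exp_neg]
      congr 1
      push_cast
      ring
    rw [e1]
    have e2 : 1 - 2 * s = (2 + ε) / (2 * (1 + ε)) := by
      rw [hs]
      field_simp
      ring
    rw [e2]
    calc (Real.exp (ε / 2))⁻¹ < (1 + ε / 2)⁻¹ := by
          exact inv_strictAnti₀ (by positivity) hexp
      _ ≤ (2 + ε) / (2 * (1 + ε)) := by
          rw [inv_eq_one_div, div_le_div_iff₀ (by positivity) (by positivity)]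
          nlinarith [sq_nonneg ε]
  refine tendsto_one (fun n => (Measure.pi fun _ : Fin n => gaussianReal 0 1)) _ (fun n => ρ ^ n)
    (tendsto_pow_atTop_nhds_zero_of_lt_one hρ0 hρ1) ?_
  filter_upwards with n
  have hc := chern (Finset.univ : Finset (Fin n)) s ((1 + ε) * n) hs0 hs1
  refine (measure_mono ?_).trans (hc.trans ?_)
  · intro z hz
    rw [Set.mem_compl_iff, Set.mem_ofPred_eq, not_le] at hz
    exact hz.le
  · refine ENNReal.ofReal_le_ofReal (le_of_eq ?_)
    rw [hρ, mul_pow, ← Real.exp_nat_mul, Finset.card_univ, Fintype.card_fin]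
    congr 2
    ring

theorem g_entries (ε : ℝ) (hε : 0 < ε) :
    Tendsto (fun n : ℕ => disorder n {g | ∀ p : Fin n × Fin n, |g p| ≤ ε * Real.sqrt n})
      atTop (𝓝 1) := by
  have : ∀ n, IsProbabilityMeasure (disorder n) := fun n => by unfold disorder; infer_instance
  set q : ℝ := Real.exp (-(ε ^ 2 / 4)) with hq
  have hq1 : |q| < 1 := by
    rw [hq, abs_of_pos (Real.exp_pos _)]
    rw [Real.exp_lt_one_iff]
    have : 0 < ε ^ 2 / 4 := by positivity
    linarith
  refine tendsto_one (fun n => disorder n) _ (fun n => Real.sqrt 2 * ((n : ℝ) ^ 2 * q ^ n)) ?_ ?_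
  · have := (tendsto_pow_const_mul_const_pow_of_abs_lt_one 2 hq1).const_mul (Real.sqrt 2)
    simpa using this
  · filter_upwards with n
    have hsub : {g : Fin n × Fin n → ℝ | ∀ p : Fin n × Fin n, |g p| ≤ ε * Real.sqrt n}ᶜ ⊆
        ⋃ p ∈ (Finset.univ : Finset (Fin n × Fin n)),
          {g : Fin n × Fin n → ℝ | ε ^ 2 * n ≤ ∑ k ∈ {p}, g k ^ 2} := by
      intro g hg
      rw [Set.mem_compl_iff, Set.mem_ofPred_eq] at hg
      push Not at hg
      obtain ⟨p, hp⟩ := hg
      simp only [Set.mem_iUnion]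
      refine ⟨p, Finset.mem_univ p, ?_⟩
      rw [Set.mem_ofPred_eq, Finset.sum_singleton, ← sq_abs (g p)]
      calc ε ^ 2 * n = (ε * Real.sqrt n) ^ 2 := by
            rw [mul_pow, Real.sq_sqrt (Nat.cast_nonneg n)]
        _ ≤ |g p| ^ 2 := by
            exact pow_le_pow_left₀ (by positivity) hp.le 2
    refine (measure_mono hsub).trans ((measure_biUnion_finset_le _ _).trans ?_)
    have hb : ∀ p ∈ (Finset.univ : Finset (Fin n × Fin n)),
        disorder n {g : Fin n × Fin n → ℝ | ε ^ 2 * n ≤ ∑ k ∈ {p}, g k ^ 2} ≤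
          ENNReal.ofReal (Real.sqrt 2 * q ^ n) := by
      intro p _
      have hc := chern ({p} : Finset (Fin n × Fin n)) (1 / 4) (ε ^ 2 * n) (by norm_num) (by norm_num)
      refine hc.trans (ENNReal.ofReal_le_ofReal (le_of_eq ?_))
      rw [Finset.card_singleton, pow_one, ← Real.sqrt_inv, hq, ← Real.exp_nat_mul, mul_comm]
      congr 2
      · norm_num
      · ring
    refine (Finset.sum_le_sum hb).trans ?_
    rw [Finset.sum_const, Finset.card_univ, Fintype.card_prod, Fintype.card_fin, nsmul_eq_mul,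
      ← ENNReal.ofReal_natCast, ← ENNReal.ofReal_mul (Nat.cast_nonneg _)]
    refine ENNReal.ofReal_le_ofReal (le_of_eq ?_)
    push_cast
    ring

theorem sk_entries (β δ : ℝ) (hδ : 0 < δ) :
    Tendsto (fun n : ℕ => disorder n {g | ∀ i j : Fin n, |SKJ β g i j| ≤ δ})
      atTop (𝓝 1) := by
  have : ∀ n, IsProbabilityMeasure (disorder n) := fun n => by unfold disorder; infer_instance
  have hε : 0 < δ / (|β| + 1) := by positivity
  refine tendsto_of_tendsto_of_tendsto_of_le_of_le (g_entries _ hε) tendsto_const_nhds ?_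
    (fun n => prob_le_one)
  intro n
  refine measure_mono ?_
  intro g hg i j
  have hn : 0 < n := i.pos
  have hsn : 0 < Real.sqrt n := Real.sqrt_pos.2 (Nat.cast_pos.2 hn)
  unfold SKJ
  split_ifs with hij
  · rw [abs_zero]
    exact hδ.le
  · have hc : |cpl g i j| ≤ δ / (|β| + 1) * Real.sqrt n := by
      unfold cpl
      split_ifs
      · exact hg _
      · exact hg _
    rw [abs_mul, abs_div, abs_of_pos hsn]
    calc |β| / Real.sqrt n * |cpl g i j| ≤ |β| / Real.sqrt n * (δ / (|β| + 1) * Real.sqrt n) := by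
          exact mul_le_mul_of_nonneg_left hc (by positivity)
      _ = |β| / (|β| + 1) * δ := by
          field_simp
      _ ≤ 1 * δ := by
          refine mul_le_mul_of_nonneg_right ?_ hδ.le
          rw [div_le_one (by positivity)]
          linarith
      _ = δ := one_mul δ

theorem sk_rows (β : ℝ) (hβ : 0 ≤ β) (hβ' : β ≤ 1/2) :
    Tendsto (fun n : ℕ => disorder n {g | ∀ i : Fin n, ∑ j, SKJ β g i j ^ 2 ≤ β})
      atTop (𝓝 1) := by
  have : ∀ n, IsProbabilityMeasure (disorder n) := fun n => by unfold disorder; infer_instance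
  set q : ℝ := Real.sqrt 2 * Real.exp (-(1 / 2)) with hq
  have hq0 : 0 < q := by positivity
  have hq1 : |q| < 1 := by
    rw [abs_of_pos hq0, hq, Real.exp_neg, ← div_eq_mul_inv, div_lt_one (Real.exp_pos _),
      Real.sqrt_lt' (Real.exp_pos _), ← Real.exp_nat_mul]
    have := Real.exp_one_gt_d9
    have e : ((2 : ℕ) : ℝ) * (1 / 2) = 1 := by norm_num
    rw [e]
    linarith
  refine tendsto_one (fun n => disorder n) _ (fun n => (n : ℝ) ^ 1 * q ^ n)
    (tendsto_pow_const_mul_const_pow_of_abs_lt_one 1 hq1) ?_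
  filter_upwards with n
  set σ : Fin n → Fin n → Fin n × Fin n := fun i j => if i < j then (i, j) else (j, i) with hσ
  have hσinj : ∀ i : Fin n, Set.InjOn (σ i) ((Finset.univ.erase i : Finset (Fin n)) : Set (Fin n)) := by
    intro i j hj j' hj' h
    have h1 : j ≠ i := Finset.ne_of_mem_erase hj
    have h2 : j' ≠ i := Finset.ne_of_mem_erase hj'
    simp only [hσ] at h
    split_ifs at h with c1 c2 c2
    · exact (Prod.mk.inj h).2
    · exact absurd (Prod.mk.inj h).2 h1
    · exact absurd (Prod.mk.inj h).1 h1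
    · exact (Prod.mk.inj h).1
  have hsub : {g : Fin n × Fin n → ℝ | ∀ i : Fin n, ∑ j, SKJ β g i j ^ 2 ≤ β}ᶜ ⊆
      ⋃ i ∈ (Finset.univ : Finset (Fin n)),
        {g : Fin n × Fin n → ℝ | (2 : ℝ) * n ≤ ∑ k ∈ (Finset.univ.erase i).image (σ i), g k ^ 2} := by
    intro g hg
    rw [Set.mem_compl_iff, Set.mem_ofPred_eq] at hg
    push Not at hg
    obtain ⟨i, hi⟩ := hg
    simp only [Set.mem_iUnion]
    refine ⟨i, Finset.mem_univ i, ?_⟩
    rw [Set.mem_ofPred_eq]
    by_contra hcon
    push Not at hcon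
    rw [Finset.sum_image (hσinj i)] at hcon
    have hn : (0 : ℝ) < n := Nat.cast_pos.2 i.pos
    have hsum : ∑ j, SKJ β g i j ^ 2 = β ^ 2 / n * ∑ j ∈ Finset.univ.erase i, g (σ i j) ^ 2 := by
      rw [← Finset.add_sum_erase Finset.univ _ (Finset.mem_univ i), Finset.mul_sum]
      have e0 : SKJ β g i i ^ 2 = 0 := by
        unfold SKJ
        rw [if_pos rfl]
        norm_num
      rw [e0, zero_add]
      refine Finset.sum_congr rfl (fun j hj => ?_)
      have hji : i ≠ j := (Finset.ne_of_mem_erase hj).symm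
      unfold SKJ
      rw [if_neg hji, mul_pow, div_pow, Real.sq_sqrt hn.le]
      congr 2
      simp only [hσ, cpl]
      split_ifs <;> rfl
    rw [hsum] at hi
    have : β ^ 2 / n * ∑ j ∈ Finset.univ.erase i, g (σ i j) ^ 2 ≤ β ^ 2 / n * (2 * n) :=
      mul_le_mul_of_nonneg_left hcon.le (by positivity)
    have e2 : β ^ 2 / n * (2 * n) = 2 * β ^ 2 := by
      field_simp
    nlinarith
  refine (measure_mono hsub).trans ((measure_biUnion_finset_le _ _).trans ?_)
  have hb : ∀ i ∈ (Finset.univ : Finset (Fin n)),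
      disorder n {g : Fin n × Fin n → ℝ | (2 : ℝ) * n ≤
        ∑ k ∈ (Finset.univ.erase i).image (σ i), g k ^ 2} ≤ ENNReal.ofReal (q ^ n) := by
    intro i _
    have hc := chern ((Finset.univ.erase i).image (σ i)) (1 / 4) (2 * n) (by norm_num) (by norm_num)
    refine hc.trans (ENNReal.ofReal_le_ofReal ?_)
    have e1 : (Real.sqrt (1 - 2 * (1 / 4)))⁻¹ = Real.sqrt 2 := by
      rw [← Real.sqrt_inv]
      norm_num
    rw [e1, hq, mul_pow, ← Real.exp_nat_mul, mul_comm]
    refine mul_le_mul ?_ (le_of_eq ?_) (Real.exp_pos _).le (by positivity)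
    · refine pow_le_pow_right₀ ?_ ?_
      · rw [Real.one_le_sqrt]
        norm_num
      · refine Finset.card_image_le.trans ?_
        rw [Finset.card_erase_of_mem (Finset.mem_univ i), Finset.card_univ, Fintype.card_fin]
        exact Nat.sub_le _ _
    · congr 1
      ring
  refine (Finset.sum_le_sum hb).trans ?_
  rw [Finset.sum_const, Finset.card_univ, Fintype.card_fin, nsmul_eq_mul,
    ← ENNReal.ofReal_natCast, ← ENNReal.ofReal_mul (Nat.cast_nonneg _), pow_one]

end

end P150
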