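import Vale.Agent.P150.Good
import Vale.Agent.P150.Ate
import Vale.Agent.P150.EntDecay
import Vale.Agent.P150.Bridge

/-!
# P150 [W]: `Good` for every `β ≥ 0`; the mixing time is finite
-/

open MeasureTheory ProbabilityTheory Filter Topology

namespace P150

noncomputable section

namespace Good2Aux

theorem SKJ_scale {n : ℕ} (β : ℝ) (g : Fin n × Fin n → ℝ) (i j : Fin n) :
    SKJ β g i j = 2 * β * SKJ (1 / 2) g i j := by
  unfold SKJ
  by_cases h : i = j
  · rw [if_pos h, if_pos h, mul_zero]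
  · rw [if_neg h, if_neg h]
    ring

theorem sk_rows_all (β : ℝ) :
    Tendsto (fun n : ℕ => disorder n {g | ∀ i : Fin n, ∑ j, SKJ β g i j ^ 2 ≤ 2 * β ^ 2})
      atTop (𝓝 1) := by
  have hpr : ∀ n, IsProbabilityMeasure (disorder n) := fun n => by unfold disorder; infer_instance
  refine tendsto_of_tendsto_of_tendsto_of_le_of_le (sk_rows (1 / 2) (by norm_num) (le_refl _))
    tendsto_const_nhds ?_ (fun n => prob_le_one)
  intro n
  refine measure_mono ?_
  intro g hg i
  have h1 := hg i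
  have h2 : ∑ j, SKJ β g i j ^ 2 = 4 * β ^ 2 * ∑ j, SKJ (1 / 2) g i j ^ 2 := by
    rw [Finset.mul_sum]
    refine Finset.sum_congr rfl fun j _ => ?_
    rw [SKJ_scale β g i j]
    ring
  rw [h2]
  nlinarith [sq_nonneg β]

section ising
variable {ι : Type} [Fintype ι] [DecidableEq ι]

theorem abs_quad (J : ι → ι → ℝ) (y : ι → ℝ) :
    |∑ i, ∑ j, J i j * y i * y j| ≤ (1 + ∑ i, ∑ j, |J i j|) * ∑ i, y i ^ 2 := by
  set S := ∑ i, y i ^ 2 with hS
  have hS0 : 0 ≤ S := Finset.sum_nonneg fun i _ => sq_nonneg _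
  have hy : ∀ i, y i ^ 2 ≤ S := fun i =>
    Finset.single_le_sum (f := fun i => y i ^ 2) (fun i _ => sq_nonneg _) (Finset.mem_univ i)
  have hyy : ∀ i j, |y i| * |y j| ≤ S := by
    intro i j
    have h1 := hy i
    have h2 := hy j
    rw [← sq_abs] at h1 h2
    nlinarith [sq_nonneg (|y i| - |y j|)]
  calc |∑ i, ∑ j, J i j * y i * y j| ≤ ∑ i, |∑ j, J i j * y i * y j| :=
        Finset.abs_sum_le_sum_abs _ _
    _ ≤ ∑ i, ∑ j, |J i j * y i * y j| :=
        Finset.sum_le_sum fun i _ => Finset.abs_sum_le_sum_abs _ _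
    _ ≤ ∑ i, ∑ j, |J i j| * S := by
        refine Finset.sum_le_sum fun i _ => Finset.sum_le_sum fun j _ => ?_
        rw [abs_mul, abs_mul, mul_assoc]
        exact mul_le_mul_of_nonneg_left (hyy i j) (abs_nonneg _)
    _ = (∑ i, ∑ j, |J i j|) * S := by simp only [Finset.sum_mul]
    _ ≤ _ := by nlinarith

theorem vr_le (J : ι → ι → ℝ) (h : ι → ℝ) (f : (ι → Bool) → ℝ) (C : ℝ)
    (hf : ∀ x, f x ^ 2 ≤ C) : vr J h f ≤ C := by
  have hZ := Zf_pos J h
  have h1 : vr J h f = (∑ x, wt J h x * f x ^ 2) / Zf J h - ev J h f ^ 2 := by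
    unfold vr
    set m := ev J h f with hm
    have hm' : ∑ x, wt J h x * f x = m * Zf J h := by
      rw [hm]
      unfold ev
      field_simp
    unfold ev
    have h2 : ∑ x, wt J h x * (f x - m) ^ 2 =
        ∑ x, wt J h x * f x ^ 2 - 2 * m * ∑ x, wt J h x * f x + m ^ 2 * ∑ x, wt J h x := by
      rw [Finset.mul_sum, Finset.mul_sum, ← Finset.sum_sub_distrib, ← Finset.sum_add_distrib]
      exact Finset.sum_congr rfl fun x _ => by ring
    have h3 : ∑ x, wt J h x = Zf J h := rfl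
    rw [h2, hm', h3]
    field_simp
    ring
  rw [h1]
  have h2 : (∑ x, wt J h x * f x ^ 2) / Zf J h ≤ C := by
    rw [div_le_iff₀ hZ]
    unfold Zf
    rw [Finset.mul_sum]
    refine Finset.sum_le_sum fun x _ => ?_
    rw [mul_comm C]
    exact mul_le_mul_of_nonneg_left (hf x) (wt_pos J h x).le
  nlinarith [sq_nonneg (ev J h f)]

theorem lin_sq (a : ι → ℝ) (x : ι → Bool) :
    (∑ i, a i * sp (x i)) ^ 2 ≤ (Fintype.card ι + 1) * ∑ i, a i ^ 2 := by
  have h1 := sq_sum_le_card_mul_sum_sq (s := (Finset.univ : Finset ι))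
    (f := fun i => a i * sp (x i))
  have h2 : ∑ i, (a i * sp (x i)) ^ 2 = ∑ i, a i ^ 2 := by
    refine Finset.sum_congr rfl fun i _ => ?_
    rw [mul_pow, sp_sq, mul_one]
  rw [h2, Finset.card_univ] at h1
  have h3 : 0 ≤ ∑ i, a i ^ 2 := Finset.sum_nonneg fun i _ => sq_nonneg _
  linarith

/-- the kernel converges to the Gibbs measure -/
theorem exists_mix (J : ι → ι → ℝ) (hs : ∀ i j, J i j = J j i) (hd : ∀ i, J i i = 0)
    (h : ι → ℝ) : ∃ t : ℝ, 0 ≤ t ∧ ∀ x, (∑ y, |Pt J h t x y - wt J h y / Zf J h|) / 2 ≤ 1 / 4 := by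
  set M : ℝ := 1 + ∑ i, ∑ j, |J i j| with hM
  have hM0 : 0 < M := by
    have : 0 ≤ ∑ i, ∑ j, |J i j| :=
      Finset.sum_nonneg fun i _ => Finset.sum_nonneg fun j _ => abs_nonneg _
    linarith
  set K : ℝ := (Fintype.card ι : ℝ) + 1 with hK
  have hK0 : 0 < K := by positivity
  set CA : ℝ := Real.exp (2 * M * K) with hCA
  have hCA0 : 0 < CA := Real.exp_pos _
  have hate : ∀ f : (ι → Bool) → ℝ, (∀ x, 0 < f x) →
      entW Finset.univ (wt J h) f ≤ CA * entSum (wt J h) f := by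
    intro f hf
    refine ate J hs hd M K hM0 hK0 (fun y => (abs_le.1 (abs_quad J y)).2)
      (fun y => (abs_le.1 (abs_quad J y)).1) ?_ h f hf
    intro t _ y a
    exact vr_le _ _ _ _ fun x => lin_sq a x
  set L : ℝ := ∑ x, Real.log (Zf J h / wt J h x) with hL
  have hlog : ∀ x, 0 ≤ Real.log (Zf J h / wt J h x) := by
    intro x
    refine Real.log_nonneg ?_
    rw [le_div_iff₀ (wt_pos J h x), one_mul]
    exact Finset.single_le_sum (f := fun x => wt J h x) (fun x _ => (wt_pos J h x).le)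
      (Finset.mem_univ x)
  have hL0 : 0 ≤ L := Finset.sum_nonneg fun x _ => hlog x
  have hLx : ∀ x, Real.log (Zf J h / wt J h x) ≤ L := fun x =>
    Finset.single_le_sum (f := fun x => Real.log (Zf J h / wt J h x)) (fun x _ => hlog x)
      (Finset.mem_univ x)
  have hl0 : 0 ≤ Real.log (64 * (L + 1)) := Real.log_nonneg (by linarith)
  refine ⟨CA * Real.log (64 * (L + 1)), mul_nonneg hCA0.le hl0, fun x => ?_⟩
  refine (tv_decay J hs hd h CA hCA0 hate x _ (mul_nonneg hCA0.le hl0)).trans ?_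
  have h1 : -(CA * Real.log (64 * (L + 1))) / CA = -Real.log (64 * (L + 1)) := by
    field_simp
  rw [h1, Real.exp_neg, Real.exp_log (by positivity)]
  have h2 : (64 * (L + 1))⁻¹ * Real.log (Zf J h / wt J h x) ≤ (1 / 8) ^ 2 := by
    rw [inv_mul_le_iff₀ (by positivity)]
    have := hLx x
    linarith
  have h3 : Real.sqrt ((64 * (L + 1))⁻¹ * Real.log (Zf J h / wt J h x)) ≤ 1 / 8 := by
    rw [Real.sqrt_le_left (by norm_num)]
    exact h2
  linarith

end ising

end Good2Aux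

open GoodAux LamAux Good2Aux

theorem sk_good_all (β : ℝ) (hβ : 0 ≤ β) (δ : ℝ) (hδ : 0 < δ) :
    Tendsto (fun n : ℕ => disorder n {g | Good (SKJ (n := n) β g) (2 * β + 1 + 4 * β ^ 2) δ})
      atTop (𝓝 1) := by
  have hpr : ∀ n, IsProbabilityMeasure (disorder n) := fun n => by unfold disorder; infer_instance
  have t1 := lam_max β 1 hβ one_pos
  have t2 := sk_rows_all β
  have t3 := sk_entries β δ hδ
  have t4 := inter_one _ _ (fun n => ?_) t1 t2
  · have t5 := inter_one _ _ (fun n => ?_) t4 t3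
    · refine tendsto_of_tendsto_of_tendsto_of_le_of_le t5 tendsto_const_nhds ?_
        (fun n => prob_le_one)
      intro n
      refine measure_mono ?_
      intro g hg
      obtain ⟨⟨h1, h2⟩, h3⟩ := hg
      have hy : ∀ y : Fin n → ℝ, 0 ≤ ∑ i, y i ^ 2 := fun y =>
        Finset.sum_nonneg fun i _ => sq_nonneg _
      refine ⟨SKJ_symm β g, SKJ_diag β g, h3, fun i => ?_, fun y => ?_, fun y => ?_⟩
      · refine (h2 i).trans ?_
        nlinarith [sq_nonneg β]
      · refine (abs_le.1 (h1 y)).2.trans ?_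
        nlinarith [hy y, mul_nonneg (sq_nonneg β) (hy y)]
      · refine le_trans ?_ (abs_le.1 (h1 y)).1
        nlinarith [hy y, mul_nonneg (sq_nonneg β) (hy y)]
    · have e : {g : Fin n × Fin n → ℝ | ∀ i j : Fin n, |SKJ β g i j| ≤ δ} =
          ⋂ i : Fin n, ⋂ j : Fin n, {g : Fin n × Fin n → ℝ | |SKJ β g i j| ≤ δ} := by
        ext g
        simp
      rw [e]
      refine MeasurableSet.iInter (fun i => MeasurableSet.iInter (fun j => ?_))
      exact measurableSet_le (SKJ_meas β i j).abs measurable_const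
  · have e : {g : Fin n × Fin n → ℝ | ∀ i : Fin n, ∑ j, SKJ β g i j ^ 2 ≤ 2 * β ^ 2} =
        ⋂ i : Fin n, {g : Fin n × Fin n → ℝ | ∑ j, SKJ β g i j ^ 2 ≤ 2 * β ^ 2} := by
      ext g
      simp
    rw [e]
    refine MeasurableSet.iInter (fun i => ?_)
    refine measurableSet_le ?_ measurable_const
    exact Finset.measurable_fun_sum _ (fun j _ => (SKJ_meas β i j).pow_const 2)

/-- the set in the definition of the mixing time is never empty -/
theorem tmix_set_nonempty {n : ℕ} (β : ℝ) (g : Fin n × Fin n → ℝ) (h : Fin n → ℝ) :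
    {t : ℝ | 0 ≤ t ∧ ∀ x : P150.SK.Cfg n, P150.SK.tv (P150.SK.kernel β g h t x)
      (P150.SK.gibbs β g h) ≤ 1 / 4}.Nonempty := by
  obtain ⟨t, ht0, ht⟩ := exists_mix (SKJ β g) (SKJ_symm β g) (SKJ_diag β g) h
  refine ⟨t, ht0, fun x => ?_⟩
  refine le_trans (le_of_eq ?_) (ht x)
  unfold P150.SK.tv
  congr 1
  refine Finset.sum_congr rfl fun y _ => ?_
  rw [kernel_eq, gibbs_eq]

end

end P150
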