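import Vale.Agent.P150.Flip
import Vale.Agent.P150.Face

/-!
# P150 [S]: pointwise gradient inequality for the heat-bath generator
-/

open Function

namespace P150

noncomputable section

set_option linter.unusedSectionVars false

section ising
variable {ι : Type} [Fintype ι] [DecidableEq ι]

namespace GradPt

/-- product rule for the discrete derivative -/
lemma dB_mul (i : ι) (F G : (ι → Bool) → ℝ) (x : ι → Bool) :
    dB i (fun y => F y * G y) x =
      dB i F x * G x + F x * dB i G x - 2 * sp (x i) * dB i F x * dB i G x := by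
  have e : update x i (x i) = x := update_eq_self i x
  unfold dB
  rcases hx : x i with _ | _
  · rw [hx] at e
    have hF : F x = F (update x i false) := by rw [e]
    have hG : G x = G (update x i false) := by rw [e]
    rw [sp_false, hF, hG]
    ring
  · rw [hx] at e
    have hF : F x = F (update x i true) := by rw [e]
    have hG : G x = G (update x i true) := by rw [e]
    rw [sp_true, hF, hG]
    ring

lemma dB_sum {κ : Type} [Fintype κ] (i : ι) (F : κ → (ι → Bool) → ℝ) (x : ι → Bool) :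
    dB i (fun y => ∑ j, F j y) x = ∑ j, dB i (F j) x := by
  unfold dB
  rw [← Finset.sum_sub_distrib, Finset.sum_div]

lemma dB_neg (i : ι) (F : (ι → Bool) → ℝ) (x : ι → Bool) :
    dB i (fun y => - F y) x = - dB i F x := by
  unfold dB
  ring

lemma dB_comm (i j : ι) (g : (ι → Bool) → ℝ) (x : ι → Bool) :
    dB i (dB j g) x = dB j (dB i g) x := by
  by_cases hij : i = j
  · rw [hij]
  · unfold dB
    have e : ∀ s t : Bool, update (update x i s) j t = update (update x j t) i s := fun s t =>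
      update_comm hij s t x
    rw [e, e, e, e]
    ring

lemma dB_self_self (i : ι) (g : (ι → Bool) → ℝ) (x : ι → Bool) : dB i (dB i g) x = 0 := by
  have h1 := dB_update_self g i x true
  have h2 := dB_update_self g i x false
  have : dB i (dB i g) x = (dB i g (update x i true) - dB i g (update x i false)) / 2 := rfl
  rw [this, h1, h2]
  ring

/-- derivative of the noise -/
lemma dB_a (J : ι → ι → ℝ) (h : ι → ℝ) (i j : ι) (x : ι → Bool) :
    dB i (fun y => sp (y j) - mg J h j y) x =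
      (if i = j then 1 else 0) - dB i (mg J h j) x := by
  unfold dB
  by_cases hij : i = j
  · subst hij
    simp only [update_self, sp_true, sp_false, if_true]
    ring
  · simp only [update_of_ne (Ne.symm hij), if_neg hij]
    ring

lemma dB_gen (J : ι → ι → ℝ) (h : ι → ℝ) (g : (ι → Bool) → ℝ) (i : ι) (x : ι → Bool) :
    dB i (gen J h g) x = -∑ j, ((if i = j then 1 else 0) * dB j g x -
      dB i (mg J h j) x * dB j g x + (sp (x j) - mg J h j x) * dB i (dB j g) x +
      2 * sp (x i) * dB i (mg J h j) x * dB i (dB j g) x) := by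
  have h1 : gen J h g = fun y => - ∑ j, (sp (y j) - mg J h j y) * dB j g y := rfl
  rw [h1, dB_neg, dB_sum]
  congr 1
  refine Finset.sum_congr rfl fun j _ => ?_
  rw [dB_mul i (fun y => sp (y j) - mg J h j y) (dB j g) x, dB_a]
  by_cases hij : i = j
  · subst hij
    rw [dB_self_self]
    ring
  · rw [if_neg hij]
    ring

lemma gen_sq (J : ι → ι → ℝ) (h : ι → ℝ) (g : (ι → Bool) → ℝ) (x : ι → Bool) :
    gen J h (fun x => ∑ i, dB i g x ^ 2) x = -∑ j, (sp (x j) - mg J h j x) *
      ∑ i, (2 * dB i g x * dB i (dB j g) x - 2 * sp (x j) * dB i (dB j g) x ^ 2) := by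
  unfold gen
  congr 1
  refine Finset.sum_congr rfl fun j _ => ?_
  congr 1
  rw [dB_sum]
  refine Finset.sum_congr rfl fun i _ => ?_
  have h1 : (fun y => dB i g y ^ 2) = fun y => dB i g y * dB i g y := by
    funext y
    ring
  rw [h1, dB_mul, dB_comm j i]
  ring

/-- the increment of the hyperbolic tangent -/
lemma tanh_incr (L δ : ℝ) (hδ : |δ| ≤ 1 / 5) :
    ∃ r : ℝ, Real.tanh (L + δ) - Real.tanh L = (1 - Real.tanh L ^ 2) * r ∧
      |r| ≤ 5 / 4 * |δ| ∧ |r - δ| ≤ 3 / 2 * δ ^ 2 := by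
  set m := Real.tanh L with hm
  set τ := Real.tanh δ with hτ
  have hm1 : |m| < 1 := Real.abs_tanh_lt_one L
  have hτ1 : |τ| ≤ |δ| := FaceAux.abs_tanh_le δ
  have hτ2 : |τ - δ| ≤ |δ| ^ 3 := FaceAux.abs_tanh_sub δ
  have hδ0 := abs_nonneg δ
  have hmτ : |m * τ| ≤ 1 / 5 := by
    rw [abs_mul]
    nlinarith [abs_nonneg m, abs_nonneg τ]
  have hden : 4 / 5 ≤ 1 + m * τ := by
    have := (abs_le.1 hmτ).1
    linarith
  have hden0 : 0 < 1 + m * τ := by linarith
  refine ⟨τ / (1 + m * τ), ?_, ?_, ?_⟩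
  · rw [FaceAux.tanh_add']
    rw [← hm, ← hτ]
    field_simp
    ring
  · rw [abs_div, abs_of_pos hden0, div_le_iff₀ hden0]
    nlinarith
  · have h1 : τ / (1 + m * τ) - δ = (τ - δ - m * τ * δ) / (1 + m * τ) := by
      rw [eq_div_iff hden0.ne', sub_mul, div_mul_cancel₀ _ hden0.ne']
      ring
    rw [h1, abs_div, abs_of_pos hden0, div_le_iff₀ hden0]
    have h2 : |τ - δ - m * τ * δ| ≤ |δ| ^ 3 + |δ| * |δ| := by
      have h3 : |m * τ * δ| ≤ |δ| * |δ| := by
        rw [abs_mul, abs_mul]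
        have : |m| * |τ| ≤ |δ| := by nlinarith [abs_nonneg m, abs_nonneg τ]
        exact mul_le_mul_of_nonneg_right this hδ0
      exact (abs_sub _ _).trans (add_le_add hτ2 h3)
    have h4 : |δ| ^ 3 + |δ| * |δ| ≤ 6 / 5 * δ ^ 2 := by
      rw [← sq_abs δ]
      nlinarith [mul_nonneg hδ0 hδ0]
    nlinarith [sq_nonneg δ]

/-- the derivative of the conditional mean -/
lemma dB_mg (J : ι → ι → ℝ) (h : ι → ℝ) (i j : ι) (x : ι → Bool) :
    dB i (mg J h j) x =
      -sp (x i) * (Real.tanh (fld J h j x + -(2 * sp (x i) * J j i)) -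
        Real.tanh (fld J h j x)) / 2 := by
  unfold dB mg
  rw [fld_update, fld_update, sp_true, sp_false]
  rcases hx : x i with _ | _
  · rw [sp_false]
    have e1 : fld J h j x + J j i * (1 - -1) = fld J h j x + -(2 * (-1) * J j i) := by ring
    have e2 : fld J h j x + J j i * (-1 - -1) = fld J h j x := by ring
    rw [e1, e2]
    ring
  · rw [sp_true]
    have e1 : fld J h j x + J j i * (1 - 1) = fld J h j x := by ring
    have e2 : fld J h j x + J j i * (-1 - 1) = fld J h j x + -(2 * 1 * J j i) := by ring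
    rw [e1, e2]
    ring

lemma dB_mg_bounds (J : ι → ι → ℝ) (hs : ∀ i j, J i j = J j i) (h : ι → ℝ) (i j : ι)
    (x : ι → Bool) (hJ : |J i j| ≤ 1 / 10) :
    |dB i (mg J h j) x| ≤ 5 / 4 * |J i j| * Vg J h j x ∧
    |dB i (mg J h j) x - J i j * Vg J h j x| ≤ 3 * J i j ^ 2 := by
  have hsp : |sp (x i)| = 1 := abs_sp _
  have hsp2 : sp (x i) * sp (x i) = 1 := sp_mul_self _
  have hδ : |-(2 * sp (x i) * J i j)| ≤ 1 / 5 := by
    rw [abs_neg, abs_mul, abs_mul, hsp]
    norm_num
    linarith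
  obtain ⟨r, h1, h2, h3⟩ := tanh_incr (fld J h j x) (-(2 * sp (x i) * J i j)) hδ
  have hV0 := (Vg_pos J h j x).le
  have hV1 := Vg_le_one J h j x
  have hV : 1 - Real.tanh (fld J h j x) ^ 2 = Vg J h j x := rfl
  rw [dB_mg, ← hs i j, h1, hV]
  have h4 : |-(2 * sp (x i) * J i j)| = 2 * |J i j| := by
    rw [abs_neg, abs_mul, abs_mul, hsp]
    norm_num
  rw [h4] at h2
  have h5 : (-(2 * sp (x i) * J i j)) ^ 2 = 4 * J i j ^ 2 := by
    linear_combination (4 * J i j ^ 2) * hsp2
  rw [h5] at h3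
  constructor
  · rw [abs_div, abs_mul, abs_mul, abs_neg, hsp, abs_of_nonneg hV0, abs_two]
    nlinarith
  · have h6 : -sp (x i) * (Vg J h j x * r) / 2 - J i j * Vg J h j x =
        -sp (x i) * Vg J h j x * (r - -(2 * sp (x i) * J i j)) / 2 := by
      linear_combination (J i j * Vg J h j x) * hsp2
    rw [h6, abs_div, abs_mul, abs_mul, abs_neg, hsp, abs_of_nonneg hV0, abs_two]
    have := abs_nonneg (r - -(2 * sp (x i) * J i j))
    nlinarith [sq_nonneg (J i j)]

/-- polarization -/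
lemma polar (J : ι → ι → ℝ) (M δ : ℝ) (hG : Good J M δ) (u w : ι → ℝ) :
    2 * ∑ i, ∑ j, J i j * u i * w j ≤ M * (∑ i, u i ^ 2 + ∑ i, w i ^ 2) := by
  have h1 := hG.quad (fun i => u i + w i)
  have h2 := hG.quad' (fun i => u i - w i)
  have h3 : ∑ i, ∑ j, J i j * w i * u j = ∑ i, ∑ j, J i j * u i * w j := by
    rw [Finset.sum_comm]
    refine Finset.sum_congr rfl fun i _ => Finset.sum_congr rfl fun j _ => ?_
    rw [hG.symm j i]
    ring
  have h4 : ∑ i, ∑ j, J i j * (u i + w i) * (u j + w j) =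
      ∑ i, ∑ j, J i j * u i * u j + ∑ i, ∑ j, J i j * u i * w j +
      ∑ i, ∑ j, J i j * w i * u j + ∑ i, ∑ j, J i j * w i * w j := by
    simp only [← Finset.sum_add_distrib]
    refine Finset.sum_congr rfl fun i _ => Finset.sum_congr rfl fun j _ => ?_
    ring
  have h5 : ∑ i, ∑ j, J i j * (u i - w i) * (u j - w j) =
      ∑ i, ∑ j, J i j * u i * u j - ∑ i, ∑ j, J i j * u i * w j -
      ∑ i, ∑ j, J i j * w i * u j + ∑ i, ∑ j, J i j * w i * w j := by
    simp only [← Finset.sum_add_distrib, ← Finset.sum_sub_distrib]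
    refine Finset.sum_congr rfl fun i _ => Finset.sum_congr rfl fun j _ => ?_
    ring
  have h6 : ∑ i, (u i + w i) ^ 2 = ∑ i, u i ^ 2 + 2 * ∑ i, u i * w i + ∑ i, w i ^ 2 := by
    rw [Finset.mul_sum, ← Finset.sum_add_distrib, ← Finset.sum_add_distrib]
    exact Finset.sum_congr rfl fun i _ => by ring
  have h7 : ∑ i, (u i - w i) ^ 2 = ∑ i, u i ^ 2 - 2 * ∑ i, u i * w i + ∑ i, w i ^ 2 := by
    rw [Finset.mul_sum, ← Finset.sum_sub_distrib, ← Finset.sum_add_distrib]
    exact Finset.sum_congr rfl fun i _ => by ring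
  rw [h4, h6, h3] at h1
  rw [h5, h7, h3] at h2
  linarith

end GradPt

open GradPt in
/-- pointwise (Bakry-Emery type) gradient inequality, `∂_r |∇P_r f|² ≤ L |∇P_r f|² + 11 M |∇P_r f|²` -/
theorem grad_pointwise (J : ι → ι → ℝ) (M δ : ℝ) (hG : Good J M δ) (hδ : δ ≤ 1/10) (hM : 0 ≤ M)
    (h : ι → ℝ) (g : (ι → Bool) → ℝ) (x : ι → Bool) :
    2 * (∑ i, dB i g x * dB i (gen J h g) x) - gen J h (fun x => ∑ i, dB i g x ^ 2) x ≤
      11 * M * ∑ i, dB i g x ^ 2 := by
  have hs := hG.symm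
  have hd := hG.diag
  set u : ι → ℝ := fun i => dB i g x with hu
  set c : ι → ι → ℝ := fun i j => dB i (dB j g) x with hc
  set d : ι → ι → ℝ := fun i j => dB i (mg J h j) x with hdd
  set a : ι → ℝ := fun j => sp (x j) - mg J h j x with ha
  set V : ι → ℝ := fun j => Vg J h j x with hV
  -- the identity
  have hid : 2 * (∑ i, dB i g x * dB i (gen J h g) x) - gen J h (fun x => ∑ i, dB i g x ^ 2) x =
      ∑ i, ∑ j, (-2 * (if i = j then 1 else 0) * (u i * u j) + 2 * d i j * u i * u j -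
        4 * sp (x i) * u i * d i j * c i j - 2 * (a j * sp (x j)) * c i j ^ 2) := by
    have e1 : 2 * (∑ i, dB i g x * dB i (gen J h g) x) = ∑ i, ∑ j,
        (-2 * (u i * ((if i = j then 1 else 0) * u j - d i j * u j + a j * c i j +
          2 * sp (x i) * d i j * c i j))) := by
      rw [Finset.mul_sum]
      refine Finset.sum_congr rfl fun i _ => ?_
      rw [dB_gen, ← Finset.mul_sum, ← Finset.mul_sum]
      simp only [hu, hc, hdd, ha]
      ring
    have e2 : gen J h (fun x => ∑ i, dB i g x ^ 2) x = ∑ i, ∑ j,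
        (-(a j * (2 * u i * c i j - 2 * sp (x j) * c i j ^ 2))) := by
      rw [gen_sq, Finset.sum_comm, ← Finset.sum_neg_distrib]
      refine Finset.sum_congr rfl fun j _ => ?_
      rw [Finset.sum_neg_distrib, ← Finset.mul_sum]
    rw [e1, e2, ← Finset.sum_sub_distrib]
    refine Finset.sum_congr rfl fun i _ => ?_
    rw [← Finset.sum_sub_distrib]
    refine Finset.sum_congr rfl fun j _ => ?_
    ring
  rw [hid]
  -- the bound of one term
  have hterm : ∀ i j, -2 * (if i = j then 1 else 0) * (u i * u j) + 2 * d i j * u i * u j -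
        4 * sp (x i) * u i * d i j * c i j - 2 * (a j * sp (x j)) * c i j ^ 2 ≤
      2 * (J i j * u i * (V j * u j)) + 4 * (J i j ^ 2 * (u i ^ 2 + u j ^ 2)) +
        10 * (J i j ^ 2 * u i ^ 2) := by
    intro i j
    have hJ : |J i j| ≤ 1 / 10 := (hG.entry i j).trans hδ
    obtain ⟨b1, b2⟩ := dB_mg_bounds J hs h i j x hJ
    have hV0 : 0 < V j := Vg_pos J h j x
    have hV1 : V j ≤ 1 := Vg_le_one J h j x
    -- the weight
    set w : ℝ := a j * sp (x j) with hw
    have hw1 : V j ≤ 2 * w := by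
      have h1 : w = 1 - mg J h j x * sp (x j) := by
        have := sp_mul_self (x j)
        simp only [hw, ha]
        linear_combination this
      have h2 : |mg J h j x * sp (x j)| ≤ 1 := by
        rw [abs_mul, abs_sp, mul_one]
        exact (Real.abs_tanh_lt_one _).le
      have h3 : V j = (1 - mg J h j x * sp (x j)) * (1 + mg J h j x * sp (x j)) := by
        have := sp_mul_self (x j)
        simp only [hV, Vg]
        linear_combination (mg J h j x ^ 2) * this
      rw [h3, h1]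
      obtain ⟨h4, h5⟩ := abs_le.1 h2
      nlinarith
    have hw0 : 0 < w := by linarith
    have hdi : d i j ^ 2 ≤ 5 * J i j ^ 2 * w := by
      have h1 : |d i j| ^ 2 ≤ (5 / 4 * |J i j| * V j) ^ 2 :=
        pow_le_pow_left₀ (abs_nonneg _) b1 2
      rw [sq_abs] at h1
      have h2 : (5 / 4 * |J i j| * V j) ^ 2 = 25 / 16 * J i j ^ 2 * V j ^ 2 := by
        rw [mul_pow, mul_pow, sq_abs]
        ring
      rw [h2] at h1
      have h3 : V j ^ 2 ≤ 2 * w := by nlinarith
      nlinarith [sq_nonneg (J i j)]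
    have hsp := sp_mul_self (x i)
    have hA : - (4 * sp (x i) * u i * d i j * c i j) - 2 * w * c i j ^ 2 ≤
        10 * (J i j ^ 2 * u i ^ 2) := by
      have h1 : 0 ≤ w * (2 * w * c i j ^ 2 + 4 * sp (x i) * u i * d i j * c i j +
          10 * (J i j ^ 2 * u i ^ 2)) := by
        have h2 : w * (2 * w * c i j ^ 2 + 4 * sp (x i) * u i * d i j * c i j +
          10 * (J i j ^ 2 * u i ^ 2)) = 2 * (w * c i j + sp (x i) * u i * d i j) ^ 2 +
          2 * (5 * J i j ^ 2 * w - d i j ^ 2) * u i ^ 2 := by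
          linear_combination (-2 * u i ^ 2 * d i j ^ 2) * hsp
        rw [h2]
        have h3 : 0 ≤ 5 * J i j ^ 2 * w - d i j ^ 2 := by linarith
        positivity
      have h4 := nonneg_of_mul_nonneg_right h1 hw0
      linarith
    have hB : 2 * d i j * u i * u j ≤ 2 * (J i j * u i * (V j * u j)) +
        4 * (J i j ^ 2 * (u i ^ 2 + u j ^ 2)) := by
      have h1 : 2 * d i j * u i * u j = 2 * (J i j * u i * (V j * u j)) +
          2 * (d i j - J i j * V j) * (u i * u j) := by ring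
      have h2 : 2 * (d i j - J i j * V j) * (u i * u j) ≤ 2 * (3 * J i j ^ 2) * |u i * u j| := by
        calc 2 * (d i j - J i j * V j) * (u i * u j) ≤
            |2 * (d i j - J i j * V j) * (u i * u j)| := le_abs_self _
          _ = 2 * |d i j - J i j * V j| * |u i * u j| := by
              rw [abs_mul, abs_mul, abs_two]
          _ ≤ _ := by
              have := abs_nonneg (u i * u j)
              gcongr
      have h3 : |u i * u j| ≤ (u i ^ 2 + u j ^ 2) / 2 := by
        rw [abs_le]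
        constructor <;> nlinarith [sq_nonneg (u i + u j), sq_nonneg (u i - u j)]
      have h4 := sq_nonneg (J i j)
      have h5 : 2 * (3 * J i j ^ 2) * |u i * u j| ≤ 4 * (J i j ^ 2 * (u i ^ 2 + u j ^ 2)) := by
        nlinarith [mul_le_mul_of_nonneg_left h3 h4, mul_nonneg h4 (sq_nonneg (u i)),
          mul_nonneg h4 (sq_nonneg (u j))]
      linarith
    have hC : -2 * (if i = j then 1 else 0) * (u i * u j) ≤ 0 := by
      by_cases hij : i = j
      · subst hij
        rw [if_pos rfl]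
        nlinarith [sq_nonneg (u i)]
      · rw [if_neg hij]
        simp
    linarith
  refine (Finset.sum_le_sum fun i _ => Finset.sum_le_sum fun j _ => hterm i j).trans ?_
  -- summation
  have s1 : ∑ i, ∑ j, (2 * (J i j * u i * (V j * u j)) + 4 * (J i j ^ 2 * (u i ^ 2 + u j ^ 2)) +
        10 * (J i j ^ 2 * u i ^ 2)) = 2 * ∑ i, ∑ j, J i j * u i * (V j * u j) +
      4 * ∑ i, ∑ j, J i j ^ 2 * (u i ^ 2 + u j ^ 2) + 10 * ∑ i, ∑ j, J i j ^ 2 * u i ^ 2 := by
    simp only [Finset.mul_sum, ← Finset.sum_add_distrib]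
  have s2 := polar J M δ hG u (fun j => V j * u j)
  have s3 : ∑ i, (V i * u i) ^ 2 ≤ ∑ i, u i ^ 2 := by
    refine Finset.sum_le_sum fun i _ => ?_
    have hV0 : 0 < V i := Vg_pos J h i x
    have hV1 : V i ≤ 1 := Vg_le_one J h i x
    rw [mul_pow]
    have : V i ^ 2 ≤ 1 := by nlinarith
    nlinarith [sq_nonneg (u i)]
  have s4 : ∑ i, ∑ j, J i j ^ 2 * u i ^ 2 ≤ M / 2 * ∑ i, u i ^ 2 := by
    rw [Finset.mul_sum]
    refine Finset.sum_le_sum fun i _ => ?_
    rw [← Finset.sum_mul]
    exact mul_le_mul_of_nonneg_right (hG.row i) (sq_nonneg _)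
  have s5 : ∑ i, ∑ j, J i j ^ 2 * (u i ^ 2 + u j ^ 2) = 2 * ∑ i, ∑ j, J i j ^ 2 * u i ^ 2 := by
    have h1 : ∑ i, ∑ j, J i j ^ 2 * (u i ^ 2 + u j ^ 2) =
        ∑ i, ∑ j, J i j ^ 2 * u i ^ 2 + ∑ i, ∑ j, J i j ^ 2 * u j ^ 2 := by
      simp only [← Finset.sum_add_distrib]
      exact Finset.sum_congr rfl fun i _ => Finset.sum_congr rfl fun j _ => by ring
    have h2 : ∑ i, ∑ j, J i j ^ 2 * u j ^ 2 = ∑ i, ∑ j, J i j ^ 2 * u i ^ 2 := by
      rw [Finset.sum_comm]
      refine Finset.sum_congr rfl fun i _ => Finset.sum_congr rfl fun j _ => ?_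
      rw [hs j i]
    rw [h1, h2]
    ring
  rw [s1, s5]
  have s6 : M * (∑ i, u i ^ 2 + ∑ i, (V i * u i) ^ 2) ≤ 2 * M * ∑ i, u i ^ 2 := by nlinarith
  linarith

end ising

end

end P150
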