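import Vale.Agent.P150.Semi
import Vale.Agent.P150.Grad

/-!
# Gradient and variance bounds for the semigroup
-/

open Function

namespace P150

noncomputable section

set_option linter.unusedSectionVars false

section ising
variable {ι : Type} [Fintype ι] [DecidableEq ι]

namespace GradAux

lemma Pt_entry_deriv (J : ι → ι → ℝ) (hd : ∀ i, J i i = 0) (h : ι → ℝ) (s : ℝ)
    (x y : ι → Bool) :
    HasDerivAt (fun r => Pt J h r x y) ((Pt J h s * Lm J h) x y) s := by
  have h1 := hasDerivAt_exp_mulVec (Lm J h) (Pi.single y 1) s x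
  have e1 : (fun r : ℝ => (NormedSpace.exp (r • Lm J h)).mulVec (Pi.single y 1) x) =
      fun r => Pt J h r x y := by
    funext r
    rw [Matrix.mulVec_single_one]
    rfl
  have e2 : (Lm J h).mulVec ((NormedSpace.exp (s • Lm J h)).mulVec (Pi.single y 1)) x =
      (Pt J h s * Lm J h) x y := by
    rw [Matrix.mulVec_mulVec, Matrix.mulVec_single_one]
    have := (Pt_commute J h s).eq
    unfold Pt at this ⊢
    rw [← this]
    rfl
  rw [e1, e2] at h1
  exact h1

/-- product rule `d/ds P_s v(s) = P_s (L v(s) + v'(s))` -/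
lemma deriv_path (J : ι → ι → ℝ) (hd : ∀ i, J i i = 0) (h : ι → ℝ)
    (v : ℝ → (ι → Bool) → ℝ) (v' : (ι → Bool) → ℝ) (s : ℝ)
    (hv : ∀ y, HasDerivAt (fun r => v r y) (v' y) s) (x : ι → Bool) :
    HasDerivAt (fun r => (Pt J h r).mulVec (v r) x)
      ((Pt J h s).mulVec (fun y => gen J h (v s) y + v' y) x) s := by
  have h1 : HasDerivAt (fun r => ∑ y, Pt J h r x y * v r y)
      (∑ y, ((Pt J h s * Lm J h) x y * v s y + Pt J h s x y * v' y)) s :=
    HasDerivAt.fun_sum (fun y _ => (Pt_entry_deriv J hd h s x y).mul (hv y))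
  have e : (Pt J h s).mulVec (fun y => gen J h (v s) y + v' y) x =
      ∑ y, ((Pt J h s * Lm J h) x y * v s y + Pt J h s x y * v' y) := by
    have e1 : (Pt J h s).mulVec (gen J h (v s)) x = ∑ y, (Pt J h s * Lm J h) x y * v s y := by
      have e2 : gen J h (v s) = (Lm J h).mulVec (v s) := by
        funext z; rw [Lm_mulVec J hd]
      rw [e2, Matrix.mulVec_mulVec]
      rfl
    rw [Finset.sum_add_distrib, ← e1]
    unfold Matrix.mulVec dotProduct
    rw [← Finset.sum_add_distrib]
    apply Finset.sum_congr rfl; intro y _; ring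
  rw [e]
  exact h1

lemma Pt_mono (J : ι → ι → ℝ) (h : ι → ℝ) (t : ℝ) (ht : 0 ≤ t) (f g : (ι → Bool) → ℝ)
    (hfg : ∀ y, f y ≤ g y) (x : ι → Bool) :
    (Pt J h t).mulVec f x ≤ (Pt J h t).mulVec g x := by
  unfold Matrix.mulVec dotProduct
  exact Finset.sum_le_sum fun y _ => mul_le_mul_of_nonneg_left (hfg y) (Pt_nonneg J h t ht x y)

lemma Pt_le_const (J : ι → ι → ℝ) (hd : ∀ i, J i i = 0) (h : ι → ℝ) (t : ℝ) (ht : 0 ≤ t)
    (f : (ι → Bool) → ℝ) (K : ℝ) (hf : ∀ y, f y ≤ K) (x : ι → Bool) :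
    (Pt J h t).mulVec f x ≤ K := by
  refine (Pt_mono J h t ht f (fun _ => K) hf x).trans (le_of_eq ?_)
  unfold Matrix.mulVec dotProduct
  rw [← Finset.sum_mul, Pt_row_sum J hd, one_mul]

lemma dB_deriv (v : ℝ → (ι → Bool) → ℝ) (v' : (ι → Bool) → ℝ) (s : ℝ)
    (hv : ∀ y, HasDerivAt (fun r => v r y) (v' y) s) (i : ι) (y : ι → Bool) :
    HasDerivAt (fun r => dB i (v r) y) (dB i v' y) s := by
  unfold dB
  exact ((hv _).sub (hv _)).div_const 2

/-- derivative of `r ↦ P_{t-r} f` -/
lemma rev_deriv (J : ι → ι → ℝ) (hd : ∀ i, J i i = 0) (h : ι → ℝ) (f : (ι → Bool) → ℝ)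
    (t s : ℝ) (y : ι → Bool) :
    HasDerivAt (fun r => (Pt J h (t - r)).mulVec f y)
      (-(gen J h ((Pt J h (t - s)).mulVec f) y)) s := by
  have h1 := Pt_deriv J hd h f (t - s) y
  have h2 : HasDerivAt (fun r : ℝ => t - r) (-1) s := by
    simpa using (hasDerivAt_id s).const_sub t
  have h3 := HasDerivAt.comp s h1 h2
  have e : gen J h ((Pt J h (t - s)).mulVec f) y * -1 =
      -(gen J h ((Pt J h (t - s)).mulVec f) y) := by ring
  rw [e] at h3
  exact h3

lemma dB_neg (i : ι) (f : (ι → Bool) → ℝ) (x : ι → Bool) :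
    dB i (fun y => -(f y)) x = -(dB i f x) := by
  unfold dB; ring

/-- `L(g²) - 2 g L g = 2 ∑ (1 - x_j m_j) B_j² ≤ 4 ∑ B_j²` -/
lemma carre (J : ι → ι → ℝ) (h : ι → ℝ) (g : (ι → Bool) → ℝ) (x : ι → Bool) :
    gen J h (fun y => g y ^ 2) x - 2 * g x * gen J h g x ≤ 4 * ∑ i, dB i g x ^ 2 := by
  have e : gen J h (fun y => g y ^ 2) x - 2 * g x * gen J h g x =
      ∑ i, 2 * (1 - sp (x i) * mg J h i x) * dB i g x ^ 2 := by
    unfold gen
    rw [mul_neg, sub_neg_eq_add, Finset.mul_sum, ← Finset.sum_neg_distrib,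
      ← Finset.sum_add_distrib]
    apply Finset.sum_congr rfl; intro i _
    have h1 : dB i (fun y => g y ^ 2) x = 2 * (g x - sp (x i) * dB i g x) * dB i g x := by
      have := f_split g i x
      have h2 : g x - sp (x i) * dB i g x = (g (update x i true) + g (update x i false)) / 2 := by
        linarith
      rw [h2]
      unfold dB; ring
    rw [h1]
    have := sp_sq (x i)
    linear_combination (2 * dB i g x ^ 2) * this
  rw [e, Finset.mul_sum]
  apply Finset.sum_le_sum; intro i _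
  have h1 : |sp (x i) * mg J h i x| ≤ 1 := by
    rw [abs_mul, abs_sp, one_mul]
    unfold mg
    rw [abs_le]
    exact ⟨(Real.neg_one_lt_tanh _).le, (Real.tanh_lt_one _).le⟩
  have h2 := (abs_le.1 h1).1
  have h3 := sq_nonneg (dB i g x)
  nlinarith

end GradAux

open GradAux

theorem grad_semigroup (J : ι → ι → ℝ) (M δ : ℝ) (hG : Good J M δ) (hδ : δ ≤ 1/10) (hM : 0 ≤ M)
    (h : ι → ℝ) (f : (ι → Bool) → ℝ) (K : ℝ) (hK : ∀ x, ∑ i, dB i f x ^ 2 ≤ K)
    (t : ℝ) (ht : 0 ≤ t) (x : ι → Bool) :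
    ∑ i, dB i ((Pt J h t).mulVec f) x ^ 2 ≤ Real.exp (11 * M * t) * K := by
  have hd := hG.diag
  let G : ℝ → (ι → Bool) → ℝ := fun r y => ∑ i, dB i ((Pt J h (t - r)).mulVec f) y ^ 2
  let G' : ℝ → (ι → Bool) → ℝ := fun r y =>
    -(2 * ∑ i, dB i ((Pt J h (t - r)).mulVec f) y *
      dB i (gen J h ((Pt J h (t - r)).mulVec f)) y)
  have hGd : ∀ s y, HasDerivAt (fun r => G r y) (G' s y) s := by
    intro s y
    have h1 : ∀ i, HasDerivAt (fun r => dB i ((Pt J h (t - r)).mulVec f) y)
        (-(dB i (gen J h ((Pt J h (t - s)).mulVec f)) y)) s := by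
      intro i
      have := dB_deriv (fun r => (Pt J h (t - r)).mulVec f)
        (fun y => -(gen J h ((Pt J h (t - s)).mulVec f) y)) s
        (fun y => rev_deriv J hd h f t s y) i y
      rw [dB_neg] at this
      exact this
    have h2 : HasDerivAt (fun r => G r y)
        (∑ i, (2:ℕ) * dB i ((Pt J h (t - s)).mulVec f) y ^ (2 - 1) *
          (-(dB i (gen J h ((Pt J h (t - s)).mulVec f)) y))) s :=
      HasDerivAt.fun_sum (fun i _ => (h1 i).pow 2)
    refine h2.congr_deriv ?_
    simp only [G']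
    rw [Finset.mul_sum, ← Finset.sum_neg_distrib]
    apply Finset.sum_congr rfl; intro i _
    push_cast; ring
  let ψ : ℝ → ℝ := fun s => Real.exp (11 * M * s) * (Pt J h s).mulVec (G s) x
  have hψ : ∀ s, HasDerivAt ψ (Real.exp (11 * M * s) * (11 * M) * (Pt J h s).mulVec (G s) x +
      Real.exp (11 * M * s) * (Pt J h s).mulVec (fun y => gen J h (G s) y + G' s y) x) s := by
    intro s
    have h1 : HasDerivAt (fun s : ℝ => Real.exp (11 * M * s))
        (Real.exp (11 * M * s) * (11 * M)) s := by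
      have : HasDerivAt (fun s : ℝ => 11 * M * s) (11 * M) s := by
        simpa using (hasDerivAt_id s).const_mul (11 * M)
      exact this.exp
    exact h1.mul (deriv_path J hd h G (G' s) s (hGd s) x)
  have hmono : MonotoneOn ψ (Set.Icc 0 t) := by
    apply monotoneOn_of_deriv_nonneg (convex_Icc 0 t)
    · exact fun s _ => (hψ s).continuousAt.continuousWithinAt
    · exact fun s _ => (hψ s).differentiableAt.differentiableWithinAt
    · intro s hs
      rw [interior_Icc] at hs
      rw [(hψ s).deriv]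
      have hp := Real.exp_pos (11 * M * s)
      have h1 : (Pt J h s).mulVec (fun y => -(11 * M) * G s y) x ≤
          (Pt J h s).mulVec (fun y => gen J h (G s) y + G' s y) x := by
        apply Pt_mono J h s hs.1.le
        intro y
        have := grad_pointwise J M δ hG hδ hM h ((Pt J h (t - s)).mulVec f) y
        simp only [G, G']
        linarith
      have h2 : (Pt J h s).mulVec (fun y => -(11 * M) * G s y) x =
          -(11 * M) * (Pt J h s).mulVec (G s) x := by
        unfold Matrix.mulVec dotProduct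
        rw [Finset.mul_sum]
        apply Finset.sum_congr rfl; intro y _; ring
      rw [h2] at h1
      have h3 := mul_le_mul_of_nonneg_left h1 hp.le
      linarith
  have hfin := hmono (Set.left_mem_Icc.2 ht) (Set.right_mem_Icc.2 ht) ht
  simp only [ψ, mul_zero, Real.exp_zero, one_mul, Pt_zero, Matrix.one_mulVec] at hfin
  have e0 : G 0 x = ∑ i, dB i ((Pt J h t).mulVec f) x ^ 2 := by
    simp only [G, sub_zero]
  rw [e0] at hfin
  refine hfin.trans ?_
  apply mul_le_mul_of_nonneg_left _ (Real.exp_pos _).le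
  apply Pt_le_const J hd h t ht
  intro y
  simp only [G, sub_self, Pt_zero, Matrix.one_mulVec]
  exact hK y

theorem var_semigroup (J : ι → ι → ℝ) (M δ : ℝ) (hG : Good J M δ) (hδ : δ ≤ 1/10) (hM : 0 ≤ M)
    (h : ι → ℝ) (f : (ι → Bool) → ℝ) (K : ℝ) (hK : ∀ x, ∑ i, dB i f x ^ 2 ≤ K)
    (t : ℝ) (ht : 0 ≤ t) (x : ι → Bool) :
    (Pt J h t).mulVec (fun y => f y ^ 2) x - ((Pt J h t).mulVec f x) ^ 2 ≤
      4 * t * Real.exp (11 * M * t) * K := by
  have hd := hG.diag
  have hK0 : 0 ≤ K := (Finset.sum_nonneg (fun i _ => sq_nonneg _)).trans (hK x)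
  let v : ℝ → (ι → Bool) → ℝ := fun r y => ((Pt J h (t - r)).mulVec f y) ^ 2
  let v' : ℝ → (ι → Bool) → ℝ := fun r y =>
    -(2 * (Pt J h (t - r)).mulVec f y * gen J h ((Pt J h (t - r)).mulVec f) y)
  have hv : ∀ s y, HasDerivAt (fun r => v r y) (v' s y) s := by
    intro s y
    have h1 := (rev_deriv J hd h f t s y).pow 2
    refine h1.congr_deriv ?_
    simp only [v']
    push_cast; ring
  let ψ : ℝ → ℝ := fun s => (Pt J h s).mulVec (v s) x
  have hψ : ∀ s, HasDerivAt ψ ((Pt J h s).mulVec (fun y => gen J h (v s) y + v' s y) x) s :=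
    fun s => deriv_path J hd h v (v' s) s (hv s) x
  have hbd : ∀ s ∈ interior (Set.Icc 0 t), deriv ψ s ≤ 4 * (Real.exp (11 * M * t) * K) := by
    intro s hs
    rw [interior_Icc] at hs
    rw [(hψ s).deriv]
    apply Pt_le_const J hd h s hs.1.le
    intro y
    have h1 := carre J h ((Pt J h (t - s)).mulVec f) y
    have h2 := grad_semigroup J M δ hG hδ hM h f K hK (t - s) (by linarith [hs.2]) y
    have h3 : Real.exp (11 * M * (t - s)) ≤ Real.exp (11 * M * t) := by
      apply Real.exp_le_exp.2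
      have := mul_nonneg hM hs.1.le
      nlinarith
    have h4 : Real.exp (11 * M * (t - s)) * K ≤ Real.exp (11 * M * t) * K :=
      mul_le_mul_of_nonneg_right h3 hK0
    simp only [v, v']
    linarith
  have hmv := (convex_Icc (0:ℝ) t).image_sub_le_mul_sub_of_deriv_le
    (fun s _ => (hψ s).continuousAt.continuousWithinAt)
    (fun s _ => (hψ s).differentiableAt.differentiableWithinAt) hbd
    0 (Set.left_mem_Icc.2 ht) t (Set.right_mem_Icc.2 ht) ht
  have e0 : ψ 0 = ((Pt J h t).mulVec f x) ^ 2 := by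
    simp only [ψ, v, sub_zero, Pt_zero, Matrix.one_mulVec]
  have e1 : ψ t = (Pt J h t).mulVec (fun y => f y ^ 2) x := by
    simp only [ψ, v, sub_self, Pt_zero, Matrix.one_mulVec]
  rw [e0, e1] at hmv
  linarith

end ising

end

end P150
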