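import Mathlib

/-!
# Gaussian integration by parts (helper file for P150)
-/

open MeasureTheory ProbabilityTheory Filter Topology

namespace P150

noncomputable section

namespace IBPAux

theorem pdf_eq (x : ℝ) : gaussianPDFReal 0 1 x = (Real.sqrt (2 * Real.pi))⁻¹ * Real.exp (-x ^ 2 / 2) := by
  rw [gaussianPDFReal_def]
  simp

theorem hasDerivAt_pdf (x : ℝ) :
    HasDerivAt (gaussianPDFReal 0 1) (-(x * gaussianPDFReal 0 1 x)) x := by
  have h : gaussianPDFReal 0 1 = fun x : ℝ => (Real.sqrt (2 * Real.pi))⁻¹ * Real.exp (-x ^ 2 / 2) := by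
    funext y
    exact pdf_eq y
  rw [pdf_eq, h]
  have h1 : HasDerivAt (fun y : ℝ => -y ^ 2 / 2) (-x) x := by
    have := ((hasDerivAt_pow 2 x).neg).div_const 2
    refine this.congr_deriv ?_
    norm_num
    ring
  refine ((h1.exp).const_mul ((Real.sqrt (2 * Real.pi))⁻¹)).congr_deriv ?_
  ring

theorem gauss_one (f f' : ℝ → ℝ) (hf : Continuous f) (hf' : Continuous f')
    (bf : ∃ C : ℝ, ∀ x, |f x| ≤ C) (bf' : ∃ C : ℝ, ∀ x, |f' x| ≤ C)
    (hd : ∀ x, HasDerivAt f (f' x) x) :
    ∫ x, x * f x ∂(gaussianReal 0 1) = ∫ x, f' x ∂(gaussianReal 0 1) := by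
  rw [integral_gaussianReal_eq_integral_smul one_ne_zero,
    integral_gaussianReal_eq_integral_smul one_ne_zero]
  simp only [smul_eq_mul]
  obtain ⟨C, hC⟩ := bf
  obtain ⟨C', hC'⟩ := bf'
  have hi0 : Integrable (gaussianPDFReal 0 1) := integrable_gaussianPDFReal 0 1
  have hi1 : Integrable (fun x : ℝ => x * gaussianPDFReal 0 1 x) := by
    have h := (memLp_id_gaussianReal (μ := 0) (v := 1) 1)
    have h2 : Integrable (fun x : ℝ => x) (gaussianReal 0 1) := by
      have := h.integrable (by norm_num)
      simpa using! this
    rw [gaussianReal_of_var_ne_zero 0 one_ne_zero] at h2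
    have h3 := (integrable_withDensity_iff_integrable_smul' (measurable_gaussianPDF 0 1)
      (by filter_upwards with x; exact gaussianPDF_lt_top)).1 h2
    refine h3.congr ?_
    filter_upwards with x
    rw [toReal_gaussianPDF, smul_eq_mul, mul_comm]
  have key := integral_mul_deriv_eq_deriv_mul_of_integrable (u := f)
    (v := gaussianPDFReal 0 1) (u' := f') (v' := fun x => -(x * gaussianPDFReal 0 1 x))
    (fun x _ => hd x) (fun x _ => hasDerivAt_pdf x)
    (by
      refine (hi1.neg.bdd_mul (c := C) hf.aestronglyMeasurable ?_)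
      filter_upwards with x
      rw [Real.norm_eq_abs]
      exact hC x)
    (by
      refine (hi0.bdd_mul (c := C') hf'.aestronglyMeasurable ?_)
      filter_upwards with x
      rw [Real.norm_eq_abs]
      exact hC' x)
    (by
      refine (hi0.bdd_mul (c := C) hf.aestronglyMeasurable ?_)
      filter_upwards with x
      rw [Real.norm_eq_abs]
      exact hC x)
  have e1 : ∫ x, gaussianPDFReal 0 1 x * (x * f x) = - ∫ x, f x * -(x * gaussianPDFReal 0 1 x) := by
    rw [← integral_neg]
    refine integral_congr_ae ?_
    filter_upwards with x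
    ring
  rw [e1, key, neg_neg]
  refine integral_congr_ae ?_
  filter_upwards with x
  ring

/-- resampling one coordinate of a product measure -/
theorem map_update {κ : Type} [Fintype κ] [DecidableEq κ] (μ : Measure ℝ) [IsProbabilityMeasure μ]
    (k : κ) :
    MeasurePreserving (fun p : (κ → ℝ) × ℝ => Function.update p.1 k p.2)
      ((Measure.pi fun _ : κ => μ).prod μ) (Measure.pi fun _ : κ => μ) := by
  have hm : Measurable (fun p : (κ → ℝ) × ℝ => Function.update p.1 k p.2) := by
    refine measurable_pi_iff.2 (fun j => ?_)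
    by_cases hj : j = k
    · subst hj
      simpa using! measurable_snd
    · simp only [Function.update_of_ne hj]
      exact (measurable_pi_apply j).comp measurable_fst
  refine ⟨hm, ?_⟩
  symm
  refine Measure.pi_eq (fun s hs => ?_)
  rw [Measure.map_apply hm (MeasurableSet.univ_pi hs)]
  have e : (fun p : (κ → ℝ) × ℝ => Function.update p.1 k p.2) ⁻¹' (Set.pi Set.univ s) =
      (Set.pi Set.univ (Function.update s k Set.univ)) ×ˢ (s k) := by
    ext p
    simp only [Set.mem_preimage, Set.mem_pi, Set.mem_univ, forall_true_left, Set.mem_prod]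
    constructor
    · intro h
      refine ⟨fun j => ?_, by simpa using h k⟩
      by_cases hj : j = k
      · subst hj
        simp
      · have := h j
        simpa [Function.update_of_ne hj] using this
    · rintro ⟨h1, h2⟩ j
      by_cases hj : j = k
      · subst hj
        simpa using h2
      · have := h1 j
        simpa [Function.update_of_ne hj] using this
  rw [e, Measure.prod_prod, Measure.pi_pi, ← Finset.mul_prod_erase Finset.univ _ (Finset.mem_univ k),
    ← Finset.mul_prod_erase Finset.univ (fun i => μ (s i)) (Finset.mem_univ k)]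
  have e2 : ∏ x ∈ Finset.univ.erase k, μ (Function.update s k Set.univ x) =
      ∏ x ∈ Finset.univ.erase k, μ (s x) := by
    refine Finset.prod_congr rfl (fun x hx => ?_)
    rw [Function.update_of_ne (Finset.ne_of_mem_erase hx)]
  rw [e2]
  simp [mul_comm]

end IBPAux

open IBPAux in
theorem gauss_ibp {κ : Type} [Fintype κ] [DecidableEq κ] (F F' : (κ → ℝ) → ℝ) (k : κ)
    (hF : Continuous F) (hF' : Continuous F') (bF : ∃ C : ℝ, ∀ x, |F x| ≤ C)
    (bF' : ∃ C : ℝ, ∀ x, |F' x| ≤ C)
    (hd : ∀ x, HasDerivAt (fun s => F (Function.update x k s)) (F' x) (x k)) :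
    ∫ x, x k * F x ∂(Measure.pi fun _ : κ => gaussianReal 0 1) =
      ∫ x, F' x ∂(Measure.pi fun _ : κ => gaussianReal 0 1) := by
  obtain ⟨C, hC⟩ := bF
  obtain ⟨C', hC'⟩ := bF'
  have hmp := map_update (κ := κ) (gaussianReal 0 1) k
  have hcu : Continuous (fun p : (κ → ℝ) × ℝ => Function.update p.1 k p.2) :=
    continuous_fst.update k continuous_snd
  -- integrability on the product
  have hintF' : Integrable (fun x => F' x) (Measure.pi fun _ : κ => gaussianReal 0 1) := by
    refine Integrable.of_bound hF'.aestronglyMeasurable C' ?_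
    filter_upwards with x
    rw [Real.norm_eq_abs]
    exact hC' x
  have hid : Integrable (fun x : ℝ => x) (gaussianReal 0 1) := by
    have h := (memLp_id_gaussianReal (μ := 0) (v := 1) 1)
    have := h.integrable (by norm_num)
    simpa using! this
  have hk : Integrable (fun x : κ → ℝ => x k) (Measure.pi fun _ : κ => gaussianReal 0 1) := by
    exact (measurePreserving_eval (fun _ : κ => gaussianReal 0 1) k).integrable_comp_of_integrable hid
  have hintF : Integrable (fun x => x k * F x) (Measure.pi fun _ : κ => gaussianReal 0 1) := by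
    refine hk.mul_bdd (c := C) hF.aestronglyMeasurable ?_
    filter_upwards with x
    rw [Real.norm_eq_abs]
    exact hC x
  have h1 : ∫ x, x k * F x ∂(Measure.pi fun _ : κ => gaussianReal 0 1) =
      ∫ p : (κ → ℝ) × ℝ, p.2 * F (Function.update p.1 k p.2)
        ∂((Measure.pi fun _ : κ => gaussianReal 0 1).prod (gaussianReal 0 1)) := by
    have hh := integral_map (μ := (Measure.pi fun _ : κ => gaussianReal 0 1).prod (gaussianReal 0 1))
      hmp.measurable.aemeasurable (f := fun x : κ → ℝ => x k * F x)
      (by rw [hmp.map_eq]; exact hintF.aestronglyMeasurable)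
    rw [hmp.map_eq] at hh
    rw [hh]
    simp
  have h2 : ∫ x, F' x ∂(Measure.pi fun _ : κ => gaussianReal 0 1) =
      ∫ p : (κ → ℝ) × ℝ, F' (Function.update p.1 k p.2)
        ∂((Measure.pi fun _ : κ => gaussianReal 0 1).prod (gaussianReal 0 1)) := by
    have hh := integral_map (μ := (Measure.pi fun _ : κ => gaussianReal 0 1).prod (gaussianReal 0 1))
      hmp.measurable.aemeasurable (f := fun x : κ → ℝ => F' x)
      (by rw [hmp.map_eq]; exact hintF'.aestronglyMeasurable)
    rw [hmp.map_eq] at hh
    rw [hh]
  have i1 : Integrable (fun p : (κ → ℝ) × ℝ => p.2 * F (Function.update p.1 k p.2))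
      ((Measure.pi fun _ : κ => gaussianReal 0 1).prod (gaussianReal 0 1)) := by
    have := hmp.integrable_comp_of_integrable hintF
    refine this.congr ?_
    filter_upwards with p
    simp [Function.comp]
  have i2 : Integrable (fun p : (κ → ℝ) × ℝ => F' (Function.update p.1 k p.2))
      ((Measure.pi fun _ : κ => gaussianReal 0 1).prod (gaussianReal 0 1)) :=
    hmp.integrable_comp_of_integrable hintF'
  rw [h1, h2, integral_prod _ i1, integral_prod _ i2]
  refine integral_congr_ae ?_
  filter_upwards with x
  refine gauss_one (fun s => F (Function.update x k s)) (fun s => F' (Function.update x k s))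
    (hF.comp (continuous_const.update k continuous_id))
    (hF'.comp (continuous_const.update k continuous_id)) ⟨C, fun s => hC _⟩ ⟨C', fun s => hC' _⟩ ?_
  intro s
  have := hd (Function.update x k s)
  simp only [Function.update_idem, Function.update_self] at this
  exact this

end

end P150
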