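import Vale.Agent.P150.IBP

/-!
# Slepian's inequality (helper file for P150)
-/

open MeasureTheory ProbabilityTheory Filter Topology

namespace P150

noncomputable section

namespace SlepAux

/-- a smooth cut-off with all its derivatives -/
structure Cut (T δ : ℝ) (g : ℕ → ℝ → ℝ) : Prop where
  nonneg : ∀ x, 0 ≤ g 0 x
  le_one : ∀ x, g 0 x ≤ 1
  one : ∀ x, x ≤ T → g 0 x = 1
  zero : ∀ x, T + δ ≤ x → g 0 x = 0
  neg : ∀ x, g 1 x ≤ 0
  der : ∀ n x, HasDerivAt (g n) (g (n + 1) x) x
  bdd : ∀ n, ∃ C, ∀ x, |g n x| ≤ C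

theorem exists_cut (T δ : ℝ) (hδ : 0 < δ) : ∃ g : ℕ → ℝ → ℝ, Cut T δ g := by
  set f : ℝ → ℝ := fun x => Real.smoothTransition ((T + δ - x) / δ) with hf
  have hfc : ∀ n : ℕ∞, ContDiff ℝ n f := by
    intro n
    exact Real.smoothTransition.contDiff.comp ((contDiff_const.sub contDiff_id).div_const δ)
  have hanti : Antitone f := by
    intro x y hxy
    refine Real.smoothTransition.monotone ?_
    exact div_le_div_of_nonneg_right (by linarith) hδ.le
  refine ⟨fun n => iteratedDeriv n f, ?_, ?_, ?_, ?_, ?_, ?_, ?_⟩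
  · intro x
    rw [iteratedDeriv_zero]
    exact Real.smoothTransition.nonneg _
  · intro x
    rw [iteratedDeriv_zero]
    exact Real.smoothTransition.le_one _
  · intro x hx
    rw [iteratedDeriv_zero]
    refine Real.smoothTransition.one_of_one_le ?_
    rw [le_div_iff₀ hδ]
    linarith
  · intro x hx
    rw [iteratedDeriv_zero]
    refine Real.smoothTransition.zero_of_nonpos ?_
    exact div_nonpos_of_nonpos_of_nonneg (by linarith) hδ.le
  · intro x
    have : iteratedDeriv 1 f x = deriv f x := by rw [iteratedDeriv_one]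
    simp only [this]
    exact hanti.deriv_nonpos
  · intro n x
    have h := (hfc ((n + 1 : ℕ) : ℕ∞)).differentiable_iteratedDeriv' n
    simp only [iteratedDeriv_succ]
    exact (h x).hasDerivAt
  · intro n
    rcases Nat.eq_zero_or_pos n with h0 | hpos
    · subst h0
      refine ⟨1, fun x => ?_⟩
      rw [iteratedDeriv_zero, abs_le]
      exact ⟨by linarith [Real.smoothTransition.nonneg ((T + δ - x) / δ)],
        Real.smoothTransition.le_one _⟩
    · have hcont : Continuous (iteratedDeriv n f) :=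
        ((hfc ((n + 1 : ℕ) : ℕ∞)).differentiable_iteratedDeriv' n).continuous
      obtain ⟨C, hC⟩ := isCompact_Icc.exists_bound_of_continuousOn (s := Set.Icc T (T + δ))
        hcont.continuousOn
      refine ⟨max C 0, fun x => ?_⟩
      by_cases hx : x ∈ Set.Icc T (T + δ)
      · exact (hC x hx).trans (le_max_left _ _)
      · have hz : iteratedDeriv n f x = 0 := by
          rw [Set.mem_Icc, not_and_or, not_le, not_le] at hx
          rcases hx with hx | hx
          · have he : f =ᶠ[𝓝 x] fun _ => (1 : ℝ) := by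
              filter_upwards [eventually_lt_nhds hx] with y hy
              refine Real.smoothTransition.one_of_one_le ?_
              rw [le_div_iff₀ hδ]
              linarith
            rw [he.iteratedDeriv_eq n, iteratedDeriv_const, if_neg hpos.ne']
          · have he : f =ᶠ[𝓝 x] fun _ => (0 : ℝ) := by
              filter_upwards [eventually_gt_nhds hx] with y hy
              refine Real.smoothTransition.zero_of_nonpos ?_
              exact div_nonpos_of_nonpos_of_nonneg (by linarith) hδ.le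
            rw [he.iteratedDeriv_eq n, iteratedDeriv_const, if_neg hpos.ne']
        rw [hz, abs_zero]
        exact le_max_right _ _

variable {U κ : Type} [Fintype U] [DecidableEq U] [Fintype κ]

/-- the product `∏_u g^{(L u)} (Z_u)` -/
def PL (g : ℕ → ℝ → ℝ) (L : U → ℕ) (Z : U → ℝ) : ℝ := ∏ u, g (L u) (Z u)

theorem PL_deriv {T δ : ℝ} {g : ℕ → ℝ → ℝ} (hg : Cut T δ g) (L : U → ℕ) (Z : ℝ → U → ℝ)
    (Z' : U → ℝ) (s : ℝ) (hZ : ∀ u, HasDerivAt (fun r => Z r u) (Z' u) s) :
    HasDerivAt (fun r => PL g L (Z r)) (∑ u, Z' u * PL g (L + Pi.single u 1) (Z s)) s := by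
  have h := HasDerivAt.fun_finsetProd (u := Finset.univ) (x := s)
    (f := fun u r => g (L u) (Z r u)) (f' := fun u => g (L u + 1) (Z s u) * Z' u)
    (fun u _ => (hg.der (L u) (Z s u)).comp s (hZ u))
  refine h.congr_deriv ?_
  refine Finset.sum_congr rfl (fun u _ => ?_)
  unfold PL
  refine Eq.trans ?_ (congrArg (fun y => Z' u * y) (Finset.mul_prod_erase Finset.univ
    (fun v => g ((L + Pi.single u 1 : U → ℕ) v) (Z s v)) (Finset.mem_univ u)))
  have e : ∏ v ∈ Finset.univ.erase u, g ((L + Pi.single u 1 : U → ℕ) v) (Z s v) =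
      ∏ v ∈ Finset.univ.erase u, g (L v) (Z s v) := by
    refine Finset.prod_congr rfl (fun v hv => ?_)
    rw [Pi.add_apply, Pi.single_eq_of_ne (Finset.ne_of_mem_erase hv), add_zero]
  rw [e, Pi.add_apply, Pi.single_eq_same, smul_eq_mul]
  ring

omit [DecidableEq U] in
theorem PL_bdd {T δ : ℝ} {g : ℕ → ℝ → ℝ} (hg : Cut T δ g) (L : U → ℕ) :
    ∃ C : ℝ, ∀ Z : U → ℝ, |PL g L Z| ≤ C := by
  choose C hC using hg.bdd
  refine ⟨∏ u, C (L u), fun Z => ?_⟩
  unfold PL
  rw [Finset.abs_prod]
  exact Finset.prod_le_prod (fun u _ => abs_nonneg _) (fun u _ => hC _ _)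

omit [DecidableEq U] in
theorem PL_cont {T δ : ℝ} {g : ℕ → ℝ → ℝ} (hg : Cut T δ g) (L : U → ℕ) :
    Continuous (PL g L : (U → ℝ) → ℝ) := by
  unfold PL
  refine continuous_finsetProd _ (fun u _ => ?_)
  have : Continuous (g (L u)) := continuous_iff_continuousAt.2 (fun x => (hg.der _ x).continuousAt)
  exact this.comp (continuous_apply u)

theorem PL_nonneg {T δ : ℝ} {g : ℕ → ℝ → ℝ} (hg : Cut T δ g) (u v : U) (huv : u ≠ v)
    (Z : U → ℝ) : 0 ≤ PL g (Pi.single u 1 + Pi.single v 1) Z := by
  unfold PL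
  rw [← Finset.mul_prod_erase Finset.univ _ (Finset.mem_univ u),
    ← Finset.mul_prod_erase (Finset.univ.erase u) _ (Finset.mem_erase.2 ⟨huv.symm, Finset.mem_univ v⟩)]
  have e1 : (Pi.single u 1 + Pi.single v 1 : U → ℕ) u = 1 := by
    simp [Pi.single_eq_of_ne huv]
  have e2 : (Pi.single u 1 + Pi.single v 1 : U → ℕ) v = 1 := by
    simp [Pi.single_eq_of_ne huv.symm]
  rw [e1, e2, ← mul_assoc]
  refine mul_nonneg (mul_nonneg_of_nonpos_of_nonpos (hg.neg _) (hg.neg _)) ?_
  refine Finset.prod_nonneg (fun w hw => ?_)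
  have hwv := Finset.ne_of_mem_erase hw
  have hwu := Finset.ne_of_mem_erase (Finset.mem_of_mem_erase hw)
  have e3 : (Pi.single u 1 + Pi.single v 1 : U → ℕ) w = 0 := by
    simp [Pi.single_eq_of_ne hwu, Pi.single_eq_of_ne hwv]
  rw [e3]
  exact hg.nonneg _

/-- linear Gaussian process -/
def lin (c : U → κ → ℝ) (z : κ → ℝ) (u : U) : ℝ := ∑ k, c u k * z k

omit [Fintype U] [DecidableEq U] in
theorem lin_cont (c : U → κ → ℝ) : Continuous (lin c) := by
  unfold lin
  refine continuous_pi (fun u => continuous_finsetSum _ (fun k _ => ?_))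
  exact continuous_const.mul (continuous_apply k)

theorem ibp_PL [DecidableEq κ] {T δ : ℝ} {g : ℕ → ℝ → ℝ} (hg : Cut T δ g) (c : U → κ → ℝ)
    (L : U → ℕ) (k : κ) :
    ∫ z, z k * PL g L (lin c z) ∂(Measure.pi fun _ : κ => gaussianReal 0 1) =
      ∑ v, c v k * ∫ z, PL g (L + Pi.single v 1) (lin c z)
        ∂(Measure.pi fun _ : κ => gaussianReal 0 1) := by
  have hc : ∀ L' : U → ℕ, Continuous (fun z : κ → ℝ => PL g L' (lin c z)) := fun L' =>
    (PL_cont hg L').comp (lin_cont c)
  have hb : ∀ L' : U → ℕ, ∃ C : ℝ, ∀ z : κ → ℝ, |PL g L' (lin c z)| ≤ C := fun L' => by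
    obtain ⟨C, hC⟩ := PL_bdd hg L'
    exact ⟨C, fun z => hC _⟩
  rw [gauss_ibp (fun z => PL g L (lin c z))
    (fun z => ∑ v, c v k * PL g (L + Pi.single v 1) (lin c z)) k (hc L)
    (continuous_finsetSum _ (fun v _ => continuous_const.mul (hc _))) (hb L) ?_ ?_]
  · rw [integral_finsetSum]
    · refine Finset.sum_congr rfl (fun v _ => ?_)
      rw [integral_const_mul]
    · intro v _
      refine Integrable.const_mul ?_ _
      obtain ⟨C, hC⟩ := hb (L + Pi.single v 1)
      refine Integrable.of_bound (hc _).aestronglyMeasurable C ?_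
      filter_upwards with z
      rw [Real.norm_eq_abs]
      exact hC z
  · choose C hC using fun v => hb (L + Pi.single v 1)
    refine ⟨∑ v, |c v k| * C v, fun z => ?_⟩
    refine (Finset.abs_sum_le_sum_abs _ _).trans (Finset.sum_le_sum (fun v _ => ?_))
    rw [abs_mul]
    exact mul_le_mul_of_nonneg_left (hC v z) (abs_nonneg _)
  · intro z
    have h := PL_deriv hg L (fun s => lin c (Function.update z k s)) (fun v => c v k) (z k)
      (fun v => ?_)
    · simpa using h
    · unfold lin
      have h2 := HasDerivAt.fun_sum (u := Finset.univ) (x := z k)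
        (A := fun j s => c v j * Function.update z k s j)
        (A' := fun j => if j = k then c v j else 0) (fun j _ => ?_)
      · refine h2.congr_deriv ?_
        simp
      · by_cases hj : j = k
        · subst hj
          simp only [Function.update_self, if_true]
          simpa using (hasDerivAt_id (z j)).const_mul (c v j)
        · simp only [Function.update_of_ne hj, if_neg hj]
          exact hasDerivAt_const _ _

/-- restriction of a product measure to the left coordinates -/
theorem map_inl {κ' : Type} [Fintype κ'] (μ : Measure ℝ) [IsProbabilityMeasure μ] :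
    MeasurePreserving (fun z : κ ⊕ κ' → ℝ => fun k => z (Sum.inl k))
      (Measure.pi fun _ : κ ⊕ κ' => μ) (Measure.pi fun _ : κ => μ) := by
  have hm : Measurable (fun z : κ ⊕ κ' → ℝ => fun k : κ => z (Sum.inl k)) :=
    measurable_pi_iff.2 (fun j => measurable_pi_apply _)
  refine ⟨hm, ?_⟩
  symm
  refine Measure.pi_eq (fun s hs => ?_)
  rw [Measure.map_apply hm (MeasurableSet.univ_pi hs)]
  have e : (fun z : κ ⊕ κ' → ℝ => fun k : κ => z (Sum.inl k)) ⁻¹' (Set.pi Set.univ s) =
      Set.pi Set.univ (Sum.elim s (fun _ => Set.univ)) := by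
    ext z
    simp [Set.mem_pi]
  rw [e, Measure.pi_pi, Fintype.prod_sum_type]
  simp

theorem map_inr {κ' : Type} [Fintype κ'] (μ : Measure ℝ) [IsProbabilityMeasure μ] :
    MeasurePreserving (fun z : κ ⊕ κ' → ℝ => fun k => z (Sum.inr k))
      (Measure.pi fun _ : κ ⊕ κ' => μ) (Measure.pi fun _ : κ' => μ) := by
  have hm : Measurable (fun z : κ ⊕ κ' → ℝ => fun k : κ' => z (Sum.inr k)) :=
    measurable_pi_iff.2 (fun j => measurable_pi_apply _)
  refine ⟨hm, ?_⟩
  symm
  refine Measure.pi_eq (fun s hs => ?_)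
  rw [Measure.map_apply hm (MeasurableSet.univ_pi hs)]
  have e : (fun z : κ ⊕ κ' → ℝ => fun k : κ' => z (Sum.inr k)) ⁻¹' (Set.pi Set.univ s) =
      Set.pi Set.univ (Sum.elim (fun _ => Set.univ) s) := by
    ext z
    simp [Set.mem_pi]
  rw [e, Measure.pi_pi, Fintype.prod_sum_type]
  simp

/-- interpolating coefficients -/
def cc {κ' : Type} (a : U → κ → ℝ) (b : U → κ' → ℝ) (x y : ℝ) (u : U) : κ ⊕ κ' → ℝ :=
  Sum.elim (fun k => x * a u k) (fun k => y * b u k)

omit [Fintype U] [DecidableEq U] [Fintype κ] in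
theorem cc_abs {κ' : Type} (a : U → κ → ℝ) (b : U → κ' → ℝ) (x y : ℝ) (hx : |x| ≤ 1)
    (hy : |y| ≤ 1) (u : U) (k : κ ⊕ κ') : |cc a b x y u k| ≤ |cc a b 1 1 u k| := by
  rcases k with k | k
  · simp only [cc, Sum.elim_inl, abs_mul, one_mul]
    exact mul_le_of_le_one_left (abs_nonneg _) hx
  · simp only [cc, Sum.elim_inr, abs_mul, one_mul]
    exact mul_le_of_le_one_left (abs_nonneg _) hy

omit [Fintype U] [DecidableEq U] [Fintype κ] in
theorem cc_deriv {κ' : Type} (a : U → κ → ℝ) (b : U → κ' → ℝ) (θ : ℝ) (u : U) (k : κ ⊕ κ') :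
    HasDerivAt (fun t => cc a b (Real.cos t) (Real.sin t) u k)
      (cc a b (-Real.sin θ) (Real.cos θ) u k) θ := by
  rcases k with k | k
  · simp only [cc, Sum.elim_inl]
    exact (Real.hasDerivAt_cos θ).mul_const _
  · simp only [cc, Sum.elim_inr]
    exact (Real.hasDerivAt_sin θ).mul_const _

theorem integrable_coord (k : κ) :
    Integrable (fun z : κ → ℝ => z k) (Measure.pi fun _ : κ => gaussianReal 0 1) := by
  have hid : Integrable (fun x : ℝ => x) (gaussianReal 0 1) := by
    have h := (memLp_id_gaussianReal (μ := 0) (v := 1) 1)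
    have := h.integrable (by norm_num)
    simpa using! this
  exact (measurePreserving_eval (fun _ : κ => gaussianReal 0 1) k).integrable_comp_of_integrable hid

theorem phi_deriv {κ' : Type} [Fintype κ'] [DecidableEq κ] [DecidableEq κ'] {T δ : ℝ}
    {g : ℕ → ℝ → ℝ} (hg : Cut T δ g) (a : U → κ → ℝ) (b : U → κ' → ℝ) (θ : ℝ) :
    HasDerivAt (fun t => ∫ z, PL g (0 : U → ℕ) (lin (cc a b (Real.cos t) (Real.sin t)) z)
        ∂(Measure.pi fun _ : κ ⊕ κ' => gaussianReal 0 1))
      (∑ u, ∑ v, (∑ k, cc a b (-Real.sin θ) (Real.cos θ) u k *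
          cc a b (Real.cos θ) (Real.sin θ) v k) *
        ∫ z, PL g (Pi.single u 1 + Pi.single v 1) (lin (cc a b (Real.cos θ) (Real.sin θ)) z)
          ∂(Measure.pi fun _ : κ ⊕ κ' => gaussianReal 0 1)) θ := by
  set μ := (Measure.pi fun _ : κ ⊕ κ' => gaussianReal 0 1) with hμ
  have hc : ∀ (x y : ℝ) (L' : U → ℕ), Continuous (fun z : κ ⊕ κ' → ℝ => PL g L' (lin (cc a b x y) z)) :=
    fun x y L' => (PL_cont hg L').comp (lin_cont _)
  choose C hC using fun L' : U → ℕ => PL_bdd (U := U) hg L'
  have hInt : ∀ (x y : ℝ) (L' : U → ℕ),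
      Integrable (fun z : κ ⊕ κ' → ℝ => PL g L' (lin (cc a b x y) z)) μ := by
    intro x y L'
    refine Integrable.of_bound (hc x y L').aestronglyMeasurable (C L') ?_
    filter_upwards with z
    rw [Real.norm_eq_abs]
    exact hC _ _
  have hInt2 : ∀ (x y : ℝ) (L' : U → ℕ) (k : κ ⊕ κ'),
      Integrable (fun z : κ ⊕ κ' → ℝ => z k * PL g L' (lin (cc a b x y) z)) μ := by
    intro x y L' k
    refine (integrable_coord k).mul_bdd (c := C L') (hc x y L').aestronglyMeasurable ?_
    filter_upwards with z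
    rw [Real.norm_eq_abs]
    exact hC _ _
  have hC0 : ∀ L', 0 ≤ C L' := fun L' => (abs_nonneg _).trans (hC L' 0)
  have key := hasDerivAt_integral_of_dominated_loc_of_deriv_le (μ := μ) (x₀ := θ) (s := Set.univ)
    (F := fun t z => PL g (0 : U → ℕ) (lin (cc a b (Real.cos t) (Real.sin t)) z))
    (F' := fun t z => ∑ u, lin (cc a b (-Real.sin t) (Real.cos t)) z u *
      PL g (0 + Pi.single u 1) (lin (cc a b (Real.cos t) (Real.sin t)) z))
    (bound := fun z => ∑ u, (∑ k, |cc a b 1 1 u k| * |z k|) * C (0 + Pi.single u 1))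
    Filter.univ_mem
    (by
      filter_upwards with t
      exact (hc _ _ _).aestronglyMeasurable)
    (hInt _ _ _)
    (by
      refine Continuous.aestronglyMeasurable ?_
      refine continuous_finsetSum _ (fun u _ => ?_)
      exact ((continuous_apply u).comp (lin_cont _)).mul (hc _ _ _))
    (by
      filter_upwards with z t _
      rw [Real.norm_eq_abs]
      refine (Finset.abs_sum_le_sum_abs _ _).trans (Finset.sum_le_sum (fun u _ => ?_))
      rw [abs_mul]
      refine mul_le_mul ?_ (hC _ _) (abs_nonneg _)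
        (Finset.sum_nonneg (fun k _ => mul_nonneg (abs_nonneg _) (abs_nonneg _)))
      unfold lin
      refine (Finset.abs_sum_le_sum_abs _ _).trans (Finset.sum_le_sum (fun k _ => ?_))
      rw [abs_mul]
      refine mul_le_mul_of_nonneg_right (cc_abs a b _ _ ?_ (Real.abs_cos_le_one t) u k)
        (abs_nonneg _)
      rw [abs_neg]
      exact Real.abs_sin_le_one t)
    (by
      refine integrable_finsetSum _ (fun u _ => ?_)
      refine Integrable.mul_const ?_ _
      refine integrable_finsetSum _ (fun k _ => ?_)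
      exact ((integrable_coord k).abs).const_mul _)
    (by
      filter_upwards with z t _
      have h := PL_deriv hg (0 : U → ℕ) (fun r => lin (cc a b (Real.cos r) (Real.sin r)) z)
        (fun u => lin (cc a b (-Real.sin t) (Real.cos t)) z u) t (fun u => ?_)
      · exact h
      · unfold lin
        exact HasDerivAt.fun_sum (fun k _ => (cc_deriv a b t u k).mul_const (z k)))
  refine key.2.congr_deriv ?_
  rw [integral_finsetSum]
  · refine Finset.sum_congr rfl (fun u _ => ?_)
    have e1 : (fun z : κ ⊕ κ' → ℝ => lin (cc a b (-Real.sin θ) (Real.cos θ)) z u *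
        PL g (0 + Pi.single u 1) (lin (cc a b (Real.cos θ) (Real.sin θ)) z)) =
        fun z => ∑ k, cc a b (-Real.sin θ) (Real.cos θ) u k * (z k *
          PL g (0 + Pi.single u 1) (lin (cc a b (Real.cos θ) (Real.sin θ)) z)) := by
      funext z
      conv_lhs => unfold lin
      rw [Finset.sum_mul]
      refine Finset.sum_congr rfl (fun k _ => ?_)
      rw [mul_assoc]
      rfl
    rw [e1, integral_finsetSum]
    · have e2 : ∀ k, ∫ z, cc a b (-Real.sin θ) (Real.cos θ) u k * (z k *
          PL g (0 + Pi.single u 1) (lin (cc a b (Real.cos θ) (Real.sin θ)) z)) ∂μ =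
          ∑ v, (cc a b (-Real.sin θ) (Real.cos θ) u k * cc a b (Real.cos θ) (Real.sin θ) v k) *
            ∫ z, PL g (Pi.single u 1 + Pi.single v 1) (lin (cc a b (Real.cos θ) (Real.sin θ)) z) ∂μ := by
        intro k
        rw [integral_const_mul, ibp_PL hg, Finset.mul_sum]
        refine Finset.sum_congr rfl (fun v _ => ?_)
        rw [zero_add, mul_assoc]
      simp only [e2]
      rw [Finset.sum_comm]
      refine Finset.sum_congr rfl (fun v _ => ?_)
      rw [Finset.sum_mul]
    · intro k _
      exact (hInt2 _ _ _ k).const_mul _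
  · intro u _
    have e1 : (fun z : κ ⊕ κ' → ℝ => lin (cc a b (-Real.sin θ) (Real.cos θ)) z u *
        PL g (0 + Pi.single u 1) (lin (cc a b (Real.cos θ) (Real.sin θ)) z)) =
        fun z => ∑ k, cc a b (-Real.sin θ) (Real.cos θ) u k * (z k *
          PL g (0 + Pi.single u 1) (lin (cc a b (Real.cos θ) (Real.sin θ)) z)) := by
      funext z
      conv_lhs => unfold lin
      rw [Finset.sum_mul]
      refine Finset.sum_congr rfl (fun k _ => ?_)
      rw [mul_assoc]
      rfl
    rw [e1]
    exact integrable_finsetSum _ (fun k _ => (hInt2 _ _ _ k).const_mul _)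

end SlepAux

open SlepAux in
theorem slepian {U κ κ' : Type} [Fintype U] [Fintype κ] [Fintype κ']
    (a : U → κ → ℝ) (b : U → κ' → ℝ)
    (hdiag : ∀ u, ∑ k, a u k ^ 2 = ∑ k, b u k ^ 2)
    (hoff : ∀ u v, ∑ k, b u k * b v k ≤ ∑ k, a u k * a v k)
    (T δ : ℝ) (hδ : 0 < δ) :
    (Measure.pi fun _ : κ' => gaussianReal 0 1) {z | ∀ u, ∑ k, b u k * z k ≤ T} ≤
      (Measure.pi fun _ : κ => gaussianReal 0 1) {z | ∀ u, ∑ k, a u k * z k < T + δ} := by
  classical
  obtain ⟨g, hg⟩ := exists_cut T δ hδ
  set μ := (Measure.pi fun _ : κ ⊕ κ' => gaussianReal 0 1) with hμ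
  set Φ : ℝ → ℝ := fun t => ∫ z, PL g (0 : U → ℕ) (lin (cc a b (Real.cos t) (Real.sin t)) z) ∂μ
    with hΦ
  have hder := phi_deriv hg a b
  have hpi : (0 : ℝ) ≤ Real.pi / 2 := by positivity
  have hanti : AntitoneOn Φ (Set.Icc 0 (Real.pi / 2)) := by
    refine antitoneOn_of_deriv_nonpos (convex_Icc _ _)
      (fun t _ => (hder t).continuousAt.continuousWithinAt)
      (fun t _ => (hder t).differentiableAt.differentiableWithinAt) ?_
    intro t ht
    rw [interior_Icc] at ht
    rw [(hder t).deriv]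
    refine Finset.sum_nonpos (fun u _ => Finset.sum_nonpos (fun v _ => ?_))
    have e : ∑ k, cc a b (-Real.sin t) (Real.cos t) u k * cc a b (Real.cos t) (Real.sin t) v k =
        Real.sin t * Real.cos t * (∑ k, b u k * b v k - ∑ k, a u k * a v k) := by
      rw [Fintype.sum_sum_type]
      simp only [cc, Sum.elim_inl, Sum.elim_inr]
      rw [mul_sub, Finset.mul_sum, Finset.mul_sum, add_comm, sub_eq_add_neg, ← Finset.sum_neg_distrib]
      congr 1
      · exact Finset.sum_congr rfl (fun k _ => by ring)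
      · exact Finset.sum_congr rfl (fun k _ => by ring)
    rw [e]
    by_cases huv : u = v
    · subst huv
      have e0 : ∑ k, b u k * b u k - ∑ k, a u k * a u k = 0 := by
        have := hdiag u
        simp only [sq] at this
        linarith
      rw [e0]
      simp
    · refine mul_nonpos_of_nonpos_of_nonneg ?_ (integral_nonneg (fun z => PL_nonneg hg u v huv _))
      have hs : 0 ≤ Real.sin t := Real.sin_nonneg_of_nonneg_of_le_pi ht.1.le (by linarith [ht.2, Real.pi_pos])
      have hcs : 0 ≤ Real.cos t := Real.cos_nonneg_of_neg_pi_div_two_le_of_le (by linarith [ht.1, Real.pi_pos]) ht.2.le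
      refine mul_nonpos_of_nonneg_of_nonpos (mul_nonneg hs hcs) ?_
      linarith [hoff u v]
  have hle : Φ (Real.pi / 2) ≤ Φ 0 :=
    hanti (Set.left_mem_Icc.2 hpi) (Set.right_mem_Icc.2 hpi) hpi
  have hPL0 : ∀ Z : U → ℝ, 0 ≤ PL g (0 : U → ℕ) Z := fun Z =>
    Finset.prod_nonneg (fun u _ => hg.nonneg _)
  have hPL1 : ∀ Z : U → ℝ, PL g (0 : U → ℕ) Z ≤ 1 := fun Z =>
    Finset.prod_le_one (fun u _ => hg.nonneg _) (fun u _ => hg.le_one _)
  have hInt : ∀ x y : ℝ, Integrable (fun z : κ ⊕ κ' → ℝ => PL g (0 : U → ℕ) (lin (cc a b x y) z)) μ := by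
    intro x y
    refine Integrable.of_bound ((PL_cont hg _).comp (lin_cont _)).aestronglyMeasurable 1 ?_
    filter_upwards with z
    rw [Real.norm_eq_abs, abs_of_nonneg (hPL0 _)]
    exact hPL1 _
  set A : Set (κ → ℝ) := {z | ∀ u, ∑ k, a u k * z k < T + δ} with hA
  set B : Set (κ' → ℝ) := {z | ∀ u, ∑ k, b u k * z k ≤ T} with hB
  have hAm : MeasurableSet A := by
    rw [hA, Set.ofPred_forall]
    refine MeasurableSet.iInter (fun u => ?_)
    refine measurableSet_lt ?_ measurable_const
    exact (continuous_finsetSum _ (fun k _ => continuous_const.mul (continuous_apply k))).measurable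
  have hBm : MeasurableSet B := by
    rw [hB, Set.ofPred_forall]
    refine MeasurableSet.iInter (fun u => ?_)
    refine measurableSet_le ?_ measurable_const
    exact (continuous_finsetSum _ (fun k _ => continuous_const.mul (continuous_apply k))).measurable
  have mA := map_inl (κ := κ) (κ' := κ') (gaussianReal 0 1)
  have mB := map_inr (κ := κ) (κ' := κ') (gaussianReal 0 1)
  rw [← mA.measure_preimage hAm.nullMeasurableSet, ← mB.measure_preimage hBm.nullMeasurableSet]
  set A' : Set (κ ⊕ κ' → ℝ) := (fun z : κ ⊕ κ' → ℝ => fun k => z (Sum.inl k)) ⁻¹' A with hA'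
  set B' : Set (κ ⊕ κ' → ℝ) := (fun z : κ ⊕ κ' → ℝ => fun k => z (Sum.inr k)) ⁻¹' B with hB'
  have hA'm : MeasurableSet A' := mA.measurable hAm
  have hB'm : MeasurableSet B' := mB.measurable hBm
  have h1 : Φ 0 ≤ μ.real A' := by
    rw [← integral_indicator_one hA'm]
    refine integral_mono (hInt _ _) ((integrable_const (1 : ℝ)).indicator hA'm) (fun z => ?_)
    by_cases hz : z ∈ A'
    · rw [Set.indicator_of_mem hz]
      exact hPL1 _
    · rw [Set.indicator_of_notMem hz]
      have : ∃ u, T + δ ≤ ∑ k, a u k * z (Sum.inl k) := by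
        by_contra hcon
        push Not at hcon
        exact hz hcon
      obtain ⟨u, hu⟩ := this
      refine le_of_eq ?_
      refine Finset.prod_eq_zero (Finset.mem_univ u) ?_
      refine hg.zero _ ?_
      unfold lin
      rw [Fintype.sum_sum_type]
      simpa [cc] using hu
  have h2 : μ.real B' ≤ Φ (Real.pi / 2) := by
    rw [← integral_indicator_one hB'm]
    refine integral_mono ((integrable_const (1 : ℝ)).indicator hB'm) (hInt _ _) (fun z => ?_)
    by_cases hz : z ∈ B'
    · rw [Set.indicator_of_mem hz]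
      refine le_of_eq ?_
      symm
      refine Finset.prod_eq_one (fun u _ => ?_)
      refine hg.one _ ?_
      have := hz u
      unfold lin
      rw [Fintype.sum_sum_type]
      simpa [cc] using this
    · rw [Set.indicator_of_notMem hz]
      exact hPL0 _
  have h3 : μ.real B' ≤ μ.real A' := h2.trans (hle.trans h1)
  rw [measureReal_def, measureReal_def] at h3
  exact (ENNReal.toReal_le_toReal (measure_ne_top _ _) (measure_ne_top _ _)).1 h3

end

end P150
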