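import Vale.Agent.P150.GaussTail
import Vale.Agent.P150.Slepian

/-!
# The largest eigenvalue of the coupling matrix (helper file for P150)
-/

open MeasureTheory ProbabilityTheory Filter Topology

namespace P150

noncomputable section

namespace LamAux

/-- the coefficients of the enlarged process -/
def ac {n : ℕ} (p0 : Fin n × Fin n) (sg : ℝ) (u : Fin n → ℝ) (p : Fin n × Fin n) : ℝ :=
  (if p.1 < p.2 then 2 * sg * (u p.1 * u p.2) else 0) +
  (if p.1 = p.2 then Real.sqrt 2 * (u p.1 * u p.2) else 0) +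
  (if p = p0 then Real.sqrt 2 else 0)

theorem sum_split {n : ℕ} (w : Fin n → Fin n → ℝ) (hw : ∀ i j, w i j = w j i) :
    ∑ i, ∑ j, w i j = 2 * (∑ p : Fin n × Fin n, if p.1 < p.2 then w p.1 p.2 else 0) +
      ∑ p : Fin n × Fin n, if p.1 = p.2 then w p.1 p.2 else 0 := by
  have h1 : ∑ i, ∑ j, w i j = ∑ p : Fin n × Fin n, w p.1 p.2 := by
    rw [Fintype.sum_prod_type]
  have h2 : ∑ p : Fin n × Fin n, (if p.2 < p.1 then w p.1 p.2 else 0) =
      ∑ p : Fin n × Fin n, if p.1 < p.2 then w p.1 p.2 else 0 := by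
    rw [← Equiv.sum_comp (Equiv.prodComm (Fin n) (Fin n))]
    refine Finset.sum_congr rfl (fun p _ => ?_)
    obtain ⟨i, j⟩ := p
    change (if i < j then w j i else 0) = if i < j then w i j else 0
    rw [hw j i]
  rw [h1, two_mul]
  nth_rewrite 2 [← h2]
  rw [← Finset.sum_add_distrib, ← Finset.sum_add_distrib]
  refine Finset.sum_congr rfl (fun p _ => ?_)
  rcases lt_trichotomy p.1 p.2 with h | h | h
  · rw [if_pos h, if_neg h.not_gt, if_neg h.ne]
    ring
  · rw [if_neg (by rw [h]; exact lt_irrefl _), if_neg (by rw [h]; exact lt_irrefl _), if_pos h]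
    ring
  · rw [if_neg h.not_gt, if_pos h, if_neg h.ne']
    ring

theorem ac_cov {n : ℕ} (p0 : Fin n × Fin n) (hp0 : p0.2 < p0.1) (sg : ℝ)
    (hsg : sg = 1 ∨ sg = -1) (u v : Fin n → ℝ) :
    ∑ p, ac p0 sg u p * ac p0 sg v p = 2 * (∑ i, u i * v i) ^ 2 + 2 := by
  have hsg2 : sg ^ 2 = 1 := by
    rcases hsg with h | h <;> rw [h] <;> norm_num
  have hs2 : Real.sqrt 2 * Real.sqrt 2 = 2 := Real.mul_self_sqrt (by norm_num)
  have e1 : ∀ p : Fin n × Fin n, ac p0 sg u p * ac p0 sg v p =
      4 * (if p.1 < p.2 then (u p.1 * v p.1) * (u p.2 * v p.2) else 0) +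
      2 * (if p.1 = p.2 then (u p.1 * v p.1) * (u p.2 * v p.2) else 0) +
      (if p = p0 then 2 else 0) := by
    intro p
    unfold ac
    by_cases hp : p = p0
    · have h1 : ¬ p.1 < p.2 := by rw [hp]; exact hp0.not_gt
      have h2 : ¬ p.1 = p.2 := by rw [hp]; exact hp0.ne'
      simp only [if_neg h1, if_neg h2, if_pos hp]
      rw [zero_add, zero_add, hs2]
      ring
    · simp only [if_neg hp]
      rcases lt_trichotomy p.1 p.2 with h | h | h
      · simp only [if_pos h, if_neg h.ne]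
        linear_combination (4 * (u p.1 * v p.1) * (u p.2 * v p.2)) * hsg2
      · have h' : ¬ p.1 < p.2 := by rw [h]; exact lt_irrefl _
        simp only [if_neg h', if_pos h]
        linear_combination ((u p.1 * v p.1) * (u p.2 * v p.2)) * hs2
      · simp only [if_neg h.not_gt, if_neg h.ne']
        ring
  simp only [e1]
  rw [Finset.sum_add_distrib, Finset.sum_add_distrib, ← Finset.mul_sum, ← Finset.mul_sum,
    Finset.sum_ite_eq' Finset.univ p0, if_pos (Finset.mem_univ p0)]
  have e2 := sum_split (fun i j => (u i * v i) * (u j * v j)) (fun i j => mul_comm _ _)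
  have e3 : (∑ i, u i * v i) ^ 2 = ∑ i, ∑ j, (u i * v i) * (u j * v j) := by
    rw [sq, Finset.sum_mul_sum]
  rw [e3, e2]
  ring

theorem ac_lin {n : ℕ} (p0 : Fin n × Fin n) (sg : ℝ) (u : Fin n → ℝ) (g : Fin n × Fin n → ℝ) :
    ∑ p, ac p0 sg u p * g p =
      sg * (∑ i, ∑ j, (if i = j then 0 else cpl g i j) * u i * u j) +
      Real.sqrt 2 * (∑ i, g (i, i) * u i ^ 2) + Real.sqrt 2 * g p0 := by
  have e2 := sum_split (fun i j => (if i = j then 0 else cpl g i j) * u i * u j) (fun i j => by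
    by_cases h : i = j
    · rw [h]
    · rw [if_neg h, if_neg (fun h' => h h'.symm)]
      have : cpl g i j = cpl g j i := by
        unfold cpl
        rcases lt_trichotomy i j with h1 | h1 | h1
        · rw [if_pos h1, if_neg h1.not_gt]
        · exact absurd h1 h
        · rw [if_neg h1.not_gt, if_pos h1]
      rw [this]
      ring)
  rw [e2]
  have e3 : ∑ p : Fin n × Fin n, (if p.1 = p.2 then (if p.1 = p.2 then 0 else cpl g p.1 p.2) *
      u p.1 * u p.2 else 0) = 0 := by
    refine Finset.sum_eq_zero (fun p _ => ?_)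
    split_ifs
    · ring
    · rfl
  have e4 : ∑ p : Fin n × Fin n, (if p.1 < p.2 then (if p.1 = p.2 then 0 else cpl g p.1 p.2) *
      u p.1 * u p.2 else 0) = ∑ p : Fin n × Fin n, (if p.1 < p.2 then u p.1 * u p.2 * g p else 0) := by
    refine Finset.sum_congr rfl (fun p _ => ?_)
    by_cases h : p.1 < p.2
    · rw [if_pos h, if_pos h, if_neg h.ne]
      unfold cpl
      rw [if_pos h]
      ring
    · rw [if_neg h, if_neg h]
  have e5 : ∑ i, g (i, i) * u i ^ 2 =
      ∑ p : Fin n × Fin n, (if p.1 = p.2 then u p.1 * u p.2 * g p else 0) := by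
    rw [Fintype.sum_prod_type]
    refine Finset.sum_congr rfl (fun i _ => ?_)
    simp only
    rw [Finset.sum_ite_eq Finset.univ i, if_pos (Finset.mem_univ i)]
    ring
  rw [e3, e4, e5, add_zero]
  have e6 : Real.sqrt 2 * g p0 = ∑ p, (if p = p0 then Real.sqrt 2 * g p else 0) := by
    rw [Finset.sum_ite_eq' Finset.univ p0, if_pos (Finset.mem_univ p0)]
  rw [e6, ← mul_assoc, Finset.mul_sum, Finset.mul_sum, ← Finset.sum_add_distrib,
    ← Finset.sum_add_distrib]
  refine Finset.sum_congr rfl (fun p _ => ?_)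
  unfold ac
  split_ifs <;> ring

end LamAux

open LamAux

/-- Slepian applied to a finite subset of the sphere -/
theorem net_bound (ε : ℝ) (hε : 0 < ε) (sg : ℝ) (hsg : sg = 1 ∨ sg = -1)
    (U : (n : ℕ) → Finset (Fin n → ℝ)) (hU : ∀ n, ∀ u ∈ U n, ∑ i, u i ^ 2 = 1) :
    Tendsto (fun n : ℕ => disorder n {g | ∀ u ∈ U n,
      sg * (∑ i, ∑ j, (if i = j then 0 else cpl g i j) * u i * u j) ≤ (2 + ε) * Real.sqrt n})
      atTop (𝓝 1) := by
  have hpr : ∀ n, IsProbabilityMeasure (disorder n) := fun n => by unfold disorder; infer_instance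
  have hε1 : 0 < ε / 4 := by positivity
  have hε2 : 0 < ε / 16 := by positivity
  have t1 := gauss_norm (ε / 4) hε1
  have t2 := g_entries (ε / 16) hε2
  -- lower bound `P(A) ≥ P(norm) + P(entries) - 1`
  have t3 : Tendsto (fun n : ℕ => ((Measure.pi fun _ : Fin n => gaussianReal 0 1)
      {z | ∑ i, z i ^ 2 ≤ (1 + ε / 4) * n} + disorder n {g | ∀ p : Fin n × Fin n,
        |g p| ≤ ε / 16 * Real.sqrt n}) - 1) atTop (𝓝 1) := by
    have h := ENNReal.Tendsto.sub (t1.add t2) (tendsto_const_nhds (x := (1 : ENNReal)))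
      (Or.inr ENNReal.one_ne_top)
    have e : (1 : ENNReal) + 1 - 1 = 1 := ENNReal.add_sub_cancel_right ENNReal.one_ne_top
    rw [e] at h
    exact h
  refine tendsto_of_tendsto_of_tendsto_of_le_of_le' t3 tendsto_const_nhds ?_
    (Eventually.of_forall (fun n => prob_le_one))
  filter_upwards [eventually_ge_atTop 2] with n hn
  set p0 : Fin n × Fin n := (⟨1, by omega⟩, ⟨0, by omega⟩) with hp0def
  have hp0 : p0.2 < p0.1 := by
    rw [hp0def]
    exact Fin.mk_lt_mk.2 (by norm_num)
  have hn0 : (0 : ℝ) ≤ n := Nat.cast_nonneg n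
  set T : ℝ := (2 + ε / 4) * Real.sqrt n with hT
  have hsn : 0 < Real.sqrt n := Real.sqrt_pos.2 (Nat.cast_pos.2 (by omega))
  set δ : ℝ := ε / 4 * Real.sqrt n with hδ
  have hδ0 : 0 < δ := by positivity
  have hS := slepian (U := {u // u ∈ U n}) (κ := Fin n × Fin n) (κ' := Fin n)
    (fun u => ac p0 sg u.1) (fun u i => 2 * u.1 i)
    (by
      intro u
      have h := ac_cov p0 hp0 sg hsg u.1 u.1
      simp only [← sq] at h
      rw [h]
      simp only [mul_pow, ← Finset.mul_sum, hU n u.1 u.2]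
      norm_num)
    (by
      intro u v
      rw [ac_cov p0 hp0 sg hsg u.1 v.1]
      have e : ∑ k, 2 * u.1 k * (2 * v.1 k) = 4 * ∑ k, u.1 k * v.1 k := by
        rw [Finset.mul_sum]
        exact Finset.sum_congr rfl (fun k _ => by ring)
      rw [e]
      nlinarith [sq_nonneg ((∑ k, u.1 k * v.1 k) - 1)])
    T δ hδ0
  have hnorm : (Measure.pi fun _ : Fin n => gaussianReal 0 1)
      {z | ∑ i, z i ^ 2 ≤ (1 + ε / 4) * n} ≤ (Measure.pi fun _ : Fin n => gaussianReal 0 1)
      {z | ∀ u : {u // u ∈ U n}, ∑ k, 2 * u.1 k * z k ≤ T} := by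
    refine measure_mono ?_
    intro z hz u
    rw [Set.mem_ofPred_eq] at hz
    have hcs := Finset.sum_mul_sq_le_sq_mul_sq Finset.univ u.1 z
    rw [hU n u.1 u.2, one_mul] at hcs
    have e : ∑ k, 2 * u.1 k * z k = 2 * ∑ k, u.1 k * z k := by
      rw [Finset.mul_sum]
      exact Finset.sum_congr rfl (fun k _ => by ring)
    rw [e]
    have h1 : (∑ k, u.1 k * z k) ^ 2 ≤ ((1 + ε / 8) * Real.sqrt n) ^ 2 := by
      rw [mul_pow, Real.sq_sqrt hn0]
      refine hcs.trans (hz.trans ?_)
      refine mul_le_mul_of_nonneg_right ?_ hn0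
      nlinarith
    have h2 := abs_le_of_sq_le_sq' h1 (by positivity)
    rw [hT]
    nlinarith [h2.2]
  set E1 : Set (Fin n × Fin n → ℝ) := {z | ∀ u : {u // u ∈ U n}, ∑ k, ac p0 sg u.1 k * z k < T + δ}
    with hE1
  set E2 : Set (Fin n × Fin n → ℝ) := {g | ∀ p : Fin n × Fin n, |g p| ≤ ε / 16 * Real.sqrt n} with hE2
  have hcl : (Measure.pi fun _ : Fin n => gaussianReal 0 1)
      {z | ∑ i, z i ^ 2 ≤ (1 + ε / 4) * n} ≤ disorder n E1 := hnorm.trans hS
  have hsub : E1 ∩ E2 ⊆ {g | ∀ u ∈ U n,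
      sg * (∑ i, ∑ j, (if i = j then 0 else cpl g i j) * u i * u j) ≤ (2 + ε) * Real.sqrt n} := by
    intro g hg u hu
    have h1 := hg.1 ⟨u, hu⟩
    rw [ac_lin p0 sg u g] at h1
    have h2 : |∑ i, g (i, i) * u i ^ 2| ≤ ε / 16 * Real.sqrt n := by
      calc |∑ i, g (i, i) * u i ^ 2| ≤ ∑ i, |g (i, i) * u i ^ 2| := Finset.abs_sum_le_sum_abs _ _
        _ ≤ ∑ i, (ε / 16 * Real.sqrt n) * u i ^ 2 := by
            refine Finset.sum_le_sum (fun i _ => ?_)
            rw [abs_mul, abs_of_nonneg (sq_nonneg (u i))]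
            exact mul_le_mul_of_nonneg_right (hg.2 (i, i)) (sq_nonneg _)
        _ = ε / 16 * Real.sqrt n := by
            rw [← Finset.mul_sum, hU n u hu, mul_one]
    have h3 := hg.2 p0
    have hs2 : Real.sqrt 2 ≤ 2 := by
      rw [Real.sqrt_le_left (by norm_num)]
      norm_num
    have hs0 : 0 ≤ Real.sqrt 2 := Real.sqrt_nonneg 2
    have h4 : -(2 * (ε / 16 * Real.sqrt n)) ≤ Real.sqrt 2 * (∑ i, g (i, i) * u i ^ 2) := by
      have hb : 0 ≤ ε / 16 * Real.sqrt n := by positivity
      have := (abs_le.1 h2).1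
      nlinarith
    have h5 : -(2 * (ε / 16 * Real.sqrt n)) ≤ Real.sqrt 2 * g p0 := by
      have hb : 0 ≤ ε / 16 * Real.sqrt n := by positivity
      have := (abs_le.1 h3).1
      nlinarith
    rw [hT, hδ] at h1
    nlinarith
  have hE2m : MeasurableSet E2 := by
    have e : E2 = ⋂ p : Fin n × Fin n, {g : Fin n × Fin n → ℝ | |g p| ≤ ε / 16 * Real.sqrt n} := by
      ext g
      simp [hE2]
    rw [e]
    refine MeasurableSet.iInter (fun p => ?_)
    exact measurableSet_le (measurable_pi_apply p).abs measurable_const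
  have hun := measure_union_add_inter (μ := disorder n) E1 hE2m
  have hle : disorder n (E1 ∪ E2) ≤ 1 := prob_le_one
  have hfin : (Measure.pi fun _ : Fin n => gaussianReal 0 1)
      {z | ∑ i, z i ^ 2 ≤ (1 + ε / 4) * n} + disorder n E2 - 1 ≤ disorder n E1 + disorder n E2 - 1 := by
    gcongr
  refine hfin.trans ?_
  calc disorder n E1 + disorder n E2 - 1
    _ = disorder n (E1 ∪ E2) + disorder n (E1 ∩ E2) - 1 := by rw [hun]
    _ ≤ 1 + disorder n (E1 ∩ E2) - 1 := by gcongr
    _ = disorder n (E1 ∩ E2) := ENNReal.add_sub_cancel_left ENNReal.one_ne_top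
    _ ≤ _ := measure_mono hsub

namespace LamAux

theorem inter_one (A B : ∀ n : ℕ, Set (Fin n × Fin n → ℝ)) (hB : ∀ n, MeasurableSet (B n))
    (tA : Tendsto (fun n => disorder n (A n)) atTop (𝓝 1))
    (tB : Tendsto (fun n => disorder n (B n)) atTop (𝓝 1)) :
    Tendsto (fun n => disorder n (A n ∩ B n)) atTop (𝓝 1) := by
  have hpr : ∀ n, IsProbabilityMeasure (disorder n) := fun n => by unfold disorder; infer_instance
  have t3 : Tendsto (fun n : ℕ => (disorder n (A n) + disorder n (B n)) - 1) atTop (𝓝 1) := by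
    have h := ENNReal.Tendsto.sub (tA.add tB) (tendsto_const_nhds (x := (1 : ENNReal)))
      (Or.inr ENNReal.one_ne_top)
    have e : (1 : ENNReal) + 1 - 1 = 1 := ENNReal.add_sub_cancel_right ENNReal.one_ne_top
    rw [e] at h
    exact h
  refine tendsto_of_tendsto_of_tendsto_of_le_of_le t3 tendsto_const_nhds ?_
    (fun n => prob_le_one)
  intro n
  have hun := measure_union_add_inter (μ := disorder n) (A n) (hB n)
  have hle : disorder n (A n ∪ B n) ≤ 1 := prob_le_one
  calc disorder n (A n) + disorder n (B n) - 1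
      = disorder n (A n ∪ B n) + disorder n (A n ∩ B n) - 1 := by rw [hun]
    _ ≤ 1 + disorder n (A n ∩ B n) - 1 := by gcongr
    _ = disorder n (A n ∩ B n) := ENNReal.add_sub_cancel_left ENNReal.one_ne_top

theorem exists_net (n : ℕ) (δ : ℝ) (hδ : 0 < δ) : ∃ U : Finset (Fin n → ℝ),
    (∀ u ∈ U, ∑ i, u i ^ 2 = 1) ∧
    ∀ y : Fin n → ℝ, ∑ i, y i ^ 2 = 1 → ∃ u ∈ U, ∑ i, (y i - u i) ^ 2 ≤ δ ^ 2 := by
  set S : Set (Fin n → ℝ) := {y | ∑ i, y i ^ 2 = 1} with hS
  have hcl : IsClosed S := by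
    refine isClosed_eq ?_ continuous_const
    exact continuous_finsetSum _ (fun i _ => (continuous_apply i).pow 2)
  have hbd : Bornology.IsBounded S := by
    refine (Metric.isBounded_closedBall (x := (0 : Fin n → ℝ)) (r := 1)).subset ?_
    intro y hy
    rw [mem_closedBall_zero_iff, pi_norm_le_iff_of_nonneg zero_le_one]
    intro i
    rw [Real.norm_eq_abs]
    have h1 : y i ^ 2 ≤ ∑ j, y j ^ 2 :=
      Finset.single_le_sum (f := fun j => y j ^ 2) (fun j _ => sq_nonneg _) (Finset.mem_univ i)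
    have h2 : ∑ j, y j ^ 2 = 1 := hy
    rw [h2] at h1
    exact abs_le_one_iff_mul_self_le_one.2 (by rw [← sq]; exact h1)
  have hco : IsCompact S := Metric.isCompact_of_isClosed_isBounded hcl hbd
  obtain ⟨t, htS, htf, hcov⟩ := hco.finite_cover_balls (e := δ / (n + 1)) (by positivity)
  refine ⟨htf.toFinset, fun u hu => htS (htf.mem_toFinset.1 hu), fun y hy => ?_⟩
  have hy' : y ∈ S := hy
  obtain ⟨u, hu⟩ := Set.mem_iUnion.1 (hcov hy')
  obtain ⟨hut, hball⟩ := Set.mem_iUnion.1 hu
  refine ⟨u, htf.mem_toFinset.2 hut, ?_⟩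
  have hd : dist y u < δ / (n + 1) := hball
  have hterm : ∀ i, (y i - u i) ^ 2 ≤ (δ / (n + 1)) ^ 2 := by
    intro i
    have h1 : dist (y i) (u i) ≤ dist y u := dist_le_pi_dist y u i
    rw [Real.dist_eq] at h1
    rw [← sq_abs (y i - u i)]
    exact pow_le_pow_left₀ (abs_nonneg _) (h1.trans hd.le) 2
  calc ∑ i, (y i - u i) ^ 2 ≤ ∑ _i : Fin n, (δ / (n + 1)) ^ 2 :=
        Finset.sum_le_sum (fun i _ => hterm i)
    _ = n * (δ / (n + 1)) ^ 2 := by
        rw [Finset.sum_const, Finset.card_univ, Fintype.card_fin, nsmul_eq_mul]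
    _ ≤ δ ^ 2 := by
        have hn : (0 : ℝ) ≤ n := Nat.cast_nonneg n
        rw [div_pow, mul_div_assoc']
        rw [div_le_iff₀ (by positivity)]
        nlinarith [mul_nonneg (sq_nonneg δ) hn, mul_nonneg (sq_nonneg δ) (sq_nonneg (n : ℝ)),
          sq_nonneg δ]

theorem det_bound {n : ℕ} (A : Fin n → Fin n → ℝ) (U : Finset (Fin n → ℝ)) (δ B : ℝ)
    (hδ : 0 < δ) (hδ1 : 2 * δ < 1) (hU1 : ∀ u ∈ U, ∑ i, u i ^ 2 = 1)
    (hnet : ∀ y : Fin n → ℝ, ∑ i, y i ^ 2 = 1 → ∃ u ∈ U, ∑ i, (y i - u i) ^ 2 ≤ δ ^ 2)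
    (hU : ∀ u ∈ U, |∑ i, ∑ j, A i j * u i * u j| ≤ B) (y : Fin n → ℝ) :
    |∑ i, ∑ j, A i j * y i * y j| ≤ B / (1 - 2 * δ) * ∑ i, y i ^ 2 := by
  set q : (Fin n → ℝ) → ℝ := fun y => ∑ i, ∑ j, A i j * y i * y j with hq
  have hqs : ∀ (c : ℝ) (y : Fin n → ℝ), q (fun i => c * y i) = c ^ 2 * q y := by
    intro c y
    rw [hq]
    beta_reduce
    rw [Finset.mul_sum]
    refine Finset.sum_congr rfl (fun i _ => ?_)
    rw [Finset.mul_sum]
    exact Finset.sum_congr rfl (fun j _ => by ring)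
  set S : Set (Fin n → ℝ) := {y | ∑ i, y i ^ 2 = 1} with hS
  have hcl : IsClosed S := by
    refine isClosed_eq ?_ continuous_const
    exact continuous_finsetSum _ (fun i _ => (continuous_apply i).pow 2)
  have hbd : Bornology.IsBounded S := by
    refine (Metric.isBounded_closedBall (x := (0 : Fin n → ℝ)) (r := 1)).subset ?_
    intro y hy
    rw [mem_closedBall_zero_iff, pi_norm_le_iff_of_nonneg zero_le_one]
    intro i
    rw [Real.norm_eq_abs]
    have h1 : y i ^ 2 ≤ ∑ j, y j ^ 2 :=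
      Finset.single_le_sum (f := fun j => y j ^ 2) (fun j _ => sq_nonneg _) (Finset.mem_univ i)
    have h2 : ∑ j, y j ^ 2 = 1 := hy
    rw [h2] at h1
    exact abs_le_one_iff_mul_self_le_one.2 (by rw [← sq]; exact h1)
  have hco : IsCompact S := Metric.isCompact_of_isClosed_isBounded hcl hbd
  rcases (Finset.sum_nonneg (fun i (_ : i ∈ Finset.univ) => sq_nonneg (y i))).eq_or_lt with h0 | hpos
  · have hy0 : ∀ i, y i = 0 := by
      intro i
      have := (Finset.sum_eq_zero_iff_of_nonneg (fun i _ => sq_nonneg (y i))).1 h0.symm i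
        (Finset.mem_univ i)
      exact pow_eq_zero_iff (two_ne_zero) |>.1 this
    rw [← h0, mul_zero]
    simp [hy0]
  · have hqc : Continuous (fun y => |q y|) := by
      refine Continuous.abs ?_
      refine continuous_finsetSum _ (fun i _ => continuous_finsetSum _ (fun j _ => ?_))
      exact (continuous_const.mul (continuous_apply i)).mul (continuous_apply j)
    have hnorm : ∀ y : Fin n → ℝ, 0 < ∑ i, y i ^ 2 →
        (fun i => (Real.sqrt (∑ i, y i ^ 2))⁻¹ * y i) ∈ S := by
      intro y hy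
      rw [hS, Set.mem_ofPred_eq]
      simp only [mul_pow]
      rw [← Finset.mul_sum, inv_pow, Real.sq_sqrt hy.le, inv_mul_cancel₀ hy.ne']
    obtain ⟨ys, hysS, hmax⟩ := hco.exists_isMaxOn ⟨_, hnorm y hpos⟩ hqc.continuousOn
    set lam := |q ys| with hlam
    have hall : ∀ z : Fin n → ℝ, |q z| ≤ lam * ∑ i, z i ^ 2 := by
      intro z
      rcases (Finset.sum_nonneg (fun i (_ : i ∈ Finset.univ) => sq_nonneg (z i))).eq_or_lt with h0 | hz
      · have hz0 : ∀ i, z i = 0 := by
          intro i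
          have := (Finset.sum_eq_zero_iff_of_nonneg (fun i _ => sq_nonneg (z i))).1 h0.symm i
            (Finset.mem_univ i)
          exact pow_eq_zero_iff (two_ne_zero) |>.1 this
        rw [← h0, mul_zero]
        simp [hq, hz0]
      · have h1 := hmax (hnorm z hz)
        simp only [Set.mem_ofPred_eq] at h1
        rw [hqs, abs_mul, inv_pow, Real.sq_sqrt hz.le, abs_of_pos (inv_pos.2 hz),
          inv_mul_le_iff₀ hz] at h1
        linarith
    obtain ⟨u, hu, hdist⟩ := hnet ys hysS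
    have hid : q (fun i => 2 / δ * (ys i - u i) + (ys i + u i)) -
        q (fun i => 2 / δ * (ys i - u i) - (ys i + u i)) = 4 * (2 / δ) * (q ys - q u) := by
      rw [hq]
      beta_reduce
      rw [← Finset.sum_sub_distrib, ← Finset.sum_sub_distrib, Finset.mul_sum]
      refine Finset.sum_congr rfl (fun i _ => ?_)
      rw [← Finset.sum_sub_distrib, ← Finset.sum_sub_distrib, Finset.mul_sum]
      exact Finset.sum_congr rfl (fun j _ => by ring)
    have hlam0 : 0 ≤ lam := abs_nonneg _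
    have hsq : ∑ i, (2 / δ * (ys i - u i) + (ys i + u i)) ^ 2 +
        ∑ i, (2 / δ * (ys i - u i) - (ys i + u i)) ^ 2 ≤ 16 := by
      have e : ∑ i, (2 / δ * (ys i - u i) + (ys i + u i)) ^ 2 +
          ∑ i, (2 / δ * (ys i - u i) - (ys i + u i)) ^ 2 + 2 * ∑ i, (ys i - u i) ^ 2 =
          2 * (2 / δ) ^ 2 * ∑ i, (ys i - u i) ^ 2 + 4 * ∑ i, ys i ^ 2 + 4 * ∑ i, u i ^ 2 := by
        simp only [Finset.mul_sum, ← Finset.sum_add_distrib]
        exact Finset.sum_congr rfl (fun i _ => by ring)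
      have h1 : ∑ i, ys i ^ 2 = 1 := hysS
      have h2 : ∑ i, u i ^ 2 = 1 := hU1 u hu
      have h3 : 0 ≤ ∑ i, (ys i - u i) ^ 2 := Finset.sum_nonneg (fun i _ => sq_nonneg _)
      have h4 : (2 / δ) ^ 2 * ∑ i, (ys i - u i) ^ 2 ≤ 4 := by
        calc (2 / δ) ^ 2 * ∑ i, (ys i - u i) ^ 2 ≤ (2 / δ) ^ 2 * δ ^ 2 :=
              mul_le_mul_of_nonneg_left hdist (sq_nonneg _)
          _ = 4 := by
              field_simp
              norm_num
      rw [h1, h2] at e
      nlinarith
    have hdiff : 4 * (2 / δ) * |q ys - q u| ≤ lam * 16 := by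
      have e : 4 * (2 / δ) * |q ys - q u| = |4 * (2 / δ) * (q ys - q u)| := by
        rw [abs_mul, abs_of_pos (by positivity : (0 : ℝ) < 4 * (2 / δ))]
      rw [e, ← hid]
      refine (abs_sub _ _).trans ?_
      refine (add_le_add (hall _) (hall _)).trans ?_
      rw [← mul_add]
      exact mul_le_mul_of_nonneg_left hsq hlam0
    have hdiff2 : |q ys - q u| ≤ 2 * δ * lam := by
      have h1 : 4 * (2 / δ) * |q ys - q u| = 8 / δ * |q ys - q u| := by ring
      rw [h1, div_mul_eq_mul_div, div_le_iff₀ hδ] at hdiff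
      linarith
    have h5 : lam ≤ B + 2 * δ * lam := by
      have h6 : |q ys| ≤ |q u| + |q ys - q u| := by
        have := abs_add_le (q u) (q ys - q u)
        rwa [add_sub_cancel] at this
      linarith [hU u hu]
    have h7 : lam ≤ B / (1 - 2 * δ) := by
      rw [le_div_iff₀ (by linarith)]
      linarith
    exact (hall y).trans (mul_le_mul_of_nonneg_right h7 hpos.le)

end LamAux

theorem lam_max (β ε : ℝ) (hβ : 0 ≤ β) (hε : 0 < ε) :
    Tendsto (fun n : ℕ => disorder n {g | ∀ y : Fin n → ℝ,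
      |∑ i, ∑ j, SKJ β g i j * y i * y j| ≤ (2 * β + ε) * ∑ i, y i ^ 2}) atTop (𝓝 1) := by
  set η : ℝ := min (ε / (β + 1)) 1 with hη
  have hη0 : 0 < η := lt_min (by positivity) one_pos
  have hη1 : η ≤ 1 := min_le_right _ _
  have hη2 : β * η ≤ ε := by
    have h1 : η ≤ ε / (β + 1) := min_le_left _ _
    rw [le_div_iff₀ (by positivity)] at h1
    nlinarith
  choose U hU1 hUnet using fun n => exists_net n (η / 16) (by positivity)
  have t1 := net_bound (η / 4) (by positivity) 1 (Or.inl rfl) U hU1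
  have t2 := net_bound (η / 4) (by positivity) (-1) (Or.inr rfl) U hU1
  have hpr : ∀ n, IsProbabilityMeasure (disorder n) := fun n => by unfold disorder; infer_instance
  have t3 := inter_one _ _ (fun n => ?_) t1 t2
  · refine tendsto_of_tendsto_of_tendsto_of_le_of_le t3 tendsto_const_nhds ?_
      (fun n => prob_le_one)
    intro n
    refine measure_mono ?_
    intro g hg y
    rcases Nat.eq_zero_or_pos n with hn | hn
    · subst hn
      simp
    · have hn' : (0 : ℝ) < n := Nat.cast_pos.2 hn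
      have hsn : 0 < Real.sqrt n := Real.sqrt_pos.2 hn'
      have hd := det_bound (fun i j => if i = j then 0 else cpl g i j) (U n) (η / 16)
        ((2 + η / 4) * Real.sqrt n) (by positivity) (by linarith) (hU1 n)
        (hUnet n) (by
          intro u hu
          rw [abs_le]
          have h1 := hg.1 u hu
          have h2 := hg.2 u hu
          constructor
          · linarith
          · linarith) y
      have e : ∑ i, ∑ j, SKJ β g i j * y i * y j =
          β / Real.sqrt n * ∑ i, ∑ j, (if i = j then 0 else cpl g i j) * y i * y j := by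
        rw [Finset.mul_sum]
        refine Finset.sum_congr rfl (fun i _ => ?_)
        rw [Finset.mul_sum]
        refine Finset.sum_congr rfl (fun j _ => ?_)
        unfold SKJ
        split_ifs <;> ring
      rw [e, abs_mul, abs_of_nonneg (by positivity : 0 ≤ β / Real.sqrt n)]
      have hS0 : 0 ≤ ∑ i, y i ^ 2 := Finset.sum_nonneg (fun i _ => sq_nonneg _)
      calc β / Real.sqrt n * |∑ i, ∑ j, (if i = j then 0 else cpl g i j) * y i * y j|
          ≤ β / Real.sqrt n * ((2 + η / 4) * Real.sqrt n / (1 - 2 * (η / 16)) * ∑ i, y i ^ 2) :=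
            mul_le_mul_of_nonneg_left hd (by positivity)
        _ = β * ((2 + η / 4) / (1 - 2 * (η / 16))) * ∑ i, y i ^ 2 := by
            have : (1 - 2 * (η / 16)) ≠ 0 := by linarith
            field_simp
        _ ≤ (2 * β + ε) * ∑ i, y i ^ 2 := by
            refine mul_le_mul_of_nonneg_right ?_ hS0
            have h1 : (2 + η / 4) / (1 - 2 * (η / 16)) ≤ 2 + η := by
              rw [div_le_iff₀ (by linarith)]
              nlinarith
            calc β * ((2 + η / 4) / (1 - 2 * (η / 16))) ≤ β * (2 + η) :=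
                  mul_le_mul_of_nonneg_left h1 hβ
              _ ≤ 2 * β + ε := by linarith
  · have e : {g : Fin n × Fin n → ℝ | ∀ u ∈ U n,
        -1 * (∑ i, ∑ j, (if i = j then 0 else cpl g i j) * u i * u j) ≤ (2 + η / 4) * Real.sqrt n} =
        ⋂ u ∈ U n, {g : Fin n × Fin n → ℝ |
          -1 * (∑ i, ∑ j, (if i = j then 0 else cpl g i j) * u i * u j) ≤ (2 + η / 4) * Real.sqrt n} := by
      ext g
      simp
    rw [e]
    refine Finset.measurableSet_biInter _ (fun u _ => ?_)
    refine measurableSet_le ?_ measurable_const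
    refine Measurable.const_mul ?_ _
    refine Finset.measurable_fun_sum _ (fun i _ => Finset.measurable_fun_sum _ (fun j _ => ?_))
    refine Measurable.mul_const (Measurable.mul_const ?_ _) _
    unfold cpl
    by_cases h1 : i = j
    · simp only [if_pos h1]
      exact measurable_const
    · simp only [if_neg h1]
      by_cases h2 : i < j
      · simp only [if_pos h2]
        exact measurable_pi_apply _
      · simp only [if_neg h2]
        exact measurable_pi_apply _

end

end P150
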