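import Vale.Agent.P150.GradSemi
import Vale.Agent.P150.Corr

/-!
# Lower bound for the total variation distance at zero field
-/

open Function

namespace P150

noncomputable section

set_option linter.unusedSectionVars false

section ising
variable {ι : Type} [Fintype ι] [DecidableEq ι]

namespace LowAux

/-- global spin spinFlip -/
def spinFlip (x : ι → Bool) : ι → Bool := fun i => !(x i)

lemma spinFlip_spinFlip (x : ι → Bool) : spinFlip (spinFlip x) = x := by
  funext i; simp [spinFlip]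

/-- global spin spinFlip as an equivalence -/
def spinFlipEquiv : (ι → Bool) ≃ (ι → Bool) := ⟨spinFlip, spinFlip, spinFlip_spinFlip, spinFlip_spinFlip⟩

lemma sp_not (b : Bool) : sp (!b) = - sp b := by cases b <;> simp [sp]

lemma wt_spinFlip (J : ι → ι → ℝ) (x : ι → Bool) : wt J 0 (spinFlip x) = wt J 0 x := by
  unfold wt ham spinFlip
  simp only [sp_not, Pi.zero_apply, zero_mul, mul_neg, neg_mul, neg_neg, neg_zero]

/-- Markov: probability of the event `f ≤ 0` -/
lemma event_bound {p : (ι → Bool) → ℝ} (hp : ∀ y, 0 ≤ p y) (hp1 : ∑ y, p y = 1)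
    (f : (ι → Bool) → ℝ) (m V : ℝ) (hm : 0 < m) (hmean : ∑ y, p y * f y = m)
    (hvar : ∑ y, p y * f y ^ 2 - m ^ 2 ≤ V) (hV : 8 * V ≤ m ^ 2) :
    7 / 8 ≤ ∑ y ∈ Finset.univ.filter (fun y => 0 < f y), p y := by
  have h1 : ∑ y ∈ Finset.univ.filter (fun y => ¬ 0 < f y), p y * m ^ 2 ≤
      ∑ y, p y * (f y - m) ^ 2 := by
    calc ∑ y ∈ Finset.univ.filter (fun y => ¬ 0 < f y), p y * m ^ 2
        ≤ ∑ y ∈ Finset.univ.filter (fun y => ¬ 0 < f y), p y * (f y - m) ^ 2 := by
          apply Finset.sum_le_sum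
          intro y hy
          rw [Finset.mem_filter] at hy
          apply mul_le_mul_of_nonneg_left _ (hp y)
          have : f y ≤ 0 := not_lt.1 hy.2
          nlinarith
      _ ≤ ∑ y, p y * (f y - m) ^ 2 := by
          apply Finset.sum_le_sum_of_subset_of_nonneg (Finset.filter_subset _ _)
          intro y _ _
          exact mul_nonneg (hp y) (sq_nonneg _)
  have h2 : ∑ y, p y * (f y - m) ^ 2 = ∑ y, p y * f y ^ 2 - m ^ 2 := by
    have : ∀ y, p y * (f y - m) ^ 2 = p y * f y ^ 2 - 2 * m * (p y * f y) + m ^ 2 * p y := by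
      intro y; ring
    rw [Finset.sum_congr rfl (fun y _ => this y), Finset.sum_add_distrib, Finset.sum_sub_distrib,
      ← Finset.mul_sum, ← Finset.mul_sum, hmean, hp1]
    ring
  have h3 : ∑ y ∈ Finset.univ.filter (fun y => 0 < f y), p y +
      ∑ y ∈ Finset.univ.filter (fun y => ¬ 0 < f y), p y = 1 := by
    rw [Finset.sum_filter_add_sum_filter_not, hp1]
  rw [← Finset.sum_mul, h2] at h1
  have hm2 : 0 < m ^ 2 := by positivity
  have h4 : (∑ y ∈ Finset.univ.filter (fun y => ¬ 0 < f y), p y) * m ^ 2 ≤ (1 / 8) * m ^ 2 := by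
    linarith
  have h5 := le_of_mul_le_mul_right h4 hm2
  linarith

lemma half_bound {q : (ι → Bool) → ℝ} (hq : ∀ y, 0 ≤ q y) (hq1 : ∑ y, q y = 1)
    (hqf : ∀ y, q (spinFlip y) = q y) (f : (ι → Bool) → ℝ) (hf : ∀ y, f (spinFlip y) = - f y) :
    ∑ y ∈ Finset.univ.filter (fun y => 0 < f y), q y ≤ 1 / 2 := by
  have h1 : ∑ y, (if 0 < f y then q y else 0) = ∑ y, (if 0 < - f y then q y else 0) := by
    rw [← Equiv.sum_comp (spinFlipEquiv (ι := ι))]
    apply Finset.sum_congr rfl; intro y _
    have e : spinFlipEquiv y = spinFlip y := rfl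
    rw [e, hqf, hf]
  have h2 : ∑ y, (if 0 < f y then q y else 0) + ∑ y, (if 0 < - f y then q y else 0) ≤ 1 := by
    rw [← hq1, ← Finset.sum_add_distrib]
    apply Finset.sum_le_sum; intro y _
    by_cases h : 0 < f y
    · rw [if_pos h, if_neg (by linarith)]; linarith
    · rw [if_neg h]
      by_cases h' : 0 < - f y
      · rw [if_pos h']; linarith
      · rw [if_neg h']; linarith [hq y]
  rw [Finset.sum_filter]
  linarith

lemma tv_event {p q : (ι → Bool) → ℝ} (hp1 : ∑ y, p y = 1) (hq1 : ∑ y, q y = 1)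
    (A : (ι → Bool) → Prop) [DecidablePred A] :
    ∑ y ∈ Finset.univ.filter A, p y - ∑ y ∈ Finset.univ.filter A, q y ≤
      (∑ y, |p y - q y|) / 2 := by
  have h1 : ∑ y, (p y - q y) = 0 := by rw [Finset.sum_sub_distrib, hp1, hq1, sub_self]
  have h2 := Finset.sum_filter_add_sum_filter_not Finset.univ A (fun y => p y - q y)
  have h3 := Finset.sum_filter_add_sum_filter_not Finset.univ A (fun y => |p y - q y|)
  have h4 : ∑ y ∈ Finset.univ.filter A, (p y - q y) ≤ ∑ y ∈ Finset.univ.filter A, |p y - q y| :=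
    Finset.sum_le_sum fun y _ => le_abs_self _
  have h5 : -(∑ y ∈ Finset.univ.filter (fun y => ¬ A y), (p y - q y)) ≤
      ∑ y ∈ Finset.univ.filter (fun y => ¬ A y), |p y - q y| := by
    rw [← Finset.sum_neg_distrib]
    exact Finset.sum_le_sum fun y _ => neg_le_abs _
  rw [← Finset.sum_sub_distrib]
  linarith

end LowAux

open LowAux GradAux

theorem tv_lower (J : ι → ι → ℝ) (M δ : ℝ) (hG : Good J M δ) (hδ : δ ≤ 1/10) (hM : 0 ≤ M)
    (t : ℝ) (ht : 0 ≤ t)
    (hn : 32 * t * Real.exp ((11 * M + 2) * t) ≤ Fintype.card ι) (hn0 : 0 < Fintype.card ι) :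
    ∃ x : ι → Bool, 3 / 8 ≤ (∑ y, |Pt J 0 t x y - wt J 0 y / Zf J 0|) / 2 := by
  have hs := hG.symm
  have hd := hG.diag
  have hZ := Zf_pos J (0 : ι → ℝ)
  have hnpos : (0:ℝ) < Fintype.card ι := by exact_mod_cast hn0
  set n : ℝ := (Fintype.card ι : ℝ) with hndef
  have hcorr := corr_lower J hs hd 0 t ht
  -- a good starting point
  obtain ⟨x, hx⟩ : ∃ x : ι → Bool, n * Real.exp (-t) ≤
      ∑ i, sp (x i) * (Pt J 0 t).mulVec (fun y => sp (y i)) x := by
    by_contra hcon
    push Not at hcon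
    have h1 : ev J 0 (fun x => ∑ i, sp (x i) * (Pt J 0 t).mulVec (fun y => sp (y i)) x) <
        n * Real.exp (-t) := by
      unfold ev
      rw [div_lt_iff₀ hZ]
      unfold Zf
      rw [Finset.mul_sum]
      apply Finset.sum_lt_sum_of_nonempty Finset.univ_nonempty
      intro x _
      rw [mul_comm (n * Real.exp (-t))]
      exact mul_lt_mul_of_pos_left (hcon x) (wt_pos J 0 x)
    linarith
  refine ⟨x, ?_⟩
  set m : ℝ := ∑ i, sp (x i) * (Pt J 0 t).mulVec (fun y => sp (y i)) x with hmdef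
  let f : (ι → Bool) → ℝ := fun y => ∑ i, sp (x i) * sp (y i)
  have hmpos : 0 < m := lt_of_lt_of_le (by positivity) hx
  have hPf : (Pt J 0 t).mulVec f x = m := by
    rw [hmdef]
    unfold Matrix.mulVec dotProduct
    simp only [f, Finset.mul_sum]
    rw [Finset.sum_comm]
    apply Finset.sum_congr rfl; intro i _
    apply Finset.sum_congr rfl; intro y _
    ring
  have hdB : ∀ i y, dB i f y = sp (x i) := by
    intro i y
    have h1 : ∀ b : Bool, f (update y i b) = sp (x i) * sp b +
        ∑ k ∈ Finset.univ.erase i, sp (x k) * sp (y k) := by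
      intro b
      simp only [f]
      rw [← Finset.add_sum_erase _ _ (Finset.mem_univ i)]
      congr 1
      · rw [update_self]
      · apply Finset.sum_congr rfl
        intro k hk
        rw [update_of_ne (Finset.ne_of_mem_erase hk)]
    unfold dB
    rw [h1, h1, sp_true, sp_false]
    ring
  have hK : ∀ y, ∑ i, dB i f y ^ 2 ≤ n := by
    intro y
    simp only [hdB, sp_sq]
    simp [hndef]
  have hvar := var_semigroup J M δ hG hδ hM 0 f n hK t ht x
  rw [hPf] at hvar
  have hp : ∀ y, 0 ≤ Pt J 0 t x y := fun y => Pt_nonneg J 0 t ht x y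
  have hp1 : ∑ y, Pt J 0 t x y = 1 := Pt_row_sum J hd 0 t x
  have hV : 8 * (4 * t * Real.exp (11 * M * t) * n) ≤ m ^ 2 := by
    have h1 : (n * Real.exp (-t)) ^ 2 ≤ m ^ 2 :=
      pow_le_pow_left₀ (by positivity) hx 2
    refine le_trans ?_ h1
    have e1 : Real.exp ((11 * M + 2) * t) = Real.exp (11 * M * t) * Real.exp (2 * t) := by
      rw [← Real.exp_add]; congr 1; ring
    have e2 : Real.exp (-t) ^ 2 * Real.exp (2 * t) = 1 := by
      rw [← Real.exp_nat_mul, ← Real.exp_add]
      push_cast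
      rw [show 2 * -t + 2 * t = 0 by ring, Real.exp_zero]
    have hE := Real.exp_pos (-t)
    calc 8 * (4 * t * Real.exp (11 * M * t) * n)
        = (32 * t * Real.exp ((11 * M + 2) * t)) * (n * Real.exp (-t) ^ 2) := by
          rw [e1]
          linear_combination (-(32 * t * Real.exp (11 * M * t) * n)) * e2
      _ ≤ n * (n * Real.exp (-t) ^ 2) := mul_le_mul_of_nonneg_right hn (by positivity)
      _ = (n * Real.exp (-t)) ^ 2 := by ring
  have h1 := event_bound hp hp1 f m _ hmpos hPf hvar hV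
  have hq1 : ∑ y, wt J 0 y / Zf J 0 = 1 := by
    rw [← Finset.sum_div]; exact div_self hZ.ne'
  have h2 := half_bound (q := fun y => wt J 0 y / Zf J 0)
    (fun y => div_nonneg (wt_pos J 0 y).le hZ.le) hq1
    (fun y => by simp only [wt_spinFlip]) f (fun y => by
      simp only [f, spinFlip, sp_not]
      rw [← Finset.sum_neg_distrib]
      apply Finset.sum_congr rfl; intro i _; ring)
  have h3 := tv_event (p := fun y => Pt J 0 t x y) (q := fun y => wt J 0 y / Zf J 0) hp1 hq1
    (fun y => 0 < f y)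
  linarith

end ising

end

end P150
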