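import Vale.Agent.P150.MainCore
import Vale.Agent.P150.Ate
import Vale.Agent.P150.Clip

/-!
# Fast mixing of the SK Glauber dynamics for `β < 1/2`
-/

open MeasureTheory ProbabilityTheory Filter Topology

namespace P150

noncomputable section

namespace MainAux

lemma quad_mono {n : ℕ} {J : Fin n → Fin n → ℝ} {M M' : ℝ} (hMM : M ≤ M')
    (h1 : ∀ y : Fin n → ℝ, ∑ i, ∑ j, J i j * y i * y j ≤ M * ∑ i, y i ^ 2)
    (h2 : ∀ y : Fin n → ℝ, -(M * ∑ i, y i ^ 2) ≤ ∑ i, ∑ j, J i j * y i * y j) :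
    (∀ y : Fin n → ℝ, ∑ i, ∑ j, J i j * y i * y j ≤ M' * ∑ i, y i ^ 2) ∧
    (∀ y : Fin n → ℝ, -(M' * ∑ i, y i ^ 2) ≤ ∑ i, ∑ j, J i j * y i * y j) := by
  have h3 : ∀ y : Fin n → ℝ, M * ∑ i, y i ^ 2 ≤ M' * ∑ i, y i ^ 2 := fun y =>
    mul_le_mul_of_nonneg_right hMM (Finset.sum_nonneg (fun i _ => sq_nonneg _))
  exact ⟨fun y => (h1 y).trans (h3 y), fun y => (neg_le_neg (h3 y)).trans (h2 y)⟩

end MainAux

open P150.SK in
theorem main (β : ℝ) (hβ0 : 0 ≤ β) (hβ : β < 1/2) :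
    ∃ C : ℝ, ∀ ε : ℝ, 0 < ε → Tendsto (fun n : ℕ => disorderLaw n
      {g | ∀ h : Fin n → ℝ, 1 - 2 * β - ε ≤ gap β g h ∧ gap β g h ≤ 1 ∧
        tmix β g h ≤ C * Real.log n})
      atTop (𝓝 1) := by
  obtain ⟨CB, hCB, hbo⟩ := bochner
  set m0 : ℝ := (1 - 2 * β) / 4 with hm0
  have hm0pos : 0 < m0 := by rw [hm0]; linarith
  set K : ℝ := 1 / (2 * m0) with hK
  have hKpos : 0 < K := by rw [hK]; positivity
  set M1 : ℝ := 2 * β + m0 with hM1
  have hM1pos : 0 < M1 := by rw [hM1]; linarith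
  set CA : ℝ := Real.exp (2 * M1 * K) with hCA
  have hCA1 : 1 ≤ CA := by
    rw [hCA]; exact Real.one_le_exp (by positivity)
  have hlog2 : 0 < Real.log 2 := Real.log_pos (by norm_num)
  refine ⟨100 * CA * (Real.log CA / Real.log 2 + 1), fun ε hε => ?_⟩
  set e2 : ℝ := min (ε / 2) m0 with he2
  have he2pos : 0 < e2 := lt_min (by linarith) hm0pos
  have he2a : e2 ≤ ε / 2 := min_le_left _ _
  have he2b : e2 ≤ m0 := min_le_right _ _
  set δ2 : ℝ := min (1 / 10) (e2 / CB) with hδ2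
  have hδ2pos : 0 < δ2 := lt_min (by norm_num) (by positivity)
  have hδ2a : δ2 ≤ 1 / 10 := min_le_left _ _
  have hδ2b : CB * δ2 ≤ e2 := by
    have : δ2 ≤ e2 / CB := min_le_right _ _
    calc CB * δ2 ≤ CB * (e2 / CB) := mul_le_mul_of_nonneg_left this hCB.le
      _ = e2 := by field_simp
  have hgood := sk_good β hβ0 hβ.le e2 δ2 he2pos hδ2pos
  have hpr : ∀ n, IsProbabilityMeasure (disorderLaw n) := fun n => by
    unfold disorderLaw; infer_instance
  refine tendsto_of_tendsto_of_tendsto_of_le_of_le' hgood tendsto_const_nhds ?_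
    (Eventually.of_forall (fun n => prob_le_one))
  filter_upwards [eventually_ge_atTop 2] with n hn
  refine measure_mono ?_
  intro g hg h
  have hG : Good (SKJ (n := n) β g) (2 * β + e2) δ2 := hg
  have hM2 : 0 ≤ 2 * β + e2 := by linarith
  have hM2' : 2 * β + e2 ≤ 1 := by
    have : m0 ≤ 1 / 4 := by rw [hm0]; linarith
    rw [hm0] at he2b; linarith
  set γ : ℝ := 1 - (2 * β + e2) - CB * δ2 with hγ
  have hγ1 : 1 - 2 * β - ε ≤ γ := by rw [hγ]; linarith
  have hγ2 : 2 * m0 ≤ γ := by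
    rw [hγ]
    have : 1 - 2 * β = 4 * m0 := by rw [hm0]; ring
    linarith
  have hγpos : 0 < γ := by linarith
  have hgap : ∀ t ∈ Set.Icc (0:ℝ) 1, ∀ h f,
      γ * vr (fun i j => t * SKJ (n := n) β g i j) h f ≤
        dirf (fun i j => t * SKJ (n := n) β g i j) h f := by
    intro t ht h f
    have hGt := hG.smul hM2 ht
    exact gap_of_bochner _ hGt.symm hGt.diag h γ hγpos
      (fun f => hbo _ _ _ hGt hδ2a hM2 hM2' h f) f
  have hgap1 : ∀ h f, γ * vr (SKJ (n := n) β g) h f ≤ dirf (SKJ (n := n) β g) h f := by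
    intro h f
    exact gap_of_bochner _ hG.symm hG.diag h γ hγpos
      (fun f => hbo _ _ _ hG hδ2a hM2 hM2' h f) f
  refine ⟨hγ1.trans (le_gap (by omega) β g h γ (hgap1 h)), gap_le_one (by omega) β g h, ?_⟩
  have hcov : ∀ t ∈ Set.Icc (0:ℝ) 1, ∀ y a : Fin n → ℝ,
      vr (fun i j => t * SKJ (n := n) β g i j) y (fun x => ∑ i, a i * sp (x i)) ≤
        K * ∑ i, a i ^ 2 := by
    intro t ht y a
    have h1 := cov_of_gap _ y γ hγpos (hgap t ht y) a
    refine h1.trans ?_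
    have hs : 0 ≤ ∑ i, a i ^ 2 := Finset.sum_nonneg (fun i _ => sq_nonneg _)
    rw [div_eq_mul_inv, mul_comm]
    apply mul_le_mul_of_nonneg_right _ hs
    rw [hK, ← one_div]
    exact one_div_le_one_div_of_le (by positivity) hγ2
  obtain ⟨q1, q2⟩ := MainAux.quad_mono (by rw [hM1]; linarith : 2 * β + e2 ≤ M1) hG.quad hG.quad'
  have hate : ∀ h : Fin n → ℝ, ∀ f : (Fin n → Bool) → ℝ, (∀ x, 0 < f x) →
      entW Finset.univ (wt (SKJ (n := n) β g) h) f ≤ CA * entSum (wt (SKJ (n := n) β g) h) f :=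
    fun h f hf => ate _ hG.symm hG.diag M1 K hM1pos hKpos q1 q2 hcov h f hf
  have hcard : Fintype.card (Fin n) = n := Fintype.card_fin n
  have hmix := fun x => mix_uniform (SKJ (n := n) β g) hG.symm hG.diag
    (fun i j => (hG.entry i j).trans (by linarith)) (by rw [hcard]; exact hn) CA hCA1 hate h
    _ rfl x
  have hn2 : (2:ℝ) ≤ n := by exact_mod_cast hn
  have hnpos : (0:ℝ) < n := by linarith
  have ht0 : 0 ≤ 100 * CA * Real.log (CA * Fintype.card (Fin n)) := by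
    rw [hcard]
    have : 0 ≤ Real.log (CA * n) := Real.log_nonneg (by nlinarith)
    positivity
  refine (tmix_le β g h _ ht0 hmix).trans ?_
  rw [hcard, Real.log_mul (by linarith) hnpos.ne', mul_assoc (100 * CA)]
  apply mul_le_mul_of_nonneg_left _ (by positivity)
  have hlogn : Real.log 2 ≤ Real.log n := Real.log_le_log (by norm_num) hn2
  have hlogCA : 0 ≤ Real.log CA := Real.log_nonneg hCA1
  have : Real.log CA ≤ Real.log CA / Real.log 2 * Real.log n := by
    rw [div_mul_eq_mul_div, le_div_iff₀ hlog2]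
    exact mul_le_mul_of_nonneg_left hlogn hlogCA
  linarith

end

end P150
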