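import Vale.Agent.P150.Main
import Vale.Agent.P150.Lower
import Vale.Agent.P150.Good2

/-!
# Lower bound for the mixing time, every `β ≥ 0`
-/

open MeasureTheory ProbabilityTheory Filter Topology

namespace P150

noncomputable section

--BEGIN
open P150.SK in
theorem main_lower (β : ℝ) (hβ0 : 0 ≤ β) :
    ∃ c : ℝ, 0 < c ∧ Tendsto (fun n : ℕ => disorderLaw n
      {g | c * Real.log n ≤ tmix β g 0}) atTop (𝓝 1) := by
  set M : ℝ := 2 * β + 1 + 4 * β ^ 2 with hM
  have hM0 : 0 ≤ M := by rw [hM]; positivity
  set A : ℝ := 11 * M + 4 with hA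
  have hApos : 0 < A := by rw [hA]; positivity
  refine ⟨1 / A, by positivity, ?_⟩
  have hgood := sk_good_all β hβ0 (1 / 10) (by norm_num)
  have hpr : ∀ n, IsProbabilityMeasure (disorderLaw n) := fun n => by
    unfold disorderLaw; infer_instance
  refine tendsto_of_tendsto_of_tendsto_of_le_of_le' hgood tendsto_const_nhds ?_
    (Eventually.of_forall (fun n => prob_le_one))
  have hev : ∀ᶠ n : ℕ in atTop, A * Real.log 32 ≤ Real.log n :=
    (Real.tendsto_log_atTop.comp tendsto_natCast_atTop_atTop).eventually_ge_atTop _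
  filter_upwards [eventually_ge_atTop 2, hev] with n hn hlog
  refine measure_mono ?_
  intro g hg
  have hG : Good (SKJ (n := n) β g) M (1 / 10) := hg
  have hn2 : (2:ℝ) ≤ n := by exact_mod_cast hn
  have hnpos : (0:ℝ) < n := by linarith
  have hlogn : 0 < Real.log n := Real.log_pos (by linarith)
  show 1 / A * Real.log n ≤ tmix β g 0
  unfold tmix
  apply le_csInf (tmix_set_nonempty β g 0)
  rintro t ⟨ht0, ht⟩
  by_contra hcon
  push Not at hcon
  have htA : A * t < Real.log n := by
    have := mul_lt_mul_of_pos_left hcon hApos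
    rwa [← mul_assoc, mul_one_div_cancel hApos.ne', one_mul] at this
  have hcard : (Fintype.card (Fin n) : ℝ) = n := by rw [Fintype.card_fin]
  have hbound : 32 * t * Real.exp ((11 * M + 2) * t) ≤ Fintype.card (Fin n) := by
    rw [hcard]
    have h1 : t ≤ Real.exp t := by have := Real.add_one_le_exp t; linarith
    have h2 : 32 * t * Real.exp ((11 * M + 2) * t) ≤ 32 * Real.exp ((A - 1) * t) := by
      have e : Real.exp ((A - 1) * t) = Real.exp t * Real.exp ((11 * M + 2) * t) := by
        rw [← Real.exp_add]; congr 1; rw [hA]; ring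
      rw [e, mul_assoc]
      exact mul_le_mul_of_nonneg_left
        (mul_le_mul_of_nonneg_right h1 (Real.exp_pos _).le) (by norm_num)
    refine h2.trans ?_
    have h3 : Real.log 32 + (A - 1) * t ≤ Real.log n := by
      have h4 : (A - 1) * t ≤ (A - 1) / A * Real.log n := by
        rw [div_mul_eq_mul_div, le_div_iff₀ hApos]
        have hA1 : 0 ≤ A - 1 := by rw [hA]; linarith
        calc (A - 1) * t * A = (A - 1) * (A * t) := by ring
          _ ≤ (A - 1) * Real.log n := mul_le_mul_of_nonneg_left htA.le hA1
      have h5 : Real.log 32 ≤ 1 / A * Real.log n := by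
        rw [div_mul_eq_mul_div, le_div_iff₀ hApos]
        linarith
      have h6 : (A - 1) / A * Real.log n + 1 / A * Real.log n = Real.log n := by
        rw [← add_mul, ← add_div]
        have : (A - 1 + 1) / A = 1 := by
          rw [sub_add_cancel]; exact div_self hApos.ne'
        rw [this, one_mul]
      linarith
    calc 32 * Real.exp ((A - 1) * t) = Real.exp (Real.log 32 + (A - 1) * t) := by
          rw [Real.exp_add, Real.exp_log (by norm_num)]
      _ ≤ Real.exp (Real.log n) := Real.exp_le_exp.2 h3
      _ = n := Real.exp_log hnpos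
  obtain ⟨x, hx⟩ := tv_lower (SKJ (n := n) β g) M (1 / 10) hG le_rfl hM0 t ht0 hbound
    (by rw [Fintype.card_fin]; omega)
  have h7 := ht x
  unfold tv at h7
  rw [kernel_eq] at h7
  simp only [gibbs_eq] at h7
  linarith
--END

end

end P150
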