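import Vale.Agent.P150.Bridge
import Vale.Agent.P150.Bochner

/-!
# Assembly: deterministic consequences of `Good`
-/

open MeasureTheory ProbabilityTheory Filter Topology

namespace P150

noncomputable section

section ising
variable {ι : Type} [Fintype ι] [DecidableEq ι]

/-- the properties `Good` are inherited by `t J`, `0 ≤ t ≤ 1` -/
theorem Good.smul {J : ι → ι → ℝ} {M δ : ℝ} (hG : Good J M δ) (hM : 0 ≤ M) {t : ℝ}
    (ht : t ∈ Set.Icc (0:ℝ) 1) : Good (fun i j => t * J i j) M δ := by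
  obtain ⟨ht0, ht1⟩ := ht
  refine ⟨fun i j => ?_, fun i => ?_, fun i j => ?_, fun i => ?_, fun y => ?_, fun y => ?_⟩
  · simp only [hG.symm i j]
  · simp only [hG.diag i, mul_zero]
  · rw [abs_mul, abs_of_nonneg ht0]
    calc t * |J i j| ≤ 1 * |J i j| := mul_le_mul_of_nonneg_right ht1 (abs_nonneg _)
      _ ≤ δ := by rw [one_mul]; exact hG.entry i j
  · have h1 : ∀ j, (t * J i j) ^ 2 ≤ J i j ^ 2 := by
      intro j
      rw [mul_pow]
      calc t ^ 2 * J i j ^ 2 ≤ 1 * J i j ^ 2 :=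
            mul_le_mul_of_nonneg_right (by nlinarith) (sq_nonneg _)
        _ = J i j ^ 2 := one_mul _
    exact (Finset.sum_le_sum (fun j _ => h1 j)).trans (hG.row i)
  · have e : ∑ i, ∑ j, t * J i j * y i * y j = t * ∑ i, ∑ j, J i j * y i * y j := by
      rw [Finset.mul_sum]; apply Finset.sum_congr rfl; intro i _
      rw [Finset.mul_sum]; apply Finset.sum_congr rfl; intro j _
      ring
    have hy : 0 ≤ M * ∑ i, y i ^ 2 := mul_nonneg hM (Finset.sum_nonneg (fun i _ => sq_nonneg _))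
    rw [e]
    calc t * ∑ i, ∑ j, J i j * y i * y j ≤ t * (M * ∑ i, y i ^ 2) :=
          mul_le_mul_of_nonneg_left (hG.quad y) ht0
      _ ≤ 1 * (M * ∑ i, y i ^ 2) := mul_le_mul_of_nonneg_right ht1 hy
      _ = _ := one_mul _
  · have e : ∑ i, ∑ j, t * J i j * y i * y j = t * ∑ i, ∑ j, J i j * y i * y j := by
      rw [Finset.mul_sum]; apply Finset.sum_congr rfl; intro i _
      rw [Finset.mul_sum]; apply Finset.sum_congr rfl; intro j _
      ring
    have hy : 0 ≤ M * ∑ i, y i ^ 2 := mul_nonneg hM (Finset.sum_nonneg (fun i _ => sq_nonneg _))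
    rw [e]
    calc -(M * ∑ i, y i ^ 2) = -(1 * (M * ∑ i, y i ^ 2)) := by ring
      _ ≤ -(t * (M * ∑ i, y i ^ 2)) := by
          apply neg_le_neg; exact mul_le_mul_of_nonneg_right ht1 hy
      _ = t * (-(M * ∑ i, y i ^ 2)) := by ring
      _ ≤ t * ∑ i, ∑ j, J i j * y i * y j := mul_le_mul_of_nonneg_left (hG.quad' y) ht0

end ising

open P150.SK in
/-- a Poincare inequality gives a lower bound of the spectral gap -/
theorem le_gap {n : ℕ} (hn : 0 < n) (β : ℝ) (g : Fin n × Fin n → ℝ) (h : Fin n → ℝ) (γ : ℝ)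
    (H : ∀ f, γ * vr (SKJ β g) h f ≤ dirf (SKJ β g) h f) : γ ≤ gap β g h := by
  unfold gap
  obtain ⟨h1, h2⟩ := BridgeAux.spin_test (SKJ β g) (GoodAux.SKJ_symm β g) (GoodAux.SKJ_diag β g)
    h ⟨0, hn⟩
  apply le_csInf
  · refine ⟨_, fun x => sp (x ⟨0, hn⟩), ?_, rfl⟩
    rw [variance_eq]; exact h2.ne'
  · rintro r ⟨f, hf, rfl⟩
    rw [variance_eq] at hf ⊢
    rw [dirichlet_eq]
    have hv : 0 < vr (SKJ β g) h f := lt_of_le_of_ne (BridgeAux.vr_nonneg _ _ _) (Ne.symm hf)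
    rw [le_div_iff₀ hv]
    exact H f

open P150.SK in
/-- a bound of the total variation distance gives an upper bound of the mixing time -/
theorem tmix_le {n : ℕ} (β : ℝ) (g : Fin n × Fin n → ℝ) (h : Fin n → ℝ) (t : ℝ) (ht : 0 ≤ t)
    (H : ∀ x, (∑ y, |Pt (SKJ β g) h t x y - wt (SKJ β g) h y / Zf (SKJ β g) h|) / 2 ≤ 1 / 4) :
    tmix β g h ≤ t := by
  unfold tmix
  apply csInf_le
  · exact ⟨0, fun t ht => ht.1⟩
  · refine ⟨ht, fun x => ?_⟩
    unfold tv
    rw [kernel_eq]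
    simp only [gibbs_eq]
    exact H x

end

end P150
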