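import Mathlib

/-!
# P150: the Sherrington-Kirkpatrick Gibbs measure and its heat-bath dynamics
-/

open MeasureTheory ProbabilityTheory Filter Topology

namespace P150.SK

noncomputable section

/-- configurations of `n` spins; `true` is `+1`, `false` is `-1` -/
abbrev Cfg (n : ℕ) : Type := Fin n → Bool

/-- the value `±1` of a spin -/
def spin (b : Bool) : ℝ := if b then 1 else -1

/-- law of the disorder: i.i.d. standard Gaussians `g (i,j)` (only the entries with `i < j`
are used below) -/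
def disorderLaw (n : ℕ) : Measure (Fin n × Fin n → ℝ) :=
  Measure.pi (fun _ => gaussianReal 0 1)

variable {n : ℕ}

/-- the SK energy `β / √n * ∑_{i<j} g_ij x_i x_j`, plus an external field `∑_i h_i x_i`
(`h = 0` is the zero-field model) -/
def energy (β : ℝ) (g : Fin n × Fin n → ℝ) (h : Fin n → ℝ) (x : Cfg n) : ℝ :=
  β / Real.sqrt n *
    (∑ p : Fin n × Fin n, if p.1 < p.2 then g p * spin (x p.1) * spin (x p.2) else 0)
  + ∑ i, h i * spin (x i)

/-- the SK Gibbs measure (probability mass function) -/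
def gibbs (β : ℝ) (g : Fin n × Fin n → ℝ) (h : Fin n → ℝ) (x : Cfg n) : ℝ :=
  Real.exp (energy β g h x) / ∑ y : Cfg n, Real.exp (energy β g h y)

/-- symmetric couplings: `g_ij = g_ji` is the entry of `g` indexed by the ordered pair -/
def coupling (g : Fin n × Fin n → ℝ) (i j : Fin n) : ℝ :=
  if i < j then g (i, j) else g (j, i)

/-- local field `β / √n * ∑_{j ≠ i} g_ij x_j + h_i` -/
def localField (β : ℝ) (g : Fin n × Fin n → ℝ) (h : Fin n → ℝ) (x : Cfg n) (i : Fin n) : ℝ :=
  β / Real.sqrt n * (∑ j : Fin n, if j = i then 0 else coupling g i j * spin (x j)) + h i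

/-- the kernel `Q_i`: resample the spin `i` from its conditional law `e^{s h_i}/(2 cosh h_i)`,
where `h_i` is the local field -/
def resample (β : ℝ) (g : Fin n × Fin n → ℝ) (h : Fin n → ℝ) (i : Fin n) :
    Matrix (Cfg n) (Cfg n) ℝ :=
  fun x y => if ∀ j, j ≠ i → y j = x j then
    Real.exp (spin (y i) * localField β g h x i) / (2 * Real.cosh (localField β g h x i)) else 0

/-- the generator `L = ∑_i (Q_i - I)` -/
def generator (β : ℝ) (g : Fin n × Fin n → ℝ) (h : Fin n → ℝ) : Matrix (Cfg n) (Cfg n) ℝ :=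
  ∑ i, (resample β g h i - 1)

/-- the continuous-time kernel `P_t = exp (t L)` -/
def kernel (β : ℝ) (g : Fin n × Fin n → ℝ) (h : Fin n → ℝ) (t : ℝ) :
    Matrix (Cfg n) (Cfg n) ℝ :=
  NormedSpace.exp (t • generator β g h)

/-- total variation distance -/
def tv (p q : Cfg n → ℝ) : ℝ := (∑ x, |p x - q x|) / 2

/-- the mixing time of the heat-bath dynamics -/
def tmix (β : ℝ) (g : Fin n × Fin n → ℝ) (h : Fin n → ℝ) : ℝ :=
  sInf {t : ℝ | 0 ≤ t ∧ ∀ x : Cfg n, tv (kernel β g h t x) (gibbs β g h) ≤ 1 / 4}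

/-- variance under the Gibbs measure -/
def variance (β : ℝ) (g : Fin n × Fin n → ℝ) (h : Fin n → ℝ) (f : Cfg n → ℝ) : ℝ :=
  ∑ x, gibbs β g h x * (f x - ∑ y, gibbs β g h y * f y) ^ 2

/-- the Dirichlet form `⟨f, -L f⟩` in `L²(μ)` -/
def dirichlet (β : ℝ) (g : Fin n × Fin n → ℝ) (h : Fin n → ℝ) (f : Cfg n → ℝ) : ℝ :=
  ∑ x, gibbs β g h x * (f x * (-(generator β g h).mulVec f x))

/-- the spectral gap of `-L` on `L²(μ)` (Rayleigh quotient) -/
def gap (β : ℝ) (g : Fin n × Fin n → ℝ) (h : Fin n → ℝ) : ℝ :=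
  sInf {r : ℝ | ∃ f : Cfg n → ℝ, variance β g h f ≠ 0 ∧
    r = dirichlet β g h f / variance β g h f}

end

end P150.SK
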